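import Vale.Agent.P065.H700.Budget2
import Vale.Agent.P065.H819.Hell

/-!
# P065, package TTHIN (helper562), part 5: divergence of the auxiliary law from the laws given one
label

`KL w z` for an unnormalised `z`: `z` is the law of the flags with the label `b` (all columns). The
divergences of the boxes telescope, their sum is at most the coarse content divided by `J`.
-/

set_option autoImplicit false

open Finset Real

set_option linter.unusedSectionVars false

noncomputable section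

namespace Vale.Agent.P065.H562

open Vale.Agent.P065.Ent Vale.Agent.P065.H819 Vale.Agent.P065.H700

/-! ## General part -/

section general

variable {Θ : Type*} [Fintype Θ] {α β γ : Type*} {w z : Θ → ℝ}

lemma Pr_nn (hw : ∀ t, 0 ≤ w t) (X : Θ → α) (x : α) : 0 ≤ Pr w X x := by
  classical
  unfold Pr
  refine sum_nonneg fun t _ => ?_
  split_ifs
  · exact hw t
  · exact le_rfl

lemma le_Pr_nn (hw : ∀ t, 0 ≤ w t) (X : Θ → α) (t : Θ) : w t ≤ Pr w X (X t) := by
  classical
  unfold Pr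
  have h := single_le_sum (f := fun s => if X s = X t then w s else 0)
    (fun s _ => by
      show 0 ≤ if X s = X t then w s else 0
      split_ifs
      · exact hw s
      · exact le_rfl) (mem_univ t)
  simpa using h

lemma Pr_mono_nn (hw : ∀ t, 0 ≤ w t) {X : Θ → α} {Y : Θ → β} (h : Det X Y) (t : Θ) :
    Pr w X (X t) ≤ Pr w Y (Y t) := by
  classical
  unfold Pr
  refine sum_le_sum fun s _ => ?_
  by_cases h1 : X s = X t
  · rw [if_pos h1, if_pos (h s t h1)]
  · rw [if_neg h1]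
    split_ifs
    · exact hw s
    · exact le_rfl

/-- sums over the values in a box -/
lemma sum_values (Y : Θ → γ) (R : Θ → β) (r : β) (s : Finset γ) (hs : ∀ t, R t = r → Y t ∈ s)
    (g : γ → ℝ) [DecidableEq β] :
    ∑ y ∈ s, Pr w (fun t => (Y t, R t)) (y, r) * g y = ∑ t, if R t = r then w t * g (Y t) else 0 := by
  classical
  unfold Pr
  have h1 : ∀ y, (∑ t, if (Y t, R t) = (y, r) then w t else 0) * g y =
      ∑ t, if (Y t, R t) = (y, r) then w t * g (Y t) else 0 := by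
    intro y
    rw [sum_mul]
    refine sum_congr rfl fun t _ => ?_
    by_cases h : (Y t, R t) = (y, r)
    · rw [if_pos h, if_pos h, (Prod.mk.inj h).1]
    · rw [if_neg h, if_neg h, zero_mul]
  have h2 : ∑ y ∈ s, Pr w (fun t => (Y t, R t)) (y, r) * g y =
      ∑ y ∈ s, ∑ t, if (Y t, R t) = (y, r) then w t * g (Y t) else 0 := by
    refine sum_congr rfl fun y _ => ?_
    rw [← h1 y]
    unfold Pr
    congr 1
    refine sum_congr rfl fun t _ => ?_
    by_cases h : (Y t, R t) = (y, r)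
    · rw [if_pos h, if_pos h]
    · rw [if_neg h, if_neg h]
  unfold Pr at h2
  rw [h2, sum_comm]
  refine sum_congr rfl fun t _ => ?_
  by_cases h : R t = r
  · rw [if_pos h, sum_eq_single (Y t)]
    · rw [if_pos (by rw [h])]
    · intro y _ hy
      rw [if_neg fun h' => hy (Prod.mk.inj h').1.symm]
    · intro h'
      exact absurd (hs t h) h'
  · rw [if_neg h]
    refine sum_eq_zero fun y _ => if_neg fun h' => h (Prod.mk.inj h').2

open Classical in
/-- the divergence in one box -/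
lemma box_gk (hw : ∀ t, 0 ≤ w t) (hz : ∀ t, 0 ≤ z t) (Y : Θ → γ) (R : Θ → β)
    (ac : ∀ t, 0 < w t → 0 < Pr z (fun t => (Y t, R t)) (Y t, R t)) (r : β)
    (s : Finset γ) (hs : ∀ t, R t = r → Y t ∈ s) :
    Pr w R r * ∑ y ∈ s, gk (Pr w (fun t => (Y t, R t)) (y, r) / Pr w R r)
      (Pr z (fun t => (Y t, R t)) (y, r) / Pr z R r) =
      ∑ t, if R t = r then w t * (log (Pr w (fun t => (Y t, R t)) (Y t, R t) /
        Pr z (fun t => (Y t, R t)) (Y t, R t)) - log (Pr w R (R t) / Pr z R (R t))) else 0 := by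
  rcases (Pr_nn hw R r).eq_or_lt with hW | hW
  · rw [← hW, zero_mul]
    symm
    refine sum_eq_zero fun t _ => ?_
    split_ifs with h
    · have h1 := le_Pr_nn hw R t
      rw [h, ← hW] at h1
      rw [le_antisymm h1 (hw t), zero_mul]
    · rfl
  -- a flag of positive mass
  obtain ⟨t₀, ht₀, hR₀⟩ : ∃ t, 0 < w t ∧ R t = r := by
    by_contra hcon
    push Not at hcon
    have : Pr w R r = 0 := by
      unfold Pr
      refine sum_eq_zero fun t _ => ?_
      split_ifs with h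
      · exact le_antisymm (not_lt.mp fun h' => hcon t h' h) (hw t)
      · rfl
    rw [this] at hW
    exact lt_irrefl _ hW
  have hZ : 0 < Pr z R r := by
    have h1 := ac t₀ ht₀
    have h2 : Pr z (fun t => (Y t, R t)) (Y t₀, R t₀) ≤ Pr z R (R t₀) :=
      Pr_mono_nn hz (X := fun t => (Y t, R t)) (Y := R) (det_snd Y R) t₀
    rw [← hR₀]
    exact h1.trans_le h2
  have hsw := sum_values (w := w) Y R r s hs (fun _ => 1)
  have hsz := sum_values (w := z) Y R r s hs (fun _ => 1)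
  simp only [mul_one] at hsw hsz
  have hW' : (∑ t, if R t = r then w t else 0) = Pr w R r := by
    unfold Pr
    exact sum_congr rfl fun t _ => by split_ifs <;> rfl
  have hZ' : (∑ t, if R t = r then z t else 0) = Pr z R r := by
    unfold Pr
    exact sum_congr rfl fun t _ => by split_ifs <;> rfl
  rw [hW'] at hsw
  rw [hZ'] at hsz
  -- expand `gk`
  have h1 : ∑ y ∈ s, gk (Pr w (fun t => (Y t, R t)) (y, r) / Pr w R r)
      (Pr z (fun t => (Y t, R t)) (y, r) / Pr z R r) =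
      ∑ y ∈ s, Pr w (fun t => (Y t, R t)) (y, r) / Pr w R r *
        log ((Pr w (fun t => (Y t, R t)) (y, r) / Pr w R r) /
          (Pr z (fun t => (Y t, R t)) (y, r) / Pr z R r)) := by
    unfold gk
    rw [sum_add_distrib, sum_sub_distrib, ← sum_div, ← sum_div, hsw, hsz, div_self hW.ne',
      div_self hZ.ne']
    ring
  rw [h1, mul_sum]
  have h2 : ∀ y ∈ s, Pr w R r * (Pr w (fun t => (Y t, R t)) (y, r) / Pr w R r *
        log ((Pr w (fun t => (Y t, R t)) (y, r) / Pr w R r) /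
          (Pr z (fun t => (Y t, R t)) (y, r) / Pr z R r))) =
      Pr w (fun t => (Y t, R t)) (y, r) *
        log ((Pr w (fun t => (Y t, R t)) (y, r) / Pr w R r) /
          (Pr z (fun t => (Y t, R t)) (y, r) / Pr z R r)) := by
    intro y _
    rw [← mul_assoc, mul_div_cancel₀ _ hW.ne']
  rw [sum_congr rfl h2, sum_values (w := w) Y R r s hs
    (fun y => log ((Pr w (fun t => (Y t, R t)) (y, r) / Pr w R r) /
          (Pr z (fun t => (Y t, R t)) (y, r) / Pr z R r)))]
  refine sum_congr rfl fun t _ => ?_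
  split_ifs with h
  · rcases (hw t).eq_or_lt with h0 | h0
    · rw [← h0, zero_mul, zero_mul]
    · congr 1
      have p1 : 0 < Pr w (fun t => (Y t, R t)) (Y t, R t) :=
        h0.trans_le (le_Pr_nn hw (fun t => (Y t, R t)) t)
      have p2 := ac t h0
      rw [← h]
      rw [← h] at hW hZ
      rw [← log_div (div_pos p1 p2).ne' (div_pos hW hZ).ne']
      congr 1
      field_simp
  · rfl

lemma gk_ratio_nonneg (hw : ∀ t, 0 ≤ w t) (hz : ∀ t, 0 ≤ z t) (Y : Θ → γ) (R : Θ → β)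
    (ac : ∀ t, 0 < w t → 0 < Pr z (fun t => (Y t, R t)) (Y t, R t)) (r : β) (y : γ) :
    0 ≤ gk (Pr w (fun t => (Y t, R t)) (y, r) / Pr w R r)
      (Pr z (fun t => (Y t, R t)) (y, r) / Pr z R r) := by
  classical
  refine gk_nonneg (div_nonneg (Pr_nn hw _ _) (Pr_nn hw _ _))
    (div_nonneg (Pr_nn hz _ _) (Pr_nn hz _ _)) fun h => ?_
  have h1 : 0 < Pr w (fun t => (Y t, R t)) (y, r) := by
    rcases (Pr_nn hw (fun t => (Y t, R t)) (y, r)).eq_or_lt with h0 | h0
    · rw [← h0, zero_div] at h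
      exact absurd h (lt_irrefl _)
    · exact h0
  obtain ⟨t₀, ht₀, hR₀⟩ : ∃ t, 0 < w t ∧ (Y t, R t) = (y, r) := by
    by_contra hcon
    push Not at hcon
    have : Pr w (fun t => (Y t, R t)) (y, r) = 0 := by
      unfold Pr
      refine sum_eq_zero fun t _ => ?_
      split_ifs with h
      · exact le_antisymm (not_lt.mp fun h' => hcon t h' h) (hw t)
      · rfl
    rw [this] at h1
    exact lt_irrefl _ h1
  have h2 := ac t₀ ht₀
  rw [hR₀] at h2
  have h3 : Pr z (fun t => (Y t, R t)) (Y t₀, R t₀) ≤ Pr z R (R t₀) :=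
    Pr_mono_nn hz (X := fun t => (Y t, R t)) (Y := R) (det_snd Y R) t₀
  rw [hR₀, (Prod.mk.inj hR₀).2] at h3
  exact div_pos h2 (h2.trans_le h3)

open Classical in
/-- **the divergences of the boxes** -/
theorem sum_gk_le (hw : ∀ t, 0 ≤ w t) (hz : ∀ t, 0 ≤ z t) (Y : Θ → γ) (R : Θ → β)
    (ac : ∀ t, 0 < w t → 0 < Pr z (fun t => (Y t, R t)) (Y t, R t)) (G : Finset β)
    (s : β → Finset γ) (hs : ∀ r, ∀ t, R t = r → Y t ∈ s r) :
    ∑ r ∈ G, Pr w R r * ∑ y ∈ s r, gk (Pr w (fun t => (Y t, R t)) (y, r) / Pr w R r)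
      (Pr z (fun t => (Y t, R t)) (y, r) / Pr z R r) ≤
      KL w z (fun t => (Y t, R t)) - KL w z R := by
  have h0 : ∀ r, 0 ≤ Pr w R r * ∑ y ∈ s r, gk (Pr w (fun t => (Y t, R t)) (y, r) / Pr w R r)
      (Pr z (fun t => (Y t, R t)) (y, r) / Pr z R r) := fun r =>
    mul_nonneg (Pr_nn hw _ _) (sum_nonneg fun y _ => gk_ratio_nonneg hw hz Y R ac r y)
  have h1 : ∑ r ∈ G, Pr w R r * ∑ y ∈ s r, gk (Pr w (fun t => (Y t, R t)) (y, r) / Pr w R r)
      (Pr z (fun t => (Y t, R t)) (y, r) / Pr z R r) ≤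
      ∑ r ∈ G ∪ univ.image R, Pr w R r * ∑ y ∈ s r,
        gk (Pr w (fun t => (Y t, R t)) (y, r) / Pr w R r)
        (Pr z (fun t => (Y t, R t)) (y, r) / Pr z R r) :=
    sum_le_sum_of_subset_of_nonneg subset_union_left fun r _ _ => h0 r
  refine h1.trans (le_of_eq ?_)
  rw [sum_congr rfl fun r _ => box_gk hw hz Y R ac r (s r) (hs r), sum_comm]
  unfold KL
  rw [← sum_sub_distrib]
  refine sum_congr rfl fun t _ => ?_
  rw [sum_ite_eq, if_pos (mem_union_right _ (mem_image_of_mem R (mem_univ t)))]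
  ring

/-- data processing for an unnormalised law -/
theorem KL_mono_nn (hw : ∀ t, 0 ≤ w t) (hz : ∀ t, 0 ≤ z t) {X : Θ → α} {R : Θ → β}
    (h : Det X R) (ac : ∀ t, 0 < w t → 0 < Pr z X (X t)) : KL w z R ≤ KL w z X := by
  classical
  have e : KL w z (fun t => (X t, R t)) = KL w z X :=
    KL_congr (det_fst X R) ((Det.refl X).pair h)
  have ac' : ∀ t, 0 < w t → 0 < Pr z (fun t => (X t, R t)) (X t, R t) := by
    intro t ht
    have h1 := Pr_mono_nn hz (X := X) (Y := fun t => (X t, R t)) ((Det.refl X).pair h) t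
    exact (ac t ht).trans_le h1
  have h1 := sum_gk_le hw hz X R ac' ∅ (fun _ => univ.image X) (fun r t _ =>
    mem_image_of_mem X (mem_univ t))
  rw [sum_empty, e] at h1
  linarith

/-- the divergences of the boxes, the fine variable determined by `X` -/
theorem sum_gk_le' (hw : ∀ t, 0 ≤ w t) (hz : ∀ t, 0 ≤ z t) {X : Θ → α} (Y : Θ → γ) (R : Θ → β)
    (hX : Det X (fun t => (Y t, R t)))
    (ac : ∀ t, 0 < w t → 0 < Pr z X (X t)) (G : Finset β)
    (s : β → Finset γ) (hs : ∀ r, ∀ t, R t = r → Y t ∈ s r) :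
    ∑ r ∈ G, Pr w R r * ∑ y ∈ s r, gk (Pr w (fun t => (Y t, R t)) (y, r) / Pr w R r)
      (Pr z (fun t => (Y t, R t)) (y, r) / Pr z R r) ≤ KL w z X - KL w z R := by
  have ac' : ∀ t, 0 < w t → 0 < Pr z (fun t => (Y t, R t)) (Y t, R t) := by
    intro t ht
    exact (ac t ht).trans_le (Pr_mono_nn hz hX t)
  have h1 := sum_gk_le hw hz Y R ac' G s hs
  have h2 := KL_mono_nn hw hz hX ac
  linarith

/-- telescoping with windows of length `m` -/
lemma window_sum (K : ℕ → ℝ) (hK : ∀ j, K j ≤ K (j + 1)) (n m : ℕ) :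
    ∑ v ∈ range n, (K (v + m) - K v) ≤ m * (K (n + m) - K 0) := by
  have hmono : Monotone K := monotone_nat_of_le_succ hK
  have h1 : ∀ v, K (v + m) - K v = ∑ j ∈ range m, (K (v + j + 1) - K (v + j)) := by
    intro v
    have := Finset.sum_range_sub (fun j => K (v + j)) m
    simpa [add_assoc] using this.symm
  rw [sum_congr rfl fun v _ => h1 v, sum_comm]
  have h2 : ∀ j ∈ range m, ∑ v ∈ range n, (K (v + j + 1) - K (v + j)) ≤ K (n + m) - K 0 := by
    intro j hj
    have h3 := Finset.sum_range_sub (fun v => K (v + j)) n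
    have h4 : ∑ v ∈ range n, (K (v + j + 1) - K (v + j)) = K (n + j) - K (0 + j) := by
      rw [← h3]
      refine sum_congr rfl fun v _ => ?_
      rw [show v + j + 1 = v + 1 + j by ring]
    rw [h4]
    have h5 : K (n + j) ≤ K (n + m) := hmono (by have := mem_range.mp hj; omega)
    have h6 : K 0 ≤ K (0 + j) := hmono (by omega)
    linarith
  refine (sum_le_sum h2).trans ?_
  rw [sum_const, card_range, nsmul_eq_mul]

end general

/-! ## Columns -/

variable {Ω : Type*} [Fintype Ω] {κ : Type*} [Fintype κ] {α β γ : Type*}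
variable {C : Cols Ω κ α} {μ : Ω → ℝ}

open Classical in
/-- the unnormalised law of the flags with the label `b` -/
def zl (C : Cols Ω κ α) (μ : Ω → ℝ) (b : Bool) (t : κ × Ω) : ℝ :=
  if C.E t.1 t.2 = some b then μ t.2 else 0

lemma zl_nonneg (hμ : IsProb μ) (b : Bool) (t : κ × Ω) : 0 ≤ zl C μ b t := by
  unfold zl
  split_ifs
  · exact hμ.nonneg _
  · exact le_rfl

open Classical in
/-- **domination** -/
theorem Q_dom (hμ : IsProb μ) (b : Bool) (A : κ × Ω → Prop)
    (hA : ∀ k ω ω', C.ρ k ω = C.ρ k ω' → A (k, ω) → A (k, ω')) :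
    (∑ t, if A t then C.Q μ t else 0) ≤ (∑ t, if A t then zl C μ b t else 0) / C.J μ := by
  set f : κ → α → ℝ := fun k a => if ∃ ω, C.ρ k ω = a ∧ A (k, ω) then 1 else 0 with hf
  have hfe : ∀ k ω, f k (C.ρ k ω) = if A (k, ω) then 1 else 0 := by
    intro k ω
    simp only [hf]
    by_cases h : A (k, ω)
    · rw [if_pos h, if_pos ⟨ω, rfl, h⟩]
    · rw [if_neg h, if_neg]
      rintro ⟨ω', h1, h2⟩
      exact h (hA k ω' ω h1 h2)
  have h1 := Cols.sum_Q_le (C := C) hμ f (fun k a => by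
    simp only [hf]; split_ifs <;> norm_num) (fun _ => b)
  have e1 : ∑ t : κ × Ω, C.Q μ t * f t.1 (C.ρ t.1 t.2) = ∑ t, if A t then C.Q μ t else 0 := by
    refine sum_congr rfl fun t _ => ?_
    rw [hfe]
    by_cases h : A t
    · rw [if_pos h, if_pos h, mul_one]
    · rw [if_neg h, if_neg h, mul_zero]
  have e2 : (∑ k, ∑ ω, (if C.E k ω = some b then μ ω * f k (C.ρ k ω) else 0)) =
      ∑ t, if A t then zl C μ b t else 0 := by
    rw [Fintype.sum_prod_type]
    refine sum_congr rfl fun k _ => sum_congr rfl fun ω _ => ?_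
    unfold zl
    rw [hfe]
    by_cases h : A (k, ω)
    · by_cases h' : C.E k ω = some b
      · rw [if_pos h', if_pos h, if_pos h, if_pos h', mul_one]
      · rw [if_neg h', if_pos h, if_neg h']
    · by_cases h' : C.E k ω = some b
      · rw [if_pos h', if_neg h, if_neg h, mul_zero]
      · rw [if_neg h', if_neg h]
  rw [e1, e2] at h1
  exact h1

/-- domination of probabilities -/
theorem Pr_Q_le (hμ : IsProb μ) (b : Bool) {X : κ × Ω → β}
    (hX : Det (fun t : κ × Ω => (t.1, C.ρ t.1 t.2)) X) (x : β) :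
    Pr (C.Q μ) X x ≤ Pr (zl C μ b) X x / C.J μ := by
  classical
  have h := Q_dom (C := C) hμ b (fun t => X t = x) (fun k ω ω' h1 h2 => by
    have := hX (k, ω) (k, ω') (by simp only [h1])
    rw [← this]; exact h2)
  unfold Pr
  have e1 : ∀ f : κ × Ω → ℝ, (∑ t, if X t = x then f t else 0) =
      ∑ t, @ite _ (X t = x) (Classical.propDecidable _) (f t) 0 := fun f =>
    sum_congr rfl fun t _ => by by_cases h : X t = x <;> simp [h]
  rw [e1, e1]
  exact h

lemma zl_ac (hμ : IsProb μ) (hJ : 0 < C.J μ) (b : Bool) {X : κ × Ω → β}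
    (hX : Det (fun t : κ × Ω => (t.1, C.ρ t.1 t.2)) X) {t : κ × Ω} (ht : 0 < C.Q μ t) :
    0 < Pr (zl C μ b) X (X t) := by
  have h1 := Pr_Q_le (C := C) hμ b hX (X t)
  have h2 : 0 < Pr (C.Q μ) X (X t) :=
    ht.trans_le (le_Pr_nn (fun t => Cols.Q_nonneg hμ t) X t)
  have h3 := h2.trans_le h1
  by_contra hcon
  have h4 : Pr (zl C μ b) X (X t) / C.J μ ≤ 0 :=
    div_nonpos_of_nonpos_of_nonneg (not_lt.mp hcon) hJ.le
  linarith

/-- the final value of the divergence -/
lemma KL_fine_le (hμ : IsProb μ) (hJ : 0 < C.J μ) (b : Bool) {X : κ × Ω → β}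
    (hX : Det (fun t : κ × Ω => (t.1, C.ρ t.1 t.2)) X) :
    KL (C.Q μ) (zl C μ b) X ≤ - log (C.J μ) := by
  have hQ := Cols.isProb_Q (C := C) hμ hJ
  unfold KL
  have h1 : ∀ t, C.Q μ t * log (Pr (C.Q μ) X (X t) / Pr (zl C μ b) X (X t)) ≤
      C.Q μ t * (- log (C.J μ)) := by
    intro t
    rcases (hQ.nonneg t).eq_or_lt with h0 | h0
    · rw [← h0]; simp
    · refine mul_le_mul_of_nonneg_left ?_ h0.le
      have p1 : 0 < Pr (C.Q μ) X (X t) := h0.trans_le (le_Pr_nn (fun t => Cols.Q_nonneg hμ t) X t)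
      have p2 := zl_ac hμ hJ b hX h0
      rw [← log_inv]
      refine log_le_log (div_pos p1 p2) ?_
      rw [div_le_iff₀ p2, inv_mul_eq_div]
      exact Pr_Q_le hμ b hX (X t)
  refine (sum_le_sum fun t _ => h1 t).trans (le_of_eq ?_)
  rw [← sum_mul, hQ.sum, one_mul]

/-- the coarse probability -/
lemma Pr_Q_zero (hμ : IsProb μ) (F : C.Filt) (k : κ) (ω : Ω) (hm : 0 < μ ω) :
    Pr (C.Q μ) (fun t : κ × Ω => (t.1, F.R 0 t.1 t.2)) (k, F.R 0 k ω) =
      F.g μ k (F.R 0 k ω) * Pr μ (F.R 0 k) (F.R 0 k ω) / C.J μ := by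
  have p2 := Pr_pos hμ (F.R 0 k) hm
  rw [Pr_col (C.Q μ) (F.R 0) k]
  unfold Cols.Filt.g
  rw [div_mul_cancel₀ _ p2.ne']
  have h6 := Cols.col_sum (C := C) hμ k (fun a => by
    classical exact if F.r 0 k a = F.R 0 k ω then 1 else 0)
  unfold Pr
  rw [sum_div]
  have h7 : ∑ ω', (by classical exact if F.R 0 k ω' = F.R 0 k ω then C.Q μ (k, ω') else 0) =
      (∑ ω', μ ω' * C.dens μ k ω' * (by
        classical exact if F.r 0 k (C.ρ k ω') = F.R 0 k ω then 1 else 0)) / C.J μ := by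
    rw [sum_div]
    refine sum_congr rfl fun ω' _ => ?_
    rw [F.eq]
    unfold Cols.Q
    split_ifs <;> simp
  rw [h7, h6, sum_div]
  refine sum_congr rfl fun ω' _ => ?_
  rw [F.eq 0 k ω']
  split_ifs <;> simp

lemma Pr_zl (b : Bool) (X : κ → Ω → β) (k : κ) (x : β) :
    Pr (zl C μ b) (fun t : κ × Ω => (t.1, X t.1 t.2)) (k, x) =
      Pr μ (fun ω => (C.E k ω, X k ω)) (some b, x) := by
  classical
  rw [Pr_col (zl C μ b) X k]
  unfold Pr
  refine sum_congr rfl fun ω _ => ?_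
  unfold zl
  by_cases h1 : X k ω = x
  · by_cases h2 : C.E k ω = some b
    · simp [h1, h2]
    · simp [h1, h2]
  · simp [h1]

open Classical in
/-- the coarse content under the auxiliary law -/
theorem sum_neg_log_g (hμ : IsProb μ) (hJ : 0 < C.J μ) (F : C.Filt) (hF : F.Good μ) :
    ∑ t : κ × Ω, C.Q μ t * (- log (F.g μ t.1 (F.R 0 t.1 t.2))) ≤
      3 * (F.A μ false + F.A μ true) / C.J μ := by
  -- expectation under the auxiliary law
  have h3 : ∑ t : κ × Ω, C.Q μ t * (- log (F.g μ t.1 (F.R 0 t.1 t.2))) =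
      (∑ k, ∑ ω, μ ω * (- (F.g μ k (F.R 0 k ω) * log (F.g μ k (F.R 0 k ω))))) / C.J μ := by
    have h4 := Cols.sum_Q (C := C) hμ (fun k a => - log (F.g μ k (F.r 0 k a)))
    simp only [← F.eq] at h4
    rw [h4]
    congr 1
    refine sum_congr rfl fun k _ => ?_
    have h5 := sum_fiber (fun ω => μ ω * C.wt μ k (C.ρ k ω)) (F.R 0 k)
      (fun x => - log (F.g μ k x))
    have h6 := sum_fiber μ (F.R 0 k) (fun x => - (F.g μ k x * log (F.g μ k x)))
    rw [h6]
    have h7 : ∑ ω, μ ω * (C.wt μ k (C.ρ k ω) * - log (F.g μ k (F.R 0 k ω))) =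
        ∑ ω, μ ω * C.wt μ k (C.ρ k ω) * - log (F.g μ k (F.R 0 k ω)) :=
      sum_congr rfl fun ω _ => by ring
    rw [h7, h5]
    refine sum_congr rfl fun x _ => ?_
    rcases eq_or_ne (Pr μ (F.R 0 k) x) 0 with h0 | h0
    · rw [h0, zero_mul]
      have h8 : F.g μ k x = 0 := by unfold Cols.Filt.g; rw [h0, div_zero]
      rw [h8, log_zero]; simp
    · have h8 : Pr (fun ω => μ ω * C.wt μ k (C.ρ k ω)) (F.R 0 k) x =
          Pr μ (F.R 0 k) x * F.g μ k x := by
        unfold Cols.Filt.g; rw [mul_div_cancel₀ _ h0]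
      rw [h8]; ring
  have h4 : (∑ k, ∑ ω, μ ω * (- (F.g μ k (F.R 0 k ω) * log (F.g μ k (F.R 0 k ω))))) ≤
      3 * (F.A μ false + F.A μ true) := by
    -- the content as an expectation
    have h5 : ∀ b, F.A μ b = ∑ k, ∑ ω, μ ω * (if F.rel k (F.R 0 k ω) then
        - (cp μ (C.E k) (some b) (F.R 0 k) ω * log (cp μ (C.E k) (some b) (F.R 0 k) ω)) else 0) := by
      intro b
      unfold Cols.Filt.A
      refine sum_congr rfl fun k _ => ?_
      have h6 := tower hμ (C.E k) (F.R 0 k) (some b) (fun x => if F.rel k x then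
        - log (Pr μ (fun ω => (C.E k ω, F.R 0 k ω)) (some b, x) / Pr μ (F.R 0 k) x) else 0)
      have h7 : ∑ ω, (if C.E k ω = some b ∧ F.rel k (F.R 0 k ω) then
          μ ω * (- log (cp μ (C.E k) (some b) (F.R 0 k) ω)) else 0) =
          ∑ ω, (if C.E k ω = some b then μ ω * (if F.rel k (F.R 0 k ω) then
            - log (Pr μ (fun ω => (C.E k ω, F.R 0 k ω)) (some b, F.R 0 k ω) /
              Pr μ (F.R 0 k) (F.R 0 k ω)) else 0) else 0) := by
        refine sum_congr rfl fun ω _ => ?_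
        unfold cp
        by_cases e1 : C.E k ω = some b <;> by_cases e2 : F.rel k (F.R 0 k ω) <;> simp [e1, e2]
      rw [h7, h6]
      refine sum_congr rfl fun ω _ => ?_
      unfold cp
      by_cases e2 : F.rel k (F.R 0 k ω) <;> simp [e2]
    rw [h5 false, h5 true, ← sum_add_distrib, mul_sum]
    refine sum_le_sum fun k _ => ?_
    rw [← sum_add_distrib, mul_sum]
    refine sum_le_sum fun ω _ => ?_
    rw [← mul_add, mul_left_comm]
    refine mul_le_mul_of_nonneg_left ?_ (hμ.nonneg ω)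
    set c0 := cp μ (C.E k) (some false) (F.R 0 k) ω with hc0
    set c1 := cp μ (C.E k) (some true) (F.R 0 k) ω with hc1
    have hg0 := Cols.Filt.g_le hμ F k false (F.R 0 k ω)
    have hg1 := Cols.Filt.g_le hμ F k true (F.R 0 k ω)
    have hg := Cols.Filt.g_nonneg hμ F k (F.R 0 k ω)
    have hc00 : 0 ≤ c0 := cp_nonneg hμ _ _ _ _
    have hc10 : 0 ≤ c1 := cp_nonneg hμ _ _ _ _
    have hsum : c0 + c1 ≤ 1 := by
      rw [hc0, hc1]
      unfold cp
      rw [← add_div]
      refine div_le_one_of_le₀ ?_ (Pr_nonneg hμ _ _)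
      unfold Pr
      rw [← sum_add_distrib]
      refine sum_le_sum fun ω' _ => ?_
      by_cases hr : F.R 0 k ω' = F.R 0 k ω
      · rcases h : C.E k ω' with _ | b
        · simp [hr, h, hμ.nonneg ω']
        · cases b <;> simp [hr, h]
      · simp [hr]
    have hn0 : 0 ≤ - (c0 * log c0) := by
      have := log_nonpos hc00 (by linarith)
      nlinarith
    have hn1 : 0 ≤ - (c1 * log c1) := by
      have := log_nonpos hc10 (by linarith)
      nlinarith
    by_cases hrel : F.rel k (F.R 0 k ω)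
    · rw [if_pos hrel, if_pos hrel]
      rcases le_total c0 c1 with hle | hle
      · have hg0' : F.g μ k (F.R 0 k ω) ≤ c0 := hg0
        have hc : c0 ≤ 1 / 2 := by linarith
        have := neg_mul_log_le hg hg0' hc
        linarith
      · have hg1' : F.g μ k (F.R 0 k ω) ≤ c1 := hg1
        have hc : c1 ≤ 1 / 2 := by linarith
        have := neg_mul_log_le hg hg1' hc
        linarith
    · rw [if_neg hrel, if_neg hrel]
      -- irrelevant boxes have zero mean weight
      have hz : F.g μ k (F.R 0 k ω) = 0 := by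
        unfold Cols.Filt.g
        have : Pr (fun ω => μ ω * C.wt μ k (C.ρ k ω)) (F.R 0 k) (F.R 0 k ω) = 0 := by
          unfold Pr
          refine sum_eq_zero fun ω' _ => ?_
          split_ifs with he
          · rcases (Cols.wt_nonneg (C := C) hμ k (C.ρ k ω')).eq_or_lt with h9 | h9
            · show μ ω' * C.wt μ k (C.ρ k ω') = 0
              rw [← h9, mul_zero]
            · have h10 := hF k ω' h9
              rw [he] at h10
              exact absurd h10 hrel
          · rfl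
        rw [this, zero_div]
      rw [hz]; simp
  rw [h3]
  exact div_le_div_of_nonneg_right h4 hJ.le

lemma det_Filt (F : C.Filt) (j : ℕ) : Det (fun t : κ × Ω => (t.1, C.ρ t.1 t.2))
    (fun t => (t.1, F.R j t.1 t.2)) := by
  rintro ⟨k, ω⟩ ⟨k', ω'⟩ h
  obtain ⟨h1, h2⟩ := Prod.mk.inj h
  simp only at h1 h2
  subst h1
  simp only [F.eq, h2]

lemma det_Filt_succ (F : C.Filt) (j : ℕ) : Det (fun t : κ × Ω => (t.1, F.R (j + 1) t.1 t.2))
    (fun t => (t.1, F.R j t.1 t.2)) := by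
  rintro ⟨k, ω⟩ ⟨k', ω'⟩ h
  obtain ⟨h1, h2⟩ := Prod.mk.inj h
  simp only at h1 h2
  subst h1
  have h3 := F.det j k ω ω' h2
  simp only [h3]

/-- the initial value of the divergence -/
lemma KL_zero_ge (hμ : IsProb μ) (hJ : 0 < C.J μ) (F : C.Filt) (hF : F.Good μ) (b : Bool) :
    - log (C.J μ) - 3 * (F.A μ false + F.A μ true) / C.J μ ≤
      KL (C.Q μ) (zl C μ b) (fun t : κ × Ω => (t.1, F.R 0 t.1 t.2)) := by
  have hQ := Cols.isProb_Q (C := C) hμ hJ
  have h0 := sum_neg_log_g hμ hJ F hF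
  have h1 : ∑ t, C.Q μ t * (- log (C.J μ)) = - log (C.J μ) := by
    rw [← sum_mul, hQ.sum, one_mul]
  have h2 : ∑ t : κ × Ω, C.Q μ t * (- log (C.J μ)) -
      ∑ t : κ × Ω, C.Q μ t * (- log (F.g μ t.1 (F.R 0 t.1 t.2))) ≤
      KL (C.Q μ) (zl C μ b) (fun t : κ × Ω => (t.1, F.R 0 t.1 t.2)) := by
    unfold KL
    rw [← sum_sub_distrib]
    refine sum_le_sum fun t _ => ?_
    rcases (hQ.nonneg t).eq_or_lt with h0 | h0
    · rw [← h0]; simp
    · obtain ⟨k, ω⟩ := t
      rw [← mul_sub]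
      refine mul_le_mul_of_nonneg_left ?_ h0.le
      simp only
      have hm : 0 < μ ω := by
        have h3 := Cols.Q_le (C := C) hμ (k, ω)
        rcases (hμ.nonneg ω).eq_or_lt with h4 | h4
        · rw [← h4, zero_div] at h3; linarith
        · exact h4
      have pQ : 0 < Pr (C.Q μ) (fun t : κ × Ω => (t.1, F.R 0 t.1 t.2)) (k, F.R 0 k ω) :=
        h0.trans_le (le_Pr_nn (fun t => Cols.Q_nonneg hμ t)
          (fun t : κ × Ω => (t.1, F.R 0 t.1 t.2)) (k, ω))
      have pz := zl_ac hμ hJ b (det_Filt F 0) h0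
      simp only at pz
      have p2 := Pr_pos hμ (F.R 0 k) hm
      rw [Pr_Q_zero hμ F k ω hm] at pQ ⊢
      rw [Pr_zl b (F.R 0) k] at pz ⊢
      have hgpos : 0 < F.g μ k (F.R 0 k ω) := by
        by_contra hcon
        have h5 : F.g μ k (F.R 0 k ω) * Pr μ (F.R 0 k) (F.R 0 k ω) / C.J μ ≤ 0 :=
          div_nonpos_of_nonpos_of_nonneg
            (mul_nonpos_of_nonpos_of_nonneg (not_lt.mp hcon) p2.le) hJ.le
        linarith
      have h6 := Pr_pair_le hμ (C.E k) (some b) (F.R 0 k) (F.R 0 k ω)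
      have h7 : F.g μ k (F.R 0 k ω) / C.J μ ≤
          F.g μ k (F.R 0 k ω) * Pr μ (F.R 0 k) (F.R 0 k ω) / C.J μ /
            Pr μ (fun ω => (C.E k ω, F.R 0 k ω)) (some b, F.R 0 k ω) := by
        rw [le_div_iff₀ pz, div_mul_eq_mul_div]
        refine div_le_div_of_nonneg_right ?_ hJ.le
        exact mul_le_mul_of_nonneg_left h6 hgpos.le
      have h8 := log_le_log (div_pos hgpos hJ) h7
      rw [log_div hgpos.ne' hJ.ne'] at h8
      linarith
  linarith

open Classical in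
/-- **(D2)**: the sum of the divergences of the auxiliary law from the laws given one label, windows
of length `m` -/
theorem budget_T (hμ : IsProb μ) (hJ : 0 < C.J μ) (F : C.Filt) (hF : F.Good μ) (b : Bool)
    (n m : ℕ) {υ : Type*} (Y : ℕ → κ × Ω → υ)
    (hY : ∀ v, Det (fun t : κ × Ω => (t.1, F.R (v + m) t.1 t.2))
      (fun t => (Y v t, (t.1, F.R v t.1 t.2))))
    (G : ∀ v, Finset (κ × F.ty v)) (s : ∀ v, κ × F.ty v → Finset υ)
    (hs : ∀ v r, ∀ t : κ × Ω, (t.1, F.R v t.1 t.2) = r → Y v t ∈ s v r) :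
    ∑ v ∈ range n, ∑ r ∈ G v, Pr (C.Q μ) (fun t : κ × Ω => (t.1, F.R v t.1 t.2)) r *
      ∑ y ∈ s v r, gk
        (Pr (C.Q μ) (fun t : κ × Ω => (Y v t, (t.1, F.R v t.1 t.2))) (y, r) /
          Pr (C.Q μ) (fun t : κ × Ω => (t.1, F.R v t.1 t.2)) r)
        (Pr (zl C μ b) (fun t : κ × Ω => (Y v t, (t.1, F.R v t.1 t.2))) (y, r) /
          Pr (zl C μ b) (fun t : κ × Ω => (t.1, F.R v t.1 t.2)) r) ≤
      m * (3 * (F.A μ false + F.A μ true) / C.J μ) := by
  have hw : ∀ t, 0 ≤ C.Q μ t := fun t => Cols.Q_nonneg hμ t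
  have hz : ∀ t, 0 ≤ zl C μ b t := fun t => zl_nonneg hμ b t
  set K : ℕ → ℝ := fun j => KL (C.Q μ) (zl C μ b) (fun t : κ × Ω => (t.1, F.R j t.1 t.2)) with hK
  have ac : ∀ j, ∀ t, 0 < C.Q μ t →
      0 < Pr (zl C μ b) (fun t : κ × Ω => (t.1, F.R j t.1 t.2)) (t.1, F.R j t.1 t.2) :=
    fun j t ht => zl_ac hμ hJ b (det_Filt F j) ht
  have h1 : ∀ v ∈ range n, ∑ r ∈ G v, Pr (C.Q μ) (fun t : κ × Ω => (t.1, F.R v t.1 t.2)) r *
      ∑ y ∈ s v r, gk
        (Pr (C.Q μ) (fun t : κ × Ω => (Y v t, (t.1, F.R v t.1 t.2))) (y, r) /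
          Pr (C.Q μ) (fun t : κ × Ω => (t.1, F.R v t.1 t.2)) r)
        (Pr (zl C μ b) (fun t : κ × Ω => (Y v t, (t.1, F.R v t.1 t.2))) (y, r) /
          Pr (zl C μ b) (fun t : κ × Ω => (t.1, F.R v t.1 t.2)) r) ≤ K (v + m) - K v :=
    fun v _ => sum_gk_le' hw hz (Y v) (fun t : κ × Ω => (t.1, F.R v t.1 t.2)) (hY v) (ac (v + m))
      (G v) (s v) (hs v)
  refine (sum_le_sum h1).trans ?_
  have h2 : ∀ j, K j ≤ K (j + 1) := fun j => KL_mono_nn hw hz (det_Filt_succ F j) (ac (j + 1))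
  refine (window_sum K h2 n m).trans ?_
  refine mul_le_mul_of_nonneg_left ?_ (Nat.cast_nonneg m)
  have h3 : K (n + m) ≤ - log (C.J μ) := KL_fine_le hμ hJ b (det_Filt F (n + m))
  have h4 := KL_zero_ge hμ hJ F hF b
  linarith

end Vale.Agent.P065.H562
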