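import Vale.Agent.P065.H562.Thin
import Vale.Agent.P065.H562.ThinBud
import Vale.Agent.P065.H154.Frame
import Vale.Agent.P065.H819.Nb1

/-!
# P065, package TTHIN (helper562), part 6: the definitions on FRAME

Column `c`, level `v`, guard `a` of the boxes `Rt`. `XT` : the time digit at the level `v + dX` and
the indicator of the long flags, `BT` : the row at `PB` digits below the unit, for long flags the
fine row expanded, `posT` : the position of the cell of two units in the row of the box.
-/

set_option autoImplicit false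

open Finset Real

noncomputable section

namespace Vale.Agent.P065.H562

open Vale.Agent.P065.UB Vale.Agent.P065.Ent Vale.Agent.P065.H819 Vale.Agent.P065.H154

/-- unnormalised mass of an event in one box -/
def MB {Θ β : Type*} [Fintype Θ] (Q : Θ → ℝ) (R : Θ → β) (r : β) (A : Θ → Prop) : ℝ :=
  PE Q (fun t => R t = r ∧ A t)

open Classical in
/-- the law inside one box -/
def nuT {Θ β : Type*} [Fintype Θ] (Q : Θ → ℝ) (R : Θ → β) (r : β) (t : Θ) : ℝ :=
  if R t = r then Q t / Pr Q R r else 0

section frame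

variable {Ω : Type*} (F : Fr Ω) (ln : Ω → Pt) {p : Prm}

/-- long flags at the level `v`, margin `PR` -/
def lgT (PR v : ℕ) (ω : Ω) : Prop := F.T' ω < v + PR

/-- the time variable -/
def XT (u : ℝ) (dX PR v : ℕ) (ω : Ω) : ℤ × Prop := (F.D u (v + dX) ω, lgT F PR v ω)

/-- the true row, `PB` digits below the unit -/
def B0T (PB v : ℕ) (c : p.Col) (ω : Ω) : ℤ := Prm.N 0 (v + PB) c (F.P.x ω) (ln ω)

open Classical in
/-- the row which is known to the fine box -/
def BT (PB v : ℕ) (c : p.Col) (ω : Ω) : ℤ :=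
  if v + PB ≤ F.T' ω then B0T F ln PB v c ω else Nr F ln p c ω * 2 ^ (v + PB - F.T' ω)

/-- position of the cell of two units in the row of `2 ^ a` units -/
def posT (a v : ℕ) (c : p.Col) (ω : Ω) : ℤ := Prm.N 1 v c (F.P.x ω) (ln ω) % 2 ^ (a - 1)

/-- the middle part of the row -/
def MidT (a v : ℕ) (t : p.Col × Ω) : Prop :=
  1 ≤ posT F ln a v t.1 t.2 ∧ posT F ln a v t.1 t.2 + 2 ≤ 2 ^ (a - 1)

/-- the deep part of the row -/
def DeepT (a v : ℕ) (t : p.Col × Ω) : Prop :=
  2 ≤ posT F ln a v t.1 t.2 ∧ posT F ln a v t.1 t.2 + 3 ≤ 2 ^ (a - 1)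

/-- the long time digits -/
def LgS : Set (ℤ × Prop) := {x | x.2}

end frame

lemma DeepT.mid {Ω : Type*} {F : Fr Ω} {ln : Ω → Pt} {p : Prm} {a v : ℕ} {t : p.Col × Ω}
    (h : DeepT F ln a v t) : MidT F ln a v t := ⟨by have := h.1; omega, by have := h.2; omega⟩

section law

variable {Θ β : Type*} [Fintype Θ] {Q : Θ → ℝ} {R : Θ → β} {r : β}

lemma MB_nonneg (hQ : IsProb Q) (A : Θ → Prop) : 0 ≤ MB Q R r A := PE_nonneg hQ _

lemma MB_mono (hQ : IsProb Q) {A B : Θ → Prop} (h : ∀ t, R t = r → A t → B t) :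
    MB Q R r A ≤ MB Q R r B := PE_mono hQ fun t ht => ⟨ht.1, h t ht.1 ht.2⟩

lemma PE_nuT (A : Θ → Prop) : PE (nuT Q R r) A = MB Q R r A / Pr Q R r := by
  classical
  unfold MB
  rw [PE_def, PE_def, sum_div]
  refine sum_congr rfl fun t _ => ?_
  unfold nuT
  by_cases h : R t = r
  · by_cases h2 : A t
    · simp [h, h2]
    · simp [h, h2]
  · simp [h]

lemma nuT_prob (hQ : IsProb Q) (hr : 0 < Pr Q R r) : IsProb (nuT Q R r) := by
  classical
  constructor
  · intro t
    unfold nuT
    split_ifs
    · exact div_nonneg (hQ.nonneg t) hr.le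
    · exact le_rfl
  · unfold nuT
    have : ∀ t, (if R t = r then Q t / Pr Q R r else 0) = (if R t = r then Q t else 0) / Pr Q R r := by
      intro t
      split_ifs
      · rfl
      · simp
    simp only [this]
    rw [← sum_div]
    unfold Pr at hr ⊢
    exact div_self hr.ne'

end law

end Vale.Agent.P065.H562
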