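import Vale.Agent.P065.H562.ThinFin

/-!
# P065, package TTHIN (helper562), part 11: the short thin time content of a system of case (II)
-/

set_option autoImplicit false

open Finset Real

noncomputable section

namespace Vale.Agent.P065.H806.Sys

open Vale.Agent.P065.UB Vale.Agent.P065.Ent Vale.Agent.P065.H268 Vale.Agent.P065.H154
  Vale.Agent.P065.H700 Vale.Agent.P065.H344

variable {B₀ K₁ PP Γ s₀ Λ kN : ℕ} {c₂ ρ ε₂ e : ℝ} {n g : ℕ}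
  (S : Sys B₀ K₁ PP Γ s₀ Λ kN c₂ ρ ε₂ e n g)

open Classical in
/-- **the short thin time content** -/
theorem short_le (hg : 1 ≤ g) (u : ℝ) {a gC dX PB0 PB PC a2 m m' : ℕ} {M0 ps : ℝ} (ha : 1 < a)
    (haG : a ≤ S.p.Γ) (hdX : dX = PB0 + a) (hgC : 1 ≤ gC) (hgX : gC ≤ dX) (hPC : gC + 14 ≤ PC)
    (hPB : PC ≤ PB0) (hPP : PC ≤ S.p.PP) (hPR : PB0 ≤ PB) (ha2 : 3 * (2 ^ a + 1) ≤ 2 ^ a2)
    (h1 : dX ≤ m) (h2 : PB ≤ m) (h4 : S.p.PP ≤ m') (h5 : PC + a2 ≤ m') (hM0 : 1 ≤ M0)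
    (hps4 : ps ≤ 1 / 4)
    (hps : ps ≤ exp (-(2000 * M0 * ((2 * 2 ^ dX : ℕ) : ℝ) *
      ((2 * 2 ^ dX * 2 ^ (PB0 + a) : ℕ) : ℝ) * ((9 : ℕ) : ℝ)))) :
    S.short u a PB ps ≤
      2 * (ncut S.F S.ln S.p S.Q a gC (S.F.P.T + s₀) s₀ u + 4 * (2 ^ (a - 1) : ℝ)⁻¹ *
        Hc S.Q (rb S.F S.ln S.p S.lam) (fun z => z.1)) +
      20 * (2 * ((a - 1 : ℕ) : ℝ) * (2 ^ (a - 1) : ℝ)⁻¹ *
        Hc S.Q (rb S.F S.ln S.p S.lam) (fun z => z.1)) +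
      32 * ((2 * 2 ^ dX * 2 ^ (PB0 + a) : ℕ) : ℝ) * ((9 : ℕ) : ℝ) *
        ((12 * m * H987.XA S.p (Λ * g) +
          4 * (2 * 4 ^ S.p.PP * S.p.nT * m' * (m * H S.μ S.F.P.x))) / S.C.J S.μ) +
      4 / M0 * (dX * ∑ t ∈ range (S.F.P.T + s₀ + dX), Hc S.Q (Rt S.F S.ln S.p u a (t + 1))
        (fun z => (S.F.D u (t + 1) z.2, Rt S.F S.ln S.p u a t z))) +
      3 * PB := by
  rw [S.short_eq]
  exact H562.thin_sum (F := S.F) (ln := S.ln) (p := S.p) (lam := S.lam) (f := S.f) (f0 := S.f0)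
    (f1 := S.f1) (μ := S.μ) S.hμ (S.J_pos hg) (E := Λ * g) (by positivity) S.sup S.sep S.perQ
    S.Tm_le_M u ha haG hdX hgC hgX hPC hPB hPP hPR ha2 h1 h2 h4 h5 hM0 hps4 hps _

end Vale.Agent.P065.H806.Sys
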