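import Vale.Agent.P065.H819.FairBox

/-!
# P065, package TTHIN (helper562), part 1: real lemmas on the divergence integrand `gk`
-/

set_option autoImplicit false

open Finset Real

noncomputable section

namespace Vale.Agent.P065.H562

open Vale.Agent.P065.Ent Vale.Agent.P065.H819

lemma gk_right {a b δ : ℝ} (ha : 0 ≤ a) (hb : 0 ≤ b) (hab : 0 < a → 0 < b) (h : gk a b ≤ δ) :
    b ≤ 2 * a + 2 * δ := by
  have h1 := (gk_ge ha hb hab).trans h
  have e1 := sq_sqrt ha
  have e2 := sq_sqrt hb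
  nlinarith [sq_nonneg (√ a + (√ a - √ b)), sq_nonneg (2 * √ a - √ b)]

lemma gk_left {a b δ : ℝ} (ha : 0 ≤ a) (hb : 0 ≤ b) (hab : 0 < a → 0 < b) (h : gk a b ≤ δ) :
    a ≤ 2 * b + 2 * δ := by
  have h1 := (gk_ge ha hb hab).trans h
  have e1 := sq_sqrt ha
  have e2 := sq_sqrt hb
  nlinarith [sq_nonneg (2 * √ b - √ a)]

/-- a lower bound for the second argument -/
lemma gk_exp {a b δ : ℝ} (ha : 0 < a) (hb : 0 < b) (h : gk a b ≤ δ) :
    a * exp (-1 - δ / a) ≤ b := by
  unfold gk at h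
  have h1 : a * log (a / b) ≤ δ + a := by linarith
  have h2 : log (a / b) ≤ 1 + δ / a := by
    have : a * log (a / b) ≤ a * (1 + δ / a) := by
      have e : a * (1 + δ / a) = δ + a := by field_simp; ring
      rw [e]; exact h1
    exact le_of_mul_le_mul_left this ha
  have h3 : a / b ≤ exp (1 + δ / a) := by
    rw [← log_le_iff_le_exp (div_pos ha hb)]; exact h2
  rw [div_le_iff₀ hb] at h3
  have h4 : exp (-1 - δ / a) = (exp (1 + δ / a))⁻¹ := by
    rw [← exp_neg]; congr 1; ring
  rw [h4, ← div_eq_mul_inv, div_le_iff₀ (exp_pos _), mul_comm]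
  exact h3

/-- tangent line bound -/
lemma gk_tangent {a b : ℝ} (ha : 0 ≤ a) (hb : 0 ≤ b) (hab : 0 < a → 0 < b) (t : ℝ) :
    a * t - b * exp t + b ≤ gk a b := by
  unfold gk
  rcases ha.eq_or_lt with h0 | h0
  · rw [← h0]
    have := mul_nonneg hb (exp_pos t).le
    simp only [zero_mul, zero_div, log_zero, mul_zero, sub_zero, zero_add, zero_sub]
    linarith
  · have h1 := hab h0
    have h2 := add_one_le_exp (t - log (a / b))
    have h3 : exp (t - log (a / b)) = exp t * (b / a) := by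
      rw [exp_sub, exp_log (div_pos h0 h1)]
      field_simp
    rw [h3] at h2
    have h4 : a * (t - log (a / b) + 1) ≤ a * (exp t * (b / a)) :=
      mul_le_mul_of_nonneg_left h2 h0.le
    have h5 : a * (exp t * (b / a)) = b * exp t := by field_simp
    rw [h5] at h4
    nlinarith

/-- the log-sum inequality in the form for `gk` -/
theorem gk_sum {ι : Type*} (T : Finset ι) (a b : ι → ℝ) (ha : ∀ i ∈ T, 0 ≤ a i)
    (hb : ∀ i ∈ T, 0 ≤ b i) (hab : ∀ i ∈ T, 0 < a i → 0 < b i) :
    gk (∑ i ∈ T, a i) (∑ i ∈ T, b i) ≤ ∑ i ∈ T, gk (a i) (b i) := by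
  set A := ∑ i ∈ T, a i with hA
  set B := ∑ i ∈ T, b i with hB
  have hA0 : 0 ≤ A := sum_nonneg ha
  rcases hA0.eq_or_lt with h0 | h0
  · have h1 : ∀ i ∈ T, a i = 0 := fun i hi =>
      (sum_eq_zero_iff_of_nonneg ha).mp h0.symm i hi
    have h2 : ∑ i ∈ T, gk (a i) (b i) = B := by
      rw [hB]
      refine sum_congr rfl fun i hi => ?_
      rw [h1 i hi]; unfold gk; simp
    rw [h2, ← h0]; unfold gk; simp
  · have hBpos : 0 < B := by
      obtain ⟨i, hi, hpos⟩ : ∃ i ∈ T, 0 < a i := by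
        by_contra hcon
        push Not at hcon
        have : A ≤ 0 := sum_nonpos hcon
        linarith
      exact (hab i hi hpos).trans_le (single_le_sum (f := b) (fun j hj => hb j hj) hi)
    set t := log (A / B) with ht
    have h1 : ∑ i ∈ T, (a i * t - b i * exp t + b i) ≤ ∑ i ∈ T, gk (a i) (b i) :=
      sum_le_sum fun i hi => gk_tangent (ha i hi) (hb i hi) (hab i hi) t
    rw [sum_add_distrib, sum_sub_distrib, ← sum_mul, ← sum_mul, ← hA, ← hB] at h1
    refine le_trans (le_of_eq ?_) h1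
    unfold gk
    rw [← ht, ht, exp_log (div_pos h0 hBpos)]
    field_simp

end Vale.Agent.P065.H562
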