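import Vale.Agent.P065.H562.ThinCore

/-!
# P065, package TTHIN (helper562), part 4: the one-box inequality, linear in the informations
-/

set_option autoImplicit false

open Finset Real

noncomputable section

namespace Vale.Agent.P065.H562

open Vale.Agent.P065.Ent Vale.Agent.P065.H819

variable {Ω : Type*} [Fintype Ω] {T : Type*} [Fintype T] {ξ ε η₁ η₂ : Type*}

/-! ## Numbers -/

lemma exp_ge_four {x : ℝ} (hx : 0 ≤ x) : x ^ 4 / 24 ≤ exp x := by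
  have h := Real.pow_div_factorial_le_exp x hx 4
  norm_num [Nat.factorial] at h
  exact h

lemma exp_split (sg : ℝ) : exp (-(sg / 4)) = exp (-sg) * exp (3 * sg / 4) := by
  rw [← exp_add]; congr 1; ring

lemma num_iota {sg κ q : ℝ} (hsg : 0 ≤ sg) (hκ1 : κ ≤ 1 / 8) (hq : 0 ≤ q)
    (hqs : q ≤ exp (-sg)) : 4 * (κ * q * sg) ≤ exp (-(sg / 4)) := by
  have h1 : 3 * sg / 4 + 1 ≤ exp (3 * sg / 4) := add_one_le_exp _
  have h3 : κ * q ≤ 1 / 8 * exp (-sg) := mul_le_mul hκ1 hqs hq (by norm_num)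
  have h4 : κ * q * sg ≤ 1 / 8 * exp (-sg) * sg := mul_le_mul_of_nonneg_right h3 hsg
  rw [exp_split]
  have h5 : 0 < exp (-sg) := exp_pos _
  nlinarith

lemma num_sm {sg κ q NX : ℝ} (hsg : 2000 ≤ sg) (hκ1 : κ ≤ 1 / 8) (hq : 0 ≤ q)
    (hqs : q ≤ exp (-sg)) (hNX : 0 ≤ NX) (hNXs : 2000 * NX ≤ sg) :
    16 * exp (-sg) + 24 * NX * (κ * q * sg) ≤ exp (-(sg / 4)) / 8 := by
  have hsg0 : 0 ≤ sg := by linarith
  have h1 : (3 * sg / 4) ^ 4 / 24 ≤ exp (3 * sg / 4) := exp_ge_four (by positivity)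
  have h3 : κ * q ≤ 1 / 8 * exp (-sg) := mul_le_mul hκ1 hqs hq (by norm_num)
  have h4 : κ * q * sg ≤ 1 / 8 * exp (-sg) * sg := mul_le_mul_of_nonneg_right h3 hsg0
  have h5 : 0 < exp (-sg) := exp_pos _
  have h6 : 24 * NX * (κ * q * sg) ≤ 24 * NX * (1 / 8 * exp (-sg) * sg) :=
    mul_le_mul_of_nonneg_left h4 (by positivity)
  have h7 : 24 * NX * (1 / 8 * exp (-sg) * sg) ≤ exp (-sg) * (3 * sg ^ 2 / 2000) := by
    have : NX * sg ≤ sg / 2000 * sg := mul_le_mul_of_nonneg_right (by linarith) hsg0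
    nlinarith
  have h8 : 16 + 3 * sg ^ 2 / 2000 ≤ exp (3 * sg / 4) / 8 := by
    have e1 : (2000 : ℝ) ^ 2 ≤ sg ^ 2 := pow_le_pow_left₀ (by norm_num) hsg 2
    have e2 : sg ^ 4 = sg ^ 2 * sg ^ 2 := by ring
    have e3 : (3 * sg / 4) ^ 4 / 24 = (3 / 4) ^ 4 / 24 * sg ^ 4 := by ring
    have e4 : sg ^ 2 * (2000 : ℝ) ^ 2 ≤ sg ^ 4 := by
      rw [e2]; exact mul_le_mul_of_nonneg_left e1 (by positivity)
    rw [e3] at h1
    nlinarith
  rw [exp_split]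
  have h9 := mul_le_mul_of_nonneg_left h8 h5.le
  nlinarith

lemma num_long {sg om : ℝ} (hsg : 2000 ≤ sg) (hom : exp (-(sg / 4)) ≤ om) :
    exp (-sg) * sg ≤ om / 128 := by
  have h1 : (3 * sg / 4) ^ 4 / 24 ≤ exp (3 * sg / 4) := exp_ge_four (by linarith)
  have h3 : 128 * sg ≤ exp (3 * sg / 4) := by
    refine le_trans ?_ h1
    have e3 : (3 * sg / 4) ^ 4 / 24 = (3 / 4) ^ 4 / 24 * (sg ^ 3 * sg) := by ring
    have e4 : (2000 : ℝ) ^ 3 ≤ sg ^ 3 := pow_le_pow_left₀ (by norm_num) hsg 3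
    have e5 : (2000 : ℝ) ^ 3 * sg ≤ sg ^ 3 * sg := mul_le_mul_of_nonneg_right e4 (by linarith)
    rw [e3]
    linarith
  have h5 : 0 < exp (-sg) := exp_pos _
  have h6 := mul_le_mul_of_nonneg_left h3 h5.le
  rw [← exp_split] at h6
  linarith

lemma num_eta {sg κ q M0 NX N NC om : ℝ} (hsg : 2000 * M0 * NX * N * NC ≤ sg) (hM0 : 1 ≤ M0)
    (hNX : 1 ≤ NX) (hN : 1 ≤ N) (hNC : 1 ≤ NC) (hκ : κ = 1 / (8 * N * NC)) (hq : 0 < q)
    (hqs : q ≤ exp (-sg)) (hom : exp (-(sg / 4)) ≤ om) :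
    2 * M0 * q * sg ≤ om * (exp (-1 - N * (κ * q * sg) / q) *
      exp (-1 - N * NC * (κ * q * sg) / q)) /
      (8 * NX * (N * NC * (64 + 24 * (κ * q * sg) / q))) := by
  have hK1 : 1 ≤ M0 * NX := by nlinarith
  have hK2 : 1 ≤ M0 * NX * N := by nlinarith
  have hK3 : 1 ≤ M0 * NX * N * NC := by nlinarith
  set K := M0 * NX * N * NC with hK
  have hKs : 2000 * K ≤ sg := by
    have : 2000 * M0 * NX * N * NC = 2000 * K := by rw [hK]; ring
    linarith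
  have hsg2 : 2000 ≤ sg := by linarith
  have hsg0 : 0 < sg := by linarith
  have hN0 : 0 < N := by linarith
  have hNC0 : 0 < NC := by linarith
  have hNX0 : 0 < NX := by linarith
  have hM00 : 0 < M0 := by linarith
  have hκ0 : 0 < κ := by rw [hκ]; positivity
  have hκ1 : κ ≤ 1 / 8 := by
    rw [hκ]
    refine div_le_div_of_nonneg_left zero_le_one (by norm_num) ?_
    nlinarith [mul_le_mul hN hNC zero_le_one hN0.le]
  have e1 : N * NC * (κ * q * sg) / q = sg / 8 := by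
    rw [hκ]; field_simp
  have e1' : N * (κ * q * sg) / q ≤ sg / 8 := by
    rw [← e1]
    refine div_le_div_of_nonneg_right ?_ hq.le
    refine mul_le_mul_of_nonneg_right ?_ (by positivity)
    nlinarith
  have e2 : 24 * (κ * q * sg) / q = 24 * κ * sg := by field_simp
  rw [e1, e2]
  have h1 : 64 + 24 * κ * sg ≤ 4 * sg := by nlinarith
  have h1' : 0 < 64 + 24 * κ * sg := by positivity
  rw [le_div_iff₀ (by positivity)]
  -- the left side
  have h2 : 2 * M0 * q * sg * (8 * NX * (N * NC * (64 + 24 * κ * sg))) ≤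
      64 * K * (exp (-sg) * sg * sg) := by
    have b1 : q * sg ≤ exp (-sg) * sg := mul_le_mul_of_nonneg_right hqs hsg0.le
    have a1 : q * sg * (64 + 24 * κ * sg) ≤ exp (-sg) * sg * (4 * sg) :=
      mul_le_mul b1 h1 h1'.le (by positivity)
    have a2 := mul_le_mul_of_nonneg_left a1 (show 0 ≤ 16 * K by positivity)
    calc 2 * M0 * q * sg * (8 * NX * (N * NC * (64 + 24 * κ * sg)))
        = 16 * K * (q * sg * (64 + 24 * κ * sg)) := by rw [hK]; ring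
      _ ≤ 16 * K * (exp (-sg) * sg * (4 * sg)) := a2
      _ = 64 * K * (exp (-sg) * sg * sg) := by ring
  refine h2.trans ?_
  -- the right side
  have h3 : exp (-(sg / 4)) * exp (-2 - sg / 4) ≤
      om * (exp (-1 - N * (κ * q * sg) / q) * exp (-1 - sg / 8)) := by
    refine mul_le_mul hom ?_ (exp_pos _).le ((exp_pos _).le.trans hom)
    rw [← exp_add]
    exact exp_le_exp.mpr (by linarith)
  refine le_trans ?_ h3
  have h4 : exp (-(sg / 4)) * exp (-2 - sg / 4) = exp (-sg) * (exp (sg / 2) * exp (-2)) := by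
    rw [← exp_add, ← exp_add, ← exp_add]; congr 1; ring
  rw [h4]
  have h5 : 64 * K * (exp (-sg) * sg * sg) = exp (-sg) * (64 * K * sg ^ 2) := by ring
  rw [h5]
  refine mul_le_mul_of_nonneg_left ?_ (by positivity)
  have h6 : (sg / 2) ^ 4 / 24 ≤ exp (sg / 2) := exp_ge_four (by positivity)
  have h7 : (1 / 9 : ℝ) ≤ exp (-2) := by
    have h8 := Real.exp_one_lt_d9
    have h9 : exp 2 = exp 1 * exp 1 := by rw [← exp_add]; norm_num
    have h10 : 0 < exp 1 := exp_pos _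
    rw [exp_neg, one_div]
    refine inv_anti₀ (exp_pos _) ?_
    rw [h9]
    nlinarith
  have h8 : (sg / 2) ^ 4 / 24 * (1 / 9) ≤ exp (sg / 2) * exp (-2) :=
    mul_le_mul h6 h7 (by norm_num) (exp_pos _).le
  refine le_trans ?_ h8
  have h9 : K ≤ sg / 2000 := by linarith
  have h10 : 64 * K * sg ^ 2 ≤ 64 * (sg / 2000) * sg ^ 2 :=
    mul_le_mul_of_nonneg_right (by linarith) (by positivity)
  refine h10.trans ?_
  have h11 : (sg / 2) ^ 4 / 24 * (1 / 9) = (1 / 3456) * (sg * sg ^ 3) := by ring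
  have h12 : 64 * (sg / 2000) * sg ^ 2 = (4 / 125) * sg ^ 3 := by ring
  rw [h11, h12]
  have h13 : 2000 * sg ^ 3 ≤ sg * sg ^ 3 := mul_le_mul_of_nonneg_right hsg2 (by positivity)
  have h14 : 0 ≤ sg ^ 3 := by positivity
  linarith

/-- the case analysis -/
lemma num_cases {qm q sg om omA om' N NC M0 Hy d1 d2 l1 l2 lg : ℝ} (hqmexp : qm = exp (-sg))
    (hsg : 2000 ≤ sg) (hqqm : q ≤ qm) (hqom : q ≤ om') (hom'om : om' ≤ omA) (hom1 : omA ≤ 1)
    (hom'0 : 0 ≤ om') (homA : omA ≤ om + lg) (hlg : 0 ≤ lg)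
    (hN : 1 ≤ N) (hNC : 1 ≤ NC) (hM0 : 1 ≤ M0) (hHy : 0 ≤ Hy) (hd1 : 0 ≤ d1)
    (hd2 : 0 ≤ d2) (hl1 : 0 ≤ l1) (hl2 : 0 ≤ l2)
    (hE : 0 < q → qm ≤ 4 * q → exp (-(sg / 4)) ≤ om → d1 ≤ 1 / (8 * N * NC) * q * sg →
      d2 ≤ 1 / (8 * N * NC) * q * sg → l1 ≤ 1 / (8 * N * NC) * q * sg →
      l2 ≤ 1 / (8 * N * NC) * q * sg → M0 * (q * sg) ≤ Hy ∨ om ≤ 128 * lg) :
    qm * sg ≤ 2 * (qm - q) * sg + 20 * (om' * -log omA) + 32 * N * NC * (d1 + l1 + (d2 + l2)) +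
      4 / M0 * Hy + lg := by
  have hsg0 : 0 < sg := by linarith
  have hqm : 0 < qm := by rw [hqmexp]; exact exp_pos _
  have hlogom : 0 ≤ -log omA := by
    have := log_nonpos (hom'0.trans hom'om) hom1
    linarith
  have t1 : 0 ≤ 2 * (qm - q) * sg := by
    have : 0 ≤ qm - q := by linarith
    positivity
  have t2 : 0 ≤ 20 * (om' * -log omA) := by positivity
  have t3 : 0 ≤ 32 * N * NC * (d1 + l1 + (d2 + l2)) := by positivity
  have hM00 : 0 < M0 := by linarith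
  have t5 : 0 ≤ 4 / M0 * Hy := by positivity
  -- case A
  by_cases hA : 4 * q < qm
  · have : qm * sg ≤ 2 * (qm - q) * sg := by
      refine mul_le_mul_of_nonneg_right ?_ hsg0.le
      linarith
    linarith
  push Not at hA
  have hqpos : 0 < q := by linarith
  have homApos : 0 < omA := by linarith
  have h4q : qm * sg ≤ 4 * (q * sg) := by
    have := mul_le_mul_of_nonneg_right hA hsg0.le
    linarith
  -- case B
  by_cases hB : omA < 2 * exp (-(sg / 4))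
  · have h1 : sg / 5 ≤ -log omA := by
      have h2 := log_lt_log homApos hB
      rw [log_mul (by norm_num) (exp_pos _).ne', log_exp] at h2
      have h3 : log 2 < 1 := by
        have := Real.log_two_lt_d9
        linarith
      linarith
    have h2 : q * (sg / 5) ≤ om' * -log omA := mul_le_mul hqom h1 (by positivity) hom'0
    have h3 : qm * sg ≤ 20 * (om' * -log omA) := by linarith
    linarith
  push Not at hB
  -- the mass of the long flags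
  by_cases hM : om < exp (-(sg / 4))
  · have h1 : exp (-(sg / 4)) ≤ lg := by linarith
    have h2 := num_long hsg h1
    rw [← hqmexp] at h2
    linarith
  push Not at hM
  set κ : ℝ := 1 / (8 * N * NC) with hκ
  -- case C
  by_cases hC : κ * q * sg < d1 + l1 + (d2 + l2)
  · have h1 : 32 * N * NC * (κ * q * sg) = 4 * (q * sg) := by
      rw [hκ]; field_simp; norm_num
    have h2 : 32 * N * NC * (κ * q * sg) ≤ 32 * N * NC * (d1 + l1 + (d2 + l2)) :=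
      mul_le_mul_of_nonneg_left hC.le (by positivity)
    linarith
  push Not at hC
  -- case E
  rcases hE hqpos hA hM (by linarith) (by linarith) (by linarith) (by linarith) with h1 | h1
  · have h2 : 4 * (q * sg) ≤ 4 / M0 * Hy := by
      have h3 := mul_le_mul_of_nonneg_left h1 (show 0 ≤ 4 / M0 by positivity)
      have h4 : 4 / M0 * (M0 * (q * sg)) = 4 * (q * sg) := by field_simp
      linarith
    linarith
  · have h2 := num_long hsg hM
    rw [← hqmexp] at h2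
    linarith

section
variable {μ : Ω → ℝ} {X : Ω → ξ} {E : Ω → ε} {C : Ω → η₁} {B₀ B : Ω → η₂} {xh : ξ → ℝ}
    {eh : ε → ℝ} {ch : η₁ → ℝ} {bh : η₂ → ℝ} {L R : Ω → Prop} {J0 J1 s : ℝ} {e₁ e₂ : ε}
    {p : ξ → ℝ} {ν : T → ℝ} {X' : T → ξ} {B' : T → η₂} {XS : Finset ξ} {V : Finset (ξ × η₂)}
    {Lg : Set ξ} {NC : ℕ} {u : ε → ℝ} {w : ℝ}

/-- the informations of one box -/
def TInfo (μ : Ω → ℝ) (X : Ω → ξ) (E : Ω → ε) (C : Ω → η₁) (B : Ω → η₂) (xh : ξ → ℝ)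
    (eh : ε → ℝ) (ch : η₁ → ℝ) (L R : Ω → Prop) (J0 J1 : ℝ) (p : ξ → ℝ) (ν : T → ℝ) (X' : T → ξ)
    (B' : T → η₂) (u : ε → ℝ) (e : ε) : ℝ :=
  DQ ν X' B' μ X E B R e + u e * DL μ X E C xh eh ch L R J0 J1 p e

open Classical in
/-- the mass of the long digits -/
lemma TBox.long_ge (D : TBox μ X E C B₀ B xh eh ch bh L R J0 J1 s e₁ e₂ p ν X' B' XS V Lg NC u w)
    {K0 K1 ι : ℝ} {NX : ℕ} (hK0 : J0 + w + 3 * s ≤ K0) (hK1 : K1 ≤ J1 - w - 3 * s)
    (hQ : DQ ν X' B' μ X E B R e₁ ≤ ι) (hL : DL μ X E C xh eh ch L R J0 J1 p e₁ ≤ ι)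
    (hι : 4 * ι ≤ PE ν (fun τ => X' τ ∉ Lg ∧ bh (B' τ) ∈ Set.Icc K0 K1)) (hNX : XS.card ≤ NX)
    (hi0 : 0 ≤ ι) :
    (∑ x ∈ XS with x ∈ Lg, p x) * PE ν (fun τ => X' τ ∉ Lg ∧ bh (B' τ) ∈ Set.Icc K0 K1) ≤
      16 * PE ν (fun τ => X' τ ∈ Lg) + 24 * NX * ι := by
  have hν := D.probν
  have hs := D.box.s0
  rw [sum_mul]
  have h2 : ∀ x ∈ XS.filter (fun x => x ∈ Lg),
      p x * PE ν (fun τ => X' τ ∉ Lg ∧ bh (B' τ) ∈ Set.Icc K0 K1) ≤
      16 * PE ν (fun τ => X' τ = x) + 24 * ι := by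
    intro x hx
    exact D.p_le (Or.inl rfl) (K0 := K0) (K1 := K1) (ι := ι) (by linarith) (by linarith)
      hQ hL hι (mem_filter.mp hx).1
  refine (sum_le_sum h2).trans ?_
  rw [sum_add_distrib, ← mul_sum, sum_const, nsmul_eq_mul]
  have h3 : ∑ x ∈ XS.filter (fun x => x ∈ Lg), PE ν (fun τ => X' τ = x) ≤
      PE ν (fun τ => X' τ ∈ Lg) := by
    refine sum_PE_le hν _ (fun x τ => X' τ = x) _ ?_ ?_
    · intro x hx τ h
      rw [h]; exact (mem_filter.mp hx).2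
    · intro x _ y _ hne τ h h'
      exact hne (h.symm.trans h')
  have h4 : ((XS.filter (fun x => x ∈ Lg)).card : ℝ) ≤ NX := by
    exact_mod_cast (card_le_card (filter_subset _ _)).trans hNX
  have h5 : ((XS.filter (fun x => x ∈ Lg)).card : ℝ) * (24 * ι) ≤ NX * (24 * ι) :=
    mul_le_mul_of_nonneg_right h4 (by positivity)
  linarith

open Classical in
/-- the case of small informations and a large exit mass -/
theorem TBox.caseE
    (D : TBox μ X E C B₀ B xh eh ch bh L R J0 J1 s e₁ e₂ p ν X' B' XS V Lg NC u w)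
    (Hv S : Set ξ) (hSH : ∀ x ∈ S, x ∉ Hv ∧ x ∉ Lg)
    (hsep : ∀ x ∈ S, ∀ x' ∈ XS, x' ∈ Hv → 4 * s < |(eh e₁ - eh e₂) * (xh x' - xh x)|)
    (Mi : T → Prop) {K0 K1 M0 qm sg om q κ : ℝ} {N NX : ℕ}
    (hMi : ∀ τ, Mi τ → X' τ ∉ Lg → bh (B' τ) ∈ Set.Icc K0 K1)
    (hK0 : J0 + w + 3 * s ≤ K0) (hK1 : K1 ≤ J1 - w - 3 * s)
    (hV : V.card ≤ N) (hNX : XS.card ≤ NX) (hNr : (1 : ℝ) ≤ N) (hNXr : (1 : ℝ) ≤ NX)
    (hNCr : (1 : ℝ) ≤ NC) (hM0 : 1 ≤ M0)
    (hqm : qm = PE ν (fun τ => X' τ ∉ Hv ∧ X' τ ∉ Lg)) (hqmexp : qm = exp (-sg))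
    (hom : om = PE ν (fun τ => X' τ ∉ Lg ∧ bh (B' τ) ∈ Set.Icc K0 K1))
    (hqe : q = PE ν (fun τ => X' τ ∈ S ∧ Mi τ))
    (hsmall : 2000 * M0 * NX * N * NC ≤ sg) (hqpos : 0 < q) (hqqm : q ≤ qm) (hA : qm ≤ 4 * q)
    (hB : exp (-(sg / 4)) ≤ om) (hκ : κ = 1 / (8 * N * NC))
    (hDQe : ∀ e, (e = e₁ ∨ e = e₂) → DQ ν X' B' μ X E B R e ≤ κ * q * sg)
    (huDL : ∀ e, (e = e₁ ∨ e = e₂) → u e * DL μ X E C xh eh ch L R J0 J1 p e ≤ κ * q * sg) :
    M0 * (q * sg) ≤ Hc ν B' X' ∨ om ≤ 128 * PE ν (fun τ => X' τ ∈ Lg) := by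
  have hμ := D.box.prob
  have hν := D.probν
  have hK1' : 1 ≤ M0 * NX := by nlinarith
  have hK2' : 1 ≤ M0 * NX * N := by nlinarith
  have hK3' : 1 ≤ M0 * NX * N * NC := by nlinarith
  have hsg2 : 2000 ≤ sg := by linarith
  have hsg0 : 0 < sg := by linarith
  have hNNC : (1 : ℝ) ≤ N * NC := by nlinarith
  have hκ0 : 0 < κ := by rw [hκ]; positivity
  have hκ1 : κ ≤ 1 / 8 := by
    rw [hκ]
    refine div_le_div_of_nonneg_left zero_le_one (by norm_num) ?_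
    linarith
  have hqs : q ≤ exp (-sg) := by rw [← hqmexp]; exact hqqm
  have hompos : 0 < om := (exp_pos _).trans_le hB
  have hDLe : ∀ e, (e = e₁ ∨ e = e₂) → DL μ X E C xh eh ch L R J0 J1 p e ≤ κ * q * sg := by
    intro e he
    have h1 := D.u1 e he
    have h2 : 0 ≤ DL μ X E C xh eh ch L R J0 J1 p e := DL_nonneg hμ D.p0 D.pp e
    have h3 := huDL e he
    have h4 := mul_le_mul_of_nonneg_right h1 h2
    linarith
  have hi0 : 0 ≤ κ * q * sg := by positivity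
  have hNXs : 2000 * (NX : ℝ) ≤ sg := by
    have h1 : (1 : ℝ) ≤ M0 * N * NC := by nlinarith
    have h2 : (NX : ℝ) * 1 ≤ NX * (M0 * N * NC) := mul_le_mul_of_nonneg_left h1 (by positivity)
    linarith
  have hsm := num_sm (NX := (NX : ℝ)) hsg2 hκ1 hqpos.le hqs (by positivity) hNXs
  have hio := num_iota hsg0.le hκ1 hqpos.le hqs
  have het := num_eta (M0 := M0) (NX := (NX : ℝ)) (N := (N : ℝ)) (NC := (NC : ℝ)) (κ := κ)
    (om := om) hsmall hM0 hNXr hNr hNCr hκ hqpos hqs hB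
  -- the long digits
  by_cases hlg : ∑ x ∈ XS with x ∈ Lg, p x ≤ 1 / 4
  swap
  · right
    push Not at hlg
    have h1 := D.long_ge (ι := κ * q * sg) hK0 hK1 (hDQe _ (Or.inl rfl)) (hDLe _ (Or.inl rfl))
      (by rw [← hom]; exact hio.trans hB) hNX hi0
    rw [← hom] at h1
    have h2 : 1 / 4 * om ≤ (∑ x ∈ XS with x ∈ Lg, p x) * om :=
      mul_le_mul_of_nonneg_right hlg.le hompos.le
    have h3 : 0 < exp (-sg) := exp_pos _
    linarith
  left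
  have hη4 : 4 * (κ * q * sg) ≤ 2 * M0 * q * sg := by
    have : 4 * κ ≤ 2 * M0 := by linarith
    have h2 : 4 * κ * (q * sg) ≤ 2 * M0 * (q * sg) :=
      mul_le_mul_of_nonneg_right this (by positivity)
    linarith
  have hsm' : 16 * PE ν (fun τ => X' τ ∉ Hv ∧ X' τ ∉ Lg) + 24 * NX * (κ * q * sg) ≤ om / 4 := by
    rw [← hqm, hqmexp]
    linarith
  have key := D.core Hv S hSH hsep Mi (ι := κ * q * sg) (lam := κ * q * sg)
    (et := 2 * M0 * q * sg) (N := N) (NX := NX) hMi hK0 hK1 hDQe hDLe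
    huDL hom hompos hqe hqpos (by rw [← hqm]; exact hA) hlg hV hNX hi0 (hio.trans hB) hsm' het
    hη4
  have hlog2 : (1 / 2 : ℝ) < log 2 := by
    have := Real.log_two_gt_d9
    linarith
  refine le_trans ?_ key
  have h2 : 0 ≤ 2 * M0 * q * sg := by positivity
  nlinarith

/-- **the one-box inequality** -/
theorem TBox.thin
    (D : TBox μ X E C B₀ B xh eh ch bh L R J0 J1 s e₁ e₂ p ν X' B' XS V Lg NC u w)
    (Hv S : Set ξ) (hSH : ∀ x ∈ S, x ∉ Hv ∧ x ∉ Lg)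
    (hsep : ∀ x ∈ S, ∀ x' ∈ XS, x' ∈ Hv → 4 * s < |(eh e₁ - eh e₂) * (xh x' - xh x)|)
    (Mid Deep : T → Prop) {K0 K1 M0 qm sg omA om' q : ℝ} {N NX : ℕ}
    (hMid : ∀ τ, Mid τ → X' τ ∉ Lg → bh (B' τ) ∈ Set.Icc K0 K1) (hDM : ∀ τ, Deep τ → Mid τ)
    (hK0 : J0 + w + 3 * s ≤ K0) (hK1 : K1 ≤ J1 - w - 3 * s)
    (hV : V.card ≤ N) (hNX : XS.card ≤ NX) (hN0 : 0 < N) (hNX0 : 0 < NX) (hNC0 : 0 < NC)
    (hM0 : 1 ≤ M0)
    (hqm : qm = PE ν (fun τ => X' τ ∉ Hv ∧ X' τ ∉ Lg)) (hqm0 : 0 < qm) (hsg : sg = -log qm)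
    (homA : omA = PE ν Mid) (hom' : om' = PE ν Deep)
    (hqe : q = PE ν (fun τ => X' τ ∈ S ∧ Deep τ))
    (hsmall : 2000 * M0 * NX * N * NC ≤ sg) :
    qm * sg ≤ 2 * (qm - q) * sg + 20 * (om' * -log omA) +
      32 * N * NC * (TInfo μ X E C B xh eh ch L R J0 J1 p ν X' B' u e₁ +
        TInfo μ X E C B xh eh ch L R J0 J1 p ν X' B' u e₂) +
      4 / M0 * Hc ν B' X' + PE ν (fun τ => X' τ ∈ Lg) := by
  have hμ := D.box.prob
  have hν := D.probν
  have hNr : (1 : ℝ) ≤ N := by exact_mod_cast hN0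
  have hNXr : (1 : ℝ) ≤ NX := by exact_mod_cast hNX0
  have hNCr : (1 : ℝ) ≤ NC := by exact_mod_cast hNC0
  have hK1' : 1 ≤ M0 * NX := by nlinarith
  have hK2' : 1 ≤ M0 * NX * N := by nlinarith
  have hK3' : 1 ≤ M0 * NX * N * NC := by nlinarith
  have hsg2 : 2000 ≤ sg := by linarith
  have hsg0 : 0 < sg := by linarith
  have hqmexp : qm = exp (-sg) := by rw [hsg, neg_neg, exp_log hqm0]
  have hq1 := D.DQ_nonneg (Or.inl rfl)
  have hq2 := D.DQ_nonneg (Or.inr rfl)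
  have hu1 := D.u1 _ (Or.inl rfl)
  have hu2 := D.u1 _ (Or.inr rfl)
  have hl1 : 0 ≤ DL μ X E C xh eh ch L R J0 J1 p e₁ := DL_nonneg hμ D.p0 D.pp e₁
  have hl2 : 0 ≤ DL μ X E C xh eh ch L R J0 J1 p e₂ := DL_nonneg hμ D.p0 D.pp e₂
  have hul1 : 0 ≤ u e₁ * DL μ X E C xh eh ch L R J0 J1 p e₁ := by positivity
  have hul2 : 0 ≤ u e₂ * DL μ X E C xh eh ch L R J0 J1 p e₂ := by positivity
  have hHc : 0 ≤ Hc ν B' X' := Hc_nonneg hν B' X'
  have hqqm : q ≤ qm := by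
    rw [hqe, hqm]
    exact PE_mono hν fun τ h => hSH _ h.1
  have hqom' : q ≤ om' := by
    rw [hqe, hom']
    exact PE_mono hν fun τ h => h.2
  have hom'om : om' ≤ omA := by
    rw [hom', homA]
    exact PE_mono hν hDM
  have homA1 : omA ≤ 1 := by rw [homA]; exact PE_le_one hν _
  have hom'nn : 0 ≤ om' := by rw [hom']; exact PE_nonneg hν _
  have homAl : omA ≤ PE ν (fun τ => X' τ ∉ Lg ∧ bh (B' τ) ∈ Set.Icc K0 K1) +
      PE ν (fun τ => X' τ ∈ Lg) := by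
    rw [homA, PE_add _ _ fun τ h h' => h.1 h']
    refine PE_mono hν fun τ h => ?_
    by_cases hL : X' τ ∈ Lg
    · exact Or.inr hL
    · exact Or.inl ⟨hL, hMid τ h hL⟩
  refine num_cases hqmexp hsg2 hqqm hqom' hom'om homA1 hom'nn homAl (PE_nonneg hν _) hNr hNCr hM0
    hHc hq1 hq2 hul1 hul2 ?_
  intro c1 c2 c3 c4 c5 c6 c7
  refine D.caseE Hv S hSH hsep Deep (K0 := K0) (K1 := K1) (M0 := M0) (qm := qm)
    (sg := sg) (q := q) (κ := 1 / (8 * N * NC)) (N := N) (NX := NX)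
    (fun τ h1 h2 => hMid τ (hDM τ h1) h2) hK0 hK1 hV hNX
    hNr hNXr hNCr hM0 hqm hqmexp rfl hqe hsmall c1 hqqm c2 c3 rfl ?_ ?_
  · rintro e (rfl | rfl)
    · exact c4
    · exact c5
  · rintro e (rfl | rfl)
    · exact c6
    · exact c7

end

end Vale.Agent.P065.H562
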