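import Vale.Agent.P065.H562.Gk

/-!
# P065, package TTHIN (helper562), part 2: the data of one box and the transfer of masses

`μ` is the law of the flags, `R` a point-type box inside the line-type cell `L`, `ν` the law of the
time digits and rows `(X', B')` of the auxiliary law in the box. `DQ e` is the divergence of the law
of `(X', B')` from the law of `(X, B)` given `(e, R)`.
-/

set_option autoImplicit false

open Finset Real

noncomputable section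

namespace Vale.Agent.P065.H562

open Vale.Agent.P065.Ent Vale.Agent.P065.H819

variable {Ω : Type*} [Fintype Ω] {T : Type*} [Fintype T] {ξ ε η₁ η₂ : Type*}

open Classical in
/-- the probability of a set of pairs of values -/
lemma PE_pairs {Θ α β : Type*} [Fintype Θ] {m : Θ → ℝ} (hm : IsProb m) (X : Θ → α) (B : Θ → β)
    (A : Set (α × β)) (Q : Θ → Prop) (s : Finset (α × β))
    (hs : ∀ θ, 0 < m θ → Q θ → (X θ, B θ) ∈ A → (X θ, B θ) ∈ s) :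
    PE m (fun θ => (X θ, B θ) ∈ A ∧ Q θ) =
      ∑ t ∈ s.filter (fun t => t ∈ A), PE m (fun θ => X θ = t.1 ∧ B θ = t.2 ∧ Q θ) := by
  rw [sum_congr rfl fun t _ => PE_def m (fun θ => X θ = t.1 ∧ B θ = t.2 ∧ Q θ), sum_comm, PE_def]
  refine sum_congr rfl fun θ _ => ?_
  by_cases h : (X θ, B θ) ∈ A ∧ Q θ
  · rw [if_pos h]
    rcases (hm.nonneg θ).eq_or_lt with h0 | h0
    · rw [← h0]; simp
    · rw [sum_eq_single (X θ, B θ)]
      · rw [if_pos ⟨rfl, rfl, h.2⟩]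
      · intro t _ ht
        rw [if_neg fun h' => ht (Prod.ext h'.1.symm h'.2.1.symm)]
      · intro h'
        exact absurd (mem_filter.mpr ⟨hs θ h0 h.2 h.1, h.1⟩) h'
  · rw [if_neg h]
    symm
    refine sum_eq_zero fun t ht => if_neg fun h' => h ⟨?_, h'.2.2⟩
    rw [h'.1, h'.2.1]; exact (mem_filter.mp ht).2

lemma PE_pos_of {Θ : Type*} [Fintype Θ] {m : Θ → ℝ} (hm : IsProb m) {A : Θ → Prop} {θ : Θ}
    (h : 0 < m θ) (hA : A θ) : 0 < PE m A := by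
  classical
  rw [PE_def]
  refine lt_of_lt_of_le h ?_
  have h1 := single_le_sum (f := fun σ => if A σ then m σ else 0)
    (fun σ _ => by
      show 0 ≤ if A σ then m σ else 0
      split_ifs
      · exact hm.nonneg σ
      · exact le_rfl) (mem_univ θ)
  simp only [if_pos hA] at h1
  exact h1

lemma exists_of_PE_pos {Θ : Type*} [Fintype Θ] {m : Θ → ℝ} (hm : IsProb m) {A : Θ → Prop}
    (h : 0 < PE m A) : ∃ θ, 0 < m θ ∧ A θ := by
  classical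
  by_contra hcon
  push Not at hcon
  have : PE m A = 0 := by
    rw [PE_def]
    refine sum_eq_zero fun τ _ => ?_
    split_ifs with h1
    · exact le_antisymm (not_lt.mp fun h2 => hcon τ h2 h1) (hm.nonneg τ)
    · rfl
  linarith

open Classical in
/-- the divergence of the law of `(X', B')` under `ν` from the law of `(X, B)` given `(e, R)` -/
def DQ (ν : T → ℝ) (X' : T → ξ) (B' : T → η₂) (μ : Ω → ℝ) (X : Ω → ξ) (E : Ω → ε) (B : Ω → η₂)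
    (R : Ω → Prop) (e : ε) : ℝ :=
  ∑ t ∈ univ.image X ×ˢ univ.image B,
    gk (PE ν (fun τ => X' τ = t.1 ∧ B' τ = t.2))
      (PE μ (fun ω => X ω = t.1 ∧ B ω = t.2 ∧ E ω = e ∧ R ω) / PE μ (fun ω => E ω = e ∧ R ω))

/-- the data of one box. `B₀` is the true row; the row `B` which is used by the auxiliary law is
the true one except at the long time digits `Lg` -/
structure TBox (μ : Ω → ℝ) (X : Ω → ξ) (E : Ω → ε) (C : Ω → η₁) (B₀ B : Ω → η₂) (xh : ξ → ℝ)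
    (eh : ε → ℝ) (ch : η₁ → ℝ) (bh : η₂ → ℝ) (L R : Ω → Prop) (J0 J1 s : ℝ) (e₁ e₂ : ε)
    (p : ξ → ℝ) (ν : T → ℝ) (X' : T → ξ) (B' : T → η₂) (XS : Finset ξ) (V : Finset (ξ × η₂))
    (Lg : Set ξ) (NC : ℕ) (u : ε → ℝ) (w : ℝ) : Prop where
  box : FBox μ X E C B₀ xh eh ch bh L R J0 J1 s e₁ e₂
  hB : ∀ ω, L ω → X ω ∉ Lg → B ω = B₀ ω
  posF : ∀ e, (e = e₁ ∨ e = e₂) → 0 < PE μ (fun ω => E ω = e ∧ R ω)
  p0 : ∀ x, 0 ≤ p x
  pp : ∀ x, 0 < PE μ (fun ω => X ω = x ∧ L ω) → 0 < p x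
  psum : 1 ≤ ∑ x ∈ XS, p x
  hX : ∀ ω, L ω → X ω ∈ XS
  hXS : ∀ x ∈ XS, ∃ ω, X ω = x
  probν : IsProb ν
  supp : ∀ τ, 0 < ν τ → (X' τ, B' τ) ∈ V
  cardC : ∀ x b e, (e = e₁ ∨ e = e₂) → ∀ S : Finset η₁,
    (∀ c ∈ S, (∃ ω, C ω = c) ∧ |bh b - (ch c + eh e * xh x)| ≤ s) → S.card ≤ NC
  disp : ∀ e, (e = e₁ ∨ e = e₂) → ∀ x ∈ XS, ∀ x' ∈ XS, |eh e * (xh x' - xh x)| ≤ w
  dom : ∀ e, (e = e₁ ∨ e = e₂) → ∀ x b, PE ν (fun τ => X' τ = x ∧ B' τ = b) *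
    PE μ (fun ω => E ω = e ∧ R ω) ≤ u e * PE μ (fun ω => X ω = x ∧ B ω = b ∧ E ω = e ∧ R ω)
  u1 : ∀ e, (e = e₁ ∨ e = e₂) → 1 ≤ u e

section
variable {μ : Ω → ℝ} {X : Ω → ξ} {E : Ω → ε} {C : Ω → η₁} {B₀ B : Ω → η₂} {xh : ξ → ℝ}
    {eh : ε → ℝ} {ch : η₁ → ℝ} {bh : η₂ → ℝ} {L R : Ω → Prop} {J0 J1 s : ℝ} {e₁ e₂ : ε}
    {p : ξ → ℝ} {ν : T → ℝ} {X' : T → ξ} {B' : T → η₂} {XS : Finset ξ} {V : Finset (ξ × η₂)}
    {Lg : Set ξ} {NC : ℕ} {u : ε → ℝ} {w : ℝ}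

/-- absolute continuity -/
lemma TBox.ac (D : TBox μ X E C B₀ B xh eh ch bh L R J0 J1 s e₁ e₂ p ν X' B' XS V Lg NC u w) {e : ε}
    (he : e = e₁ ∨ e = e₂) (x : ξ) (b : η₂) (h : 0 < PE ν (fun τ => X' τ = x ∧ B' τ = b)) :
    0 < PE μ (fun ω => X ω = x ∧ B ω = b ∧ E ω = e ∧ R ω) := by
  have h1 := D.dom e he x b
  have h2 := mul_pos h (D.posF e he)
  have h3 := h2.trans_le h1
  exact pos_of_mul_pos_right h3 (by linarith [D.u1 e he])

lemma TBox.ac_set (D : TBox μ X E C B₀ B xh eh ch bh L R J0 J1 s e₁ e₂ p ν X' B' XS V Lg NC u w)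
    {e : ε} (he : e = e₁ ∨ e = e₂) (A : Set (ξ × η₂)) (h : 0 < PE ν (fun τ => (X' τ, B' τ) ∈ A)) :
    0 < PE μ (fun ω => (X ω, B ω) ∈ A ∧ E ω = e ∧ R ω) := by
  obtain ⟨τ, hτ, hA⟩ := exists_of_PE_pos D.probν h
  have h1 : 0 < PE ν (fun σ => X' σ = X' τ ∧ B' σ = B' τ) := PE_pos_of D.probν hτ ⟨rfl, rfl⟩
  refine (D.ac he _ _ h1).trans_le (PE_mono D.box.prob fun ω h2 => ⟨?_, h2.2.2.1, h2.2.2.2⟩)
  rw [h2.1, h2.2.1]; exact hA

lemma TBox.gkQ_nonneg (D : TBox μ X E C B₀ B xh eh ch bh L R J0 J1 s e₁ e₂ p ν X' B' XS V Lg NC u w)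
    {e : ε} (he : e = e₁ ∨ e = e₂) (t : ξ × η₂) :
    0 ≤ gk (PE ν (fun τ => X' τ = t.1 ∧ B' τ = t.2))
      (PE μ (fun ω => X ω = t.1 ∧ B ω = t.2 ∧ E ω = e ∧ R ω) /
        PE μ (fun ω => E ω = e ∧ R ω)) :=
  gk_nonneg (PE_nonneg D.probν _) (div_nonneg (PE_nonneg D.box.prob _) (D.posF e he).le)
    fun h => div_pos (D.ac he _ _ h) (D.posF e he)

lemma TBox.DQ_nonneg (D : TBox μ X E C B₀ B xh eh ch bh L R J0 J1 s e₁ e₂ p ν X' B' XS V Lg NC u w)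
    {e : ε} (he : e = e₁ ∨ e = e₂) : 0 ≤ DQ ν X' B' μ X E B R e :=
  sum_nonneg fun t _ => D.gkQ_nonneg he t

open Classical in
/-- transfer of the mass of a set of pairs -/
theorem TBox.mass (D : TBox μ X E C B₀ B xh eh ch bh L R J0 J1 s e₁ e₂ p ν X' B' XS V Lg NC u w)
    {e : ε} (he : e = e₁ ∨ e = e₂) (A : Set (ξ × η₂)) :
    gk (PE ν (fun τ => (X' τ, B' τ) ∈ A))
      (PE μ (fun ω => (X ω, B ω) ∈ A ∧ E ω = e ∧ R ω) / PE μ (fun ω => E ω = e ∧ R ω)) ≤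
      DQ ν X' B' μ X E B R e := by
  set S := univ.image X ×ˢ univ.image B with hS
  have e1 : PE ν (fun τ => (X' τ, B' τ) ∈ A) =
      ∑ t ∈ S.filter (fun t => t ∈ A), PE ν (fun τ => X' τ = t.1 ∧ B' τ = t.2) := by
    have h := PE_pairs D.probν X' B' A (fun _ => True) S (by
      intro τ hτ _ _
      have h1 : 0 < PE ν (fun σ => X' σ = X' τ ∧ B' σ = B' τ) := PE_pos_of D.probν hτ ⟨rfl, rfl⟩
      obtain ⟨ω, -, hω⟩ := exists_of_PE_pos D.box.prob (D.ac he _ _ h1)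
      exact mem_product.mpr ⟨mem_image.mpr ⟨ω, mem_univ ω, hω.1⟩,
        mem_image.mpr ⟨ω, mem_univ ω, hω.2.1⟩⟩)
    simpa using h
  have e2 : PE μ (fun ω => (X ω, B ω) ∈ A ∧ E ω = e ∧ R ω) / PE μ (fun ω => E ω = e ∧ R ω) =
      ∑ t ∈ S.filter (fun t => t ∈ A), PE μ (fun ω => X ω = t.1 ∧ B ω = t.2 ∧ E ω = e ∧ R ω) /
        PE μ (fun ω => E ω = e ∧ R ω) := by
    rw [← sum_div]
    congr 1
    exact PE_pairs D.box.prob X B A (fun ω => E ω = e ∧ R ω) S fun ω _ _ _ =>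
      mem_product.mpr ⟨mem_image_of_mem X (mem_univ ω), mem_image_of_mem B (mem_univ ω)⟩
  rw [e1, e2]
  refine (gk_sum _ _ _ (fun t _ => PE_nonneg D.probν _)
    (fun t _ => div_nonneg (PE_nonneg D.box.prob _) (D.posF e he).le)
    (fun t _ h => div_pos (D.ac he _ _ h) (D.posF e he))).trans ?_
  unfold DQ
  exact sum_le_sum_of_subset_of_nonneg (filter_subset _ _) fun t _ _ => D.gkQ_nonneg he t

/-- transfer of the mass of a set of pairs, `ν ≤ 2 μ_e + 2 DQ` -/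
lemma TBox.mass_le (D : TBox μ X E C B₀ B xh eh ch bh L R J0 J1 s e₁ e₂ p ν X' B' XS V Lg NC u w)
    {e : ε} (he : e = e₁ ∨ e = e₂) (A : Set (ξ × η₂)) :
    PE ν (fun τ => (X' τ, B' τ) ∈ A) ≤ 2 * (PE μ (fun ω => (X ω, B ω) ∈ A ∧ E ω = e ∧ R ω) /
      PE μ (fun ω => E ω = e ∧ R ω)) + 2 * DQ ν X' B' μ X E B R e := by
  refine gk_left (PE_nonneg D.probν _) (div_nonneg (PE_nonneg D.box.prob _) (D.posF e he).le) ?_
    (D.mass he A)
  intro h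
  exact div_pos (D.ac_set he A h) (D.posF e he)

/-- transfer of the mass of a set of pairs, `μ_e ≤ 2 ν + 2 DQ` -/
lemma TBox.mass_ge (D : TBox μ X E C B₀ B xh eh ch bh L R J0 J1 s e₁ e₂ p ν X' B' XS V Lg NC u w)
    {e : ε} (he : e = e₁ ∨ e = e₂) (A : Set (ξ × η₂)) :
    PE μ (fun ω => (X ω, B ω) ∈ A ∧ E ω = e ∧ R ω) / PE μ (fun ω => E ω = e ∧ R ω) ≤
      2 * PE ν (fun τ => (X' τ, B' τ) ∈ A) + 2 * DQ ν X' B' μ X E B R e := by
  rcases (PE_nonneg D.probν (fun τ => (X' τ, B' τ) ∈ A)).eq_or_lt with h0 | h0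
  · have h1 := D.mass he A
    rw [← h0] at h1 ⊢
    have h2 : gk 0 (PE μ (fun ω => (X ω, B ω) ∈ A ∧ E ω = e ∧ R ω) /
        PE μ (fun ω => E ω = e ∧ R ω)) = PE μ (fun ω => (X ω, B ω) ∈ A ∧ E ω = e ∧ R ω) /
        PE μ (fun ω => E ω = e ∧ R ω) := by unfold gk; simp
    rw [h2] at h1
    have h3 := D.DQ_nonneg he
    linarith
  · refine gk_right (PE_nonneg D.probν _) (div_nonneg (PE_nonneg D.box.prob _) (D.posF e he).le) ?_
      (D.mass he A)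
    exact fun h => div_pos (D.ac_set he A h) (D.posF e he)

open Classical in
/-- transfer of the time law along a set of lines -/
theorem TBox.line (D : TBox μ X E C B₀ B xh eh ch bh L R J0 J1 s e₁ e₂ p ν X' B' XS V Lg NC u w)
    {e : ε} (he : e = e₁ ∨ e = e₂) {x : ξ} (hx : x ∈ XS) (S : Set η₁)
    (hS : ∀ c ∈ S, ch c + eh e * xh x ∈ Set.Icc J0 J1) :
    gk (PE μ (fun ω => X ω = x ∧ E ω = e ∧ C ω ∈ S ∧ L ω))
      (p x * PE μ (fun ω => E ω = e ∧ C ω ∈ S ∧ L ω)) ≤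
      DL μ X E C xh eh ch L R J0 J1 p e * PE μ (fun ω => E ω = e ∧ R ω) := by
  have hF := D.posF e he
  unfold DL
  rw [div_mul_cancel₀ _ hF.ne']
  have e1 : PE μ (fun ω => X ω = x ∧ E ω = e ∧ C ω ∈ S ∧ L ω) =
      ∑ c ∈ (univ.image C).filter (fun c => c ∈ S),
        PE μ (fun ω => X ω = x ∧ E ω = e ∧ C ω = c ∧ L ω) := by
    have h := PE_sum_values (μ := μ) C S (fun ω => X ω = x ∧ E ω = e ∧ L ω)
    rw [PE_congr (μ := μ) (B := fun ω => C ω ∈ S ∧ X ω = x ∧ E ω = e ∧ L ω) fun ω => by tauto, h]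
    exact sum_congr rfl fun c _ => PE_congr fun ω => by tauto
  have e2 : PE μ (fun ω => E ω = e ∧ C ω ∈ S ∧ L ω) =
      ∑ c ∈ (univ.image C).filter (fun c => c ∈ S),
        PE μ (fun ω => E ω = e ∧ C ω = c ∧ L ω) := by
    have h := PE_sum_values (μ := μ) C S (fun ω => E ω = e ∧ L ω)
    rw [PE_congr (μ := μ) (B := fun ω => C ω ∈ S ∧ E ω = e ∧ L ω) fun ω => by tauto, h]
    exact sum_congr rfl fun c _ => PE_congr fun ω => by tauto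
  have hpos : ∀ c, 0 < PE μ (fun ω => X ω = x ∧ E ω = e ∧ C ω = c ∧ L ω) →
      0 < p x * PE μ (fun ω => E ω = e ∧ C ω = c ∧ L ω) := by
    intro c ht
    refine mul_pos (D.pp _ (ht.trans_le ?_)) (ht.trans_le ?_)
    · exact PE_mono D.box.prob fun ω h => ⟨h.1, h.2.2.2⟩
    · exact PE_mono D.box.prob fun ω h => ⟨h.2.1, h.2.2.1, h.2.2.2⟩
  rw [e1, e2, mul_sum]
  refine (gk_sum _ _ _ (fun c _ => PE_nonneg D.box.prob _)
    (fun c _ => mul_nonneg (D.p0 x) (PE_nonneg D.box.prob _)) (fun c _ h => hpos c h)).trans ?_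
  have e3 : ∑ c ∈ (univ.image C).filter (fun c => c ∈ S),
      gk (PE μ (fun ω => X ω = x ∧ E ω = e ∧ C ω = c ∧ L ω))
        (p x * PE μ (fun ω => E ω = e ∧ C ω = c ∧ L ω)) =
      ∑ t ∈ ({x} : Finset ξ) ×ˢ (univ.image C).filter (fun c => c ∈ S),
      gk (PE μ (fun ω => X ω = t.1 ∧ E ω = e ∧ C ω = t.2 ∧ L ω))
        (p t.1 * PE μ (fun ω => E ω = e ∧ C ω = t.2 ∧ L ω)) := by
    rw [sum_product, sum_singleton]
  rw [e3]
  refine sum_le_sum_of_subset_of_nonneg ?_ fun t _ _ =>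
    gkL_nonneg (E := E) (C := C) D.box.prob D.p0 D.pp e t
  intro t ht
  obtain ⟨h1, h2⟩ := mem_product.mp ht
  obtain ⟨h3, h4⟩ := mem_filter.mp h2
  have h5 : t.1 = x := mem_singleton.mp h1
  obtain ⟨ω, hω⟩ := D.hXS x hx
  refine mem_filter.mpr ⟨mem_product.mpr ⟨?_, h3⟩, ?_⟩
  · rw [h5]; exact mem_image.mpr ⟨ω, mem_univ ω, hω⟩
  · rw [h5]; exact hS _ h4

end

end Vale.Agent.P065.H562
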