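import Vale.Agent.P065.H562.ThinBox

/-!
# P065, package TTHIN (helper562), part 3: the core of the one-box inequality
-/

set_option autoImplicit false

open Finset Real

noncomputable section

namespace Vale.Agent.P065.H562

open Vale.Agent.P065.Ent Vale.Agent.P065.H819

variable {Ω : Type*} [Fintype Ω] {T : Type*} [Fintype T] {ξ ε η₁ η₂ : Type*}

section
variable {μ : Ω → ℝ} {X : Ω → ξ} {E : Ω → ε} {C : Ω → η₁} {B₀ B : Ω → η₂} {xh : ξ → ℝ}
    {eh : ε → ℝ} {ch : η₁ → ℝ} {bh : η₂ → ℝ} {L R : Ω → Prop} {J0 J1 s : ℝ} {e₁ e₂ : ε}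
    {p : ξ → ℝ} {ν : T → ℝ} {X' : T → ξ} {B' : T → η₂} {XS : Finset ξ} {V : Finset (ξ × η₂)}
    {Lg : Set ξ} {NC : ℕ} {u : ε → ℝ} {w : ℝ}

/-- upper bound for the time weights of the lines -/
theorem TBox.p_le (D : TBox μ X E C B₀ B xh eh ch bh L R J0 J1 s e₁ e₂ p ν X' B' XS V Lg NC u w)
    {e : ε} (he : e = e₁ ∨ e = e₂) {K0 K1 ι : ℝ} (hK0 : J0 + w + 2 * s ≤ K0)
    (hK1 : K1 ≤ J1 - w - 2 * s) (hQ : DQ ν X' B' μ X E B R e ≤ ι)
    (hL : DL μ X E C xh eh ch L R J0 J1 p e ≤ ι)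
    (hι : 4 * ι ≤ PE ν (fun τ => X' τ ∉ Lg ∧ bh (B' τ) ∈ Set.Icc K0 K1)) {x : ξ} (hx : x ∈ XS) :
    p x * PE ν (fun τ => X' τ ∉ Lg ∧ bh (B' τ) ∈ Set.Icc K0 K1) ≤
      16 * PE ν (fun τ => X' τ = x) + 24 * ι := by
  have hμ := D.box.prob
  have hF := D.posF e he
  have hs := D.box.s0
  set F := PE μ (fun ω => E ω = e ∧ R ω) with hFd
  set om := PE ν (fun τ => X' τ ∉ Lg ∧ bh (B' τ) ∈ Set.Icc K0 K1) with hom
  set CI : Set η₁ := {c | ∀ x ∈ XS, ch c + eh e * xh x ∈ Set.Icc (J0 + s) (J1 - s)} with hCI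
  set W := PE μ (fun ω => E ω = e ∧ C ω ∈ CI ∧ L ω) with hW
  have hWn : 0 ≤ W := PE_nonneg hμ _
  -- the mass of the interior lines
  have h1 : om ≤ 2 * (W / F) + 2 * ι := by
    have h2 := D.mass_le he {t : ξ × η₂ | t.1 ∉ Lg ∧ bh t.2 ∈ Set.Icc K0 K1}
    simp only [Set.mem_ofPred_eq] at h2
    have h3 : PE μ (fun ω => (X ω ∉ Lg ∧ bh (B ω) ∈ Set.Icc K0 K1) ∧ E ω = e ∧ R ω) ≤ W := by
      refine PE_mono hμ fun ω h => ?_
      obtain ⟨⟨hXL, hB⟩, hE, hR⟩ := h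
      have hLω := D.box.RL ω hR
      rw [D.hB ω hLω hXL] at hB
      refine ⟨hE, ?_, hLω⟩
      intro x' hx'
      have h4 := abs_le.mp (D.box.rel ω hLω (by rw [hE]; exact he))
      have h5 := abs_le.mp (D.disp e he (X ω) (D.hX ω hLω) x' hx')
      rw [hE] at h4
      have h6 : eh e * (xh x' - xh (X ω)) = eh e * xh x' - eh e * xh (X ω) := by ring
      rw [h6] at h5
      exact ⟨by linarith [hB.1, h4.2, h5.1], by linarith [hB.2, h4.1, h5.2]⟩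
    have h4 := div_le_div_of_nonneg_right h3 hF.le
    linarith
  -- the time law on the interior lines
  have h2 : p x * W ≤ 2 * PE μ (fun ω => X ω = x ∧ E ω = e ∧ C ω ∈ CI ∧ L ω) + 2 * (ι * F) := by
    refine gk_right (PE_nonneg hμ _) (mul_nonneg (D.p0 x) hWn) ?_ ?_
    · intro h
      exact mul_pos (D.pp x (h.trans_le (PE_mono hμ fun ω h => ⟨h.1, h.2.2.2⟩)))
        (h.trans_le (PE_mono hμ fun ω h => h.2))
    · refine (D.line he hx CI fun c hc => ?_).trans (mul_le_mul_of_nonneg_right hL hF.le)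
      have := hc x hx
      exact ⟨by linarith [this.1], by linarith [this.2]⟩
  have h3 : PE μ (fun ω => X ω = x ∧ E ω = e ∧ C ω ∈ CI ∧ L ω) ≤
      PE μ (fun ω => (X ω, B ω) ∈ {t : ξ × η₂ | t.1 = x} ∧ E ω = e ∧ R ω) := by
    refine PE_mono hμ fun ω h => ?_
    obtain ⟨hXω, hE, hC, hLω⟩ := h
    refine ⟨hXω, hE, D.box.LR ω hLω (by rw [hE]; exact he) ?_⟩
    have h4 := abs_le.mp (D.box.rel ω hLω (by rw [hE]; exact he))
    have h5 := hC (X ω) (D.hX ω hLω)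
    rw [hE] at h4
    exact ⟨by linarith [h5.1, h4.1], by linarith [h5.2, h4.2]⟩
  have h4 := D.mass_ge he {t : ξ × η₂ | t.1 = x}
  simp only [Set.mem_ofPred_eq] at h3 h4
  have h5 : p x * (W / F) ≤ 2 * (2 * PE ν (fun τ => X' τ = x) + 2 * ι) + 2 * ι := by
    rw [← mul_div_assoc, div_le_iff₀ hF]
    have h6 : PE μ (fun ω => X ω = x ∧ E ω = e ∧ R ω) ≤
        (2 * PE ν (fun τ => X' τ = x) + 2 * ι) * F := by
      rw [← div_le_iff₀ hF]
      linarith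
    nlinarith
  have hp := D.p0 x
  have h6 : p x * om ≤ p x * (2 * (W / F)) + p x * (2 * ι) := by
    rw [← mul_add]; exact mul_le_mul_of_nonneg_left h1 hp
  have h7 : p x * (2 * ι) ≤ p x * (om / 2) := mul_le_mul_of_nonneg_left (by linarith) hp
  nlinarith

open Classical in
/-- a pair of values with a large mass -/
lemma exists_atom {m : T → ℝ} (hm : IsProb m) {α β : Type*} (X : T → α) (B : T → β)
    (V : Finset (α × β)) (hV : ∀ τ, 0 < m τ → (X τ, B τ) ∈ V) (A : T → Prop) {N : ℕ}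
    (hN : V.card ≤ N) {q : ℝ} (hq : 0 < q) (hqe : q = PE m A) :
    ∃ t : α × β, (∃ τ, A τ ∧ X τ = t.1 ∧ B τ = t.2) ∧
      q ≤ N * PE m (fun τ => X τ = t.1 ∧ B τ = t.2) := by
  by_contra hcon
  push Not at hcon
  have h1 : PE m A ≤ ∑ t ∈ V, PE m (fun τ => A τ ∧ X τ = t.1 ∧ B τ = t.2) := by
    rw [sum_congr rfl fun t _ => PE_def m (fun τ => A τ ∧ X τ = t.1 ∧ B τ = t.2), sum_comm, PE_def]
    refine sum_le_sum fun τ _ => ?_
    by_cases h : A τ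
    · rw [if_pos h]
      rcases (hm.nonneg τ).eq_or_lt with h0 | h0
      · rw [← h0]
        exact sum_nonneg fun t _ => by split_ifs <;> simp
      · have h2 := single_le_sum (f := fun t : α × β =>
          if A τ ∧ X τ = t.1 ∧ B τ = t.2 then m τ else 0)
          (fun t _ => by
            show 0 ≤ if A τ ∧ X τ = t.1 ∧ B τ = t.2 then m τ else 0
            split_ifs
            · exact hm.nonneg τ
            · exact le_rfl) (hV τ h0)
        simpa [h] using h2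
    · rw [if_neg h]
      refine sum_nonneg fun t _ => ?_
      split_ifs
      · exact hm.nonneg τ
      · exact le_rfl
  rw [← hqe] at h1
  have hN0 : (V.card : ℝ) ≤ N := by exact_mod_cast hN
  have hne : V.Nonempty := by
    by_contra hne
    rw [not_nonempty_iff_eq_empty] at hne
    rw [hne, sum_empty] at h1
    linarith
  have hNpos : 0 < (N : ℝ) := by
    have : 0 < V.card := hne.card_pos
    have : (0 : ℝ) < V.card := by exact_mod_cast this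
    linarith
  have h2 : ∑ t ∈ V, PE m (fun τ => A τ ∧ X τ = t.1 ∧ B τ = t.2) < ∑ t ∈ V, q / N := by
    refine sum_lt_sum_of_nonempty hne fun t ht => ?_
    rw [lt_div_iff₀ hNpos, mul_comm]
    by_cases hex : ∃ τ, A τ ∧ X τ = t.1 ∧ B τ = t.2
    · obtain ⟨τ, h3, h4, h5⟩ := hex
      refine lt_of_le_of_lt ?_ (hcon t ⟨τ, h3, h4, h5⟩)
      exact mul_le_mul_of_nonneg_left (PE_mono hm fun τ h => h.2) hNpos.le
    · rw [PE_false fun τ h => hex ⟨τ, h⟩, mul_zero]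
      exact hq
  rw [sum_const, nsmul_eq_mul] at h2
  have h4 : (V.card : ℝ) * (q / N) ≤ q := by
    rw [← mul_div_assoc, div_le_iff₀ hNpos]
    nlinarith
  linarith

open Classical in
/-- a line through a point -/
lemma TBox.exists_line (D : TBox μ X E C B₀ B xh eh ch bh L R J0 J1 s e₁ e₂ p ν X' B' XS V Lg NC u w)
    {e : ε} (he : e = e₁ ∨ e = e₂) (x : ξ) (b : η₂) (hxL : x ∉ Lg)
    (hpos : 0 < PE μ (fun ω => X ω = x ∧ B ω = b ∧ E ω = e ∧ R ω)) :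
    ∃ c, |bh b - (ch c + eh e * xh x)| ≤ s ∧
      PE μ (fun ω => X ω = x ∧ B ω = b ∧ E ω = e ∧ R ω) ≤
        NC * PE μ (fun ω => X ω = x ∧ E ω = e ∧ C ω = c ∧ L ω) := by
  have hμ := D.box.prob
  set m := PE μ (fun ω => X ω = x ∧ B ω = b ∧ E ω = e ∧ R ω) with hm
  set S : Finset η₁ := (univ.filter (fun ω => X ω = x ∧ B ω = b ∧ E ω = e ∧ R ω)).image C with hS
  have hSp : ∀ c ∈ S, (∃ ω, C ω = c) ∧ |bh b - (ch c + eh e * xh x)| ≤ s := by
    intro c hc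
    obtain ⟨ω, hω, rfl⟩ := mem_image.mp hc
    obtain ⟨-, h1, h2, h3, h4⟩ := mem_filter.mp hω
    refine ⟨⟨ω, rfl⟩, ?_⟩
    have h5 := D.box.rel ω (D.box.RL ω h4) (by rw [h3]; exact he)
    rw [← D.hB ω (D.box.RL ω h4) (by rw [h1]; exact hxL), h1, h2, h3] at h5
    exact h5
  have hcard := D.cardC x b e he S hSp
  have hsum : m ≤ ∑ c ∈ S, PE μ (fun ω => X ω = x ∧ E ω = e ∧ C ω = c ∧ L ω) := by
    refine PE_le_sum hμ S (fun c ω => X ω = x ∧ E ω = e ∧ C ω = c ∧ L ω) _ fun ω h => ?_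
    exact ⟨C ω, mem_image.mpr ⟨ω, mem_filter.mpr ⟨mem_univ ω, h⟩, rfl⟩,
      h.1, h.2.2.1, rfl, D.box.RL ω h.2.2.2⟩
  have hne : S.Nonempty := by
    by_contra hne
    rw [not_nonempty_iff_eq_empty] at hne
    rw [hne, sum_empty] at hsum
    linarith
  by_contra hcon
  push Not at hcon
  have hNpos : 0 < (NC : ℝ) := by
    have : 0 < S.card := hne.card_pos
    exact_mod_cast this.trans_le hcard
  have h2 : ∑ c ∈ S, PE μ (fun ω => X ω = x ∧ E ω = e ∧ C ω = c ∧ L ω) < ∑ c ∈ S, m / NC := by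
    refine sum_lt_sum_of_nonempty hne fun c hc => ?_
    rw [lt_div_iff₀ hNpos, mul_comm]
    exact hcon c (hSp c hc).2
  rw [sum_const, nsmul_eq_mul] at h2
  have h3 : (S.card : ℝ) ≤ NC := by exact_mod_cast hcard
  have h4 : (S.card : ℝ) * (m / NC) ≤ m := by
    rw [← mul_div_assoc, div_le_iff₀ hNpos]
    nlinarith
  linarith

/-- the exit atom, lower bounds for its mass given the slope -/
lemma TBox.atom_ge
    (D : TBox μ X E C B₀ B xh eh ch bh L R J0 J1 s e₁ e₂ p ν X' B' XS V Lg NC u w)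
    {e : ε} (he : e = e₁ ∨ e = e₂) {ι q : ℝ} {N : ℕ} (hQ : DQ ν X' B' μ X E B R e ≤ ι)
    (hq : 0 < q) (hN : 0 < N) (hι0 : 0 ≤ ι) {x₁ : ξ} {b₁ : η₂}
    (hq1 : q ≤ N * PE ν (fun τ => X' τ = x₁ ∧ B' τ = b₁)) :
    q * PE μ (fun ω => E ω = e ∧ R ω) * exp (-1 - N * ι / q) ≤
      N * PE μ (fun ω => X ω = x₁ ∧ B ω = b₁ ∧ E ω = e ∧ R ω) ∧
    q * PE μ (fun ω => E ω = e ∧ R ω) ≤
      N * (u e * PE μ (fun ω => X ω = x₁ ∧ B ω = b₁ ∧ E ω = e ∧ R ω)) := by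
  have hF := D.posF e he
  have hNr : (0 : ℝ) < N := by exact_mod_cast hN
  set F := PE μ (fun ω => E ω = e ∧ R ω) with hFd
  set m := PE μ (fun ω => X ω = x₁ ∧ B ω = b₁ ∧ E ω = e ∧ R ω) with hm
  set ni := PE ν (fun τ => X' τ = x₁ ∧ B' τ = b₁) with hni
  have hν1 : 0 < ni := by
    by_contra hcon
    have : (N : ℝ) * ni ≤ 0 := mul_nonpos_of_nonneg_of_nonpos hNr.le (not_lt.mp hcon)
    linarith
  have hmpos : 0 < m := D.ac he x₁ b₁ hν1
  have h1 := D.mass he {t : ξ × η₂ | t.1 = x₁ ∧ t.2 = b₁}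
  have e1 : PE ν (fun τ => (X' τ, B' τ) ∈ {t : ξ × η₂ | t.1 = x₁ ∧ t.2 = b₁}) = ni := rfl
  have e2 : PE μ (fun ω => (X ω, B ω) ∈ {t : ξ × η₂ | t.1 = x₁ ∧ t.2 = b₁} ∧ E ω = e ∧ R ω) =
      m := PE_congr fun ω => by simp only [Set.mem_ofPred_eq]; tauto
  rw [e1, e2] at h1
  have h2 : gk ni (m / F) ≤ ι := h1.trans hQ
  have h3 := gk_exp hν1 (div_pos hmpos hF) h2
  have h4 : exp (-1 - N * ι / q) ≤ exp (-1 - ι / ni) := by
    refine exp_le_exp.mpr ?_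
    have : ι / ni ≤ N * ι / q := by
      rw [div_le_div_iff₀ hν1 hq]
      have := mul_le_mul_of_nonneg_left hq1 hι0
      linarith
    linarith
  constructor
  · have h5 : ni * exp (-1 - N * ι / q) ≤ m / F :=
      (mul_le_mul_of_nonneg_left h4 hν1.le).trans h3
    rw [le_div_iff₀ hF] at h5
    have h6 : 0 < exp (-1 - N * ι / q) := exp_pos _
    calc q * F * exp (-1 - N * ι / q) = q * (F * exp (-1 - N * ι / q)) := by ring
      _ ≤ N * ni * (F * exp (-1 - N * ι / q)) := mul_le_mul_of_nonneg_right hq1 (by positivity)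
      _ = N * (ni * exp (-1 - N * ι / q) * F) := by ring
      _ ≤ N * m := mul_le_mul_of_nonneg_left h5 hNr.le
  · have h1 : q * F ≤ N * ni * F := mul_le_mul_of_nonneg_right hq1 hF.le
    have h2 : (N : ℝ) * ni * F ≤ N * (u e * m) := by
      rw [mul_assoc]; exact mul_le_mul_of_nonneg_left (D.dom e he x₁ b₁) hNr.le
    linarith

/-- one slope, the line: a line cell through the exit atom with a large mass -/
theorem TBox.slope_mass
    (D : TBox μ X E C B₀ B xh eh ch bh L R J0 J1 s e₁ e₂ p ν X' B' XS V Lg NC u w)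
    {e : ε} (he : e = e₁ ∨ e = e₂) {K0 K1 ι lam q om et : ℝ} {N NX : ℕ}
    (hK0 : J0 + w + 3 * s ≤ K0) (hK1 : K1 ≤ J1 - w - 3 * s)
    (hQ : DQ ν X' B' μ X E B R e ≤ ι) (hL : DL μ X E C xh eh ch L R J0 J1 p e ≤ ι)
    (hlam : u e * DL μ X E C xh eh ch L R J0 J1 p e ≤ lam)
    (hom : om = PE ν (fun τ => X' τ ∉ Lg ∧ bh (B' τ) ∈ Set.Icc K0 K1)) (hompos : 0 < om)
    (hq : 0 < q) (hN : 0 < N) (hNX : 0 < NX) (hNC : 0 < NC)
    (hι0 : 0 ≤ ι) (hι : 4 * ι ≤ om)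
    (hη : et ≤ om * (exp (-1 - N * ι / q) * exp (-1 - N * NC * lam / q)) /
      (8 * NX * (N * NC * (64 + 24 * ι / q))))
    {x₁ : ξ} {b₁ : η₂} (hx1 : x₁ ∈ XS) (hx1L : x₁ ∉ Lg) (hb1 : bh b₁ ∈ Set.Icc K0 K1)
    (hq1 : q ≤ N * PE ν (fun τ => X' τ = x₁ ∧ B' τ = b₁))
    (hqx : PE ν (fun τ => X' τ = x₁) ≤ 4 * q) :
    ∃ c, |bh b₁ - (ch c + eh e * xh x₁)| ≤ s ∧
      8 * NX * et * PE μ (fun ω => E ω = e ∧ R ω) ≤ PE μ (fun ω => E ω = e ∧ C ω = c ∧ L ω) ∧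
      0 < PE μ (fun ω => E ω = e ∧ C ω = c ∧ L ω) := by
  have hμ := D.box.prob
  have hF := D.posF e he
  have hs := D.box.s0
  obtain ⟨am1, am2⟩ := D.atom_ge he hQ hq hN hι0 hq1
  set F := PE μ (fun ω => E ω = e ∧ R ω) with hFd
  have hNr : (0 : ℝ) < N := by exact_mod_cast hN
  have hNXr : (0 : ℝ) < NX := by exact_mod_cast hNX
  have hNCr : (0 : ℝ) < NC := by exact_mod_cast hNC
  have hu1 := D.u1 e he
  have hu0 : 0 < u e := by linarith
  -- the exit atom given the slope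
  set m := PE μ (fun ω => X ω = x₁ ∧ B ω = b₁ ∧ E ω = e ∧ R ω) with hm
  set y := exp (-1 - N * ι / q) with hy
  have hypos : 0 < y := exp_pos _
  have hmpos : 0 < m := by
    by_contra hcon
    have h1 : (N : ℝ) * m ≤ 0 := mul_nonpos_of_nonneg_of_nonpos hNr.le (not_lt.mp hcon)
    have h2 : 0 < q * F * y := by positivity
    linarith
  obtain ⟨c, hc, hmc⟩ := D.exists_line he x₁ b₁ hx1L hmpos
  have hc' := abs_le.mp hc
  set a := PE μ (fun ω => X ω = x₁ ∧ E ω = e ∧ C ω = c ∧ L ω) with ha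
  set wc := PE μ (fun ω => E ω = e ∧ C ω = c ∧ L ω) with hwc
  have hwc0 : 0 ≤ wc := PE_nonneg hμ _
  have hapos : 0 < a := by
    by_contra hcon
    have : (NC : ℝ) * a ≤ 0 := mul_nonpos_of_nonneg_of_nonpos hNCr.le (not_lt.mp hcon)
    linarith
  -- lower bounds for the mass of the line at the exit time
  have ha1 : q * F * y ≤ N * NC * a := by
    have h3 : (N : ℝ) * m ≤ N * (NC * a) := mul_le_mul_of_nonneg_left hmc hNr.le
    linarith
  have ha2 : q * F ≤ N * NC * u e * a := by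
    have h3 : (N : ℝ) * (u e * m) ≤ N * (u e * (NC * a)) :=
      mul_le_mul_of_nonneg_left (mul_le_mul_of_nonneg_left hmc hu0.le) hNr.le
    linarith
  have hwpos : 0 < wc := hapos.trans_le (PE_mono hμ fun ω h => h.2)
  have hp1pos : 0 < p x₁ := D.pp x₁ (hapos.trans_le (PE_mono hμ fun ω h => ⟨h.1, h.2.2.2⟩))
  have hDL0 : 0 ≤ DL μ X E C xh eh ch L R J0 J1 p e := DL_nonneg hμ D.p0 D.pp e
  have hlam0 : 0 ≤ lam := (mul_nonneg hu0.le hDL0).trans hlam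
  -- the line information at the exit time
  have hg1 : gk a (p x₁ * wc) ≤ DL μ X E C xh eh ch L R J0 J1 p e * F := by
    have h := D.line he hx1 {c} fun c' hc'' => by
      rw [Set.mem_singleton_iff.mp hc'']
      exact ⟨by linarith [hb1.1, hc'.2, (abs_nonneg _).trans (D.disp e he x₁ hx1 x₁ hx1)],
        by linarith [hb1.2, hc'.1, (abs_nonneg _).trans (D.disp e he x₁ hx1 x₁ hx1)]⟩
    simpa only [Set.mem_singleton_iff] using h
  have hexp := gk_exp hapos (mul_pos hp1pos hwpos) hg1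
  have hexp2 : exp (-1 - N * NC * lam / q) ≤
      exp (-1 - DL μ X E C xh eh ch L R J0 J1 p e * F / a) := by
    refine exp_le_exp.mpr ?_
    have h1 : DL μ X E C xh eh ch L R J0 J1 p e * F / a ≤ N * NC * lam / q := by
      rw [div_le_div_iff₀ hapos hq]
      calc DL μ X E C xh eh ch L R J0 J1 p e * F * q
          = DL μ X E C xh eh ch L R J0 J1 p e * (q * F) := by ring
        _ ≤ DL μ X E C xh eh ch L R J0 J1 p e * (N * NC * u e * a) :=
            mul_le_mul_of_nonneg_left ha2 hDL0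
        _ = N * NC * (u e * DL μ X E C xh eh ch L R J0 J1 p e) * a := by ring
        _ ≤ N * NC * lam * a := by
            refine mul_le_mul_of_nonneg_right ?_ hapos.le
            exact mul_le_mul_of_nonneg_left hlam (by positivity)
    linarith
  set ex := exp (-1 - N * NC * lam / q) with hex
  have hexpos : 0 < ex := exp_pos _
  have h1 : a * ex ≤ p x₁ * wc := (mul_le_mul_of_nonneg_left hexp2 hapos.le).trans hexp
  -- upper bound for the weight of the exit time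
  have hp1 := D.p_le he (K0 := K0) (K1 := K1) (ι := ι) (by linarith) (by linarith) hQ hL
    (by rw [← hom]; exact hι) hx1
  rw [← hom] at hp1
  have hp1' : p x₁ * om ≤ 64 * q + 24 * ι := by linarith
  refine ⟨c, hc, ?_, hwpos⟩
  -- lower bound for the mass of the line
  have h2 : q * F * (om * (y * ex)) ≤ N * NC * (wc * (64 * q + 24 * ι)) := by
    calc q * F * (om * (y * ex)) = q * F * y * (om * ex) := by ring
      _ ≤ N * NC * a * (om * ex) := mul_le_mul_of_nonneg_right ha1 (by positivity)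
      _ = N * NC * (om * (a * ex)) := by ring
      _ ≤ N * NC * (om * (p x₁ * wc)) := by
          refine mul_le_mul_of_nonneg_left (mul_le_mul_of_nonneg_left h1 hompos.le) ?_
          positivity
      _ = N * NC * (wc * (p x₁ * om)) := by ring
      _ ≤ N * NC * (wc * (64 * q + 24 * ι)) := by
          refine mul_le_mul_of_nonneg_left (mul_le_mul_of_nonneg_left hp1' hwc0) ?_
          positivity
  have hden : 0 < (N : ℝ) * NC * (64 * q + 24 * ι) := by positivity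
  have h3 : F * (om * (y * ex) / (N * NC * (64 + 24 * ι / q))) ≤ wc := by
    have e1 : F * (om * (y * ex) / (N * NC * (64 + 24 * ι / q))) =
        q * F * (om * (y * ex)) / (N * NC * (64 * q + 24 * ι)) := by
      have : (64 : ℝ) + 24 * ι / q = (64 * q + 24 * ι) / q := by field_simp
      rw [this]
      field_simp
    rw [e1, div_le_iff₀ hden]
    linarith
  have h4 : 8 * NX * et ≤ om * (y * ex) / (N * NC * (64 + 24 * ι / q)) := by
    have hden2 : 0 < (N : ℝ) * NC * (64 + 24 * ι / q) := by positivity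
    rw [le_div_iff₀ (by positivity)] at hη
    rw [le_div_iff₀ hden2]
    linarith
  calc 8 * NX * et * F ≤ om * (y * ex) / (N * NC * (64 + 24 * ι / q)) * F :=
        mul_le_mul_of_nonneg_right h4 hF.le
    _ = F * (om * (y * ex) / (N * NC * (64 + 24 * ι / q))) := by ring
    _ ≤ wc := h3

/-- one slope, the rows: the line has a large mass at the majority time -/
theorem TBox.slope_rows
    (D : TBox μ X E C B₀ B xh eh ch bh L R J0 J1 s e₁ e₂ p ν X' B' XS V Lg NC u w)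
    {e : ε} (he : e = e₁ ∨ e = e₂) {K0 K1 ι et : ℝ} {NX : ℕ}
    (hK0 : J0 + w + 3 * s ≤ K0) (hK1 : K1 ≤ J1 - w - 3 * s)
    (hQ : DQ ν X' B' μ X E B R e ≤ ι) (hL : DL μ X E C xh eh ch L R J0 J1 p e ≤ ι)
    (hNX : 0 < NX) (hι0 : 0 ≤ ι) (hη4 : 4 * ι ≤ et)
    {x₁ x₀ : ξ} {b₁ : η₂} (hx1 : x₁ ∈ XS) (hx0 : x₀ ∈ XS) (hx0L : x₀ ∉ Lg)
    (hb1 : bh b₁ ∈ Set.Icc K0 K1)
    (hp0 : 1 ≤ 2 * NX * p x₀) {c : η₁} (hc : |bh b₁ - (ch c + eh e * xh x₁)| ≤ s)
    (hw1 : 8 * NX * et * PE μ (fun ω => E ω = e ∧ R ω) ≤ PE μ (fun ω => E ω = e ∧ C ω = c ∧ L ω))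
    (hwpos : 0 < PE μ (fun ω => E ω = e ∧ C ω = c ∧ L ω)) :
    et / 2 ≤ PE ν (fun τ => X' τ = x₀ ∧
      |bh (B' τ) - (bh b₁ + eh e * (xh x₀ - xh x₁))| ≤ 2 * s) := by
  have hμ := D.box.prob
  have hF := D.posF e he
  have hs := D.box.s0
  set F := PE μ (fun ω => E ω = e ∧ R ω) with hFd
  set wc := PE μ (fun ω => E ω = e ∧ C ω = c ∧ L ω) with hwc
  have hwc0 : 0 ≤ wc := PE_nonneg hμ _
  have hNXr : (0 : ℝ) < NX := by exact_mod_cast hNX
  have hc' := abs_le.mp hc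
  have hd := abs_le.mp (D.disp e he x₁ hx1 x₀ hx0)
  have hd' : eh e * (xh x₀ - xh x₁) = eh e * xh x₀ - eh e * xh x₁ := by ring
  rw [hd'] at hd
  set a0 := PE μ (fun ω => X ω = x₀ ∧ E ω = e ∧ C ω = c ∧ L ω) with ha0
  have hg0 : gk a0 (p x₀ * wc) ≤ ι * F := by
    have h := D.line he hx0 {c} fun c' hc'' => by
      rw [Set.mem_singleton_iff.mp hc'']
      exact ⟨by linarith [hb1.1, hc'.2, hd.1], by linarith [hb1.2, hc'.1, hd.2]⟩
    simp only [Set.mem_singleton_iff] at h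
    exact h.trans (mul_le_mul_of_nonneg_right hL hF.le)
  have hp0pos : 0 < p x₀ := by
    by_contra hcon
    have : 2 * (NX : ℝ) * p x₀ ≤ 0 := mul_nonpos_of_nonneg_of_nonpos (by positivity)
      (not_lt.mp hcon)
    linarith
  have h5 : p x₀ * wc ≤ 2 * a0 + 2 * (ι * F) :=
    gk_right (PE_nonneg hμ _) (mul_nonneg (D.p0 _) hwc0) (fun _ => mul_pos hp0pos hwpos) hg0
  have h6 : 4 * et * F ≤ p x₀ * wc := by
    have h7 : p x₀ * (8 * NX * et * F) ≤ p x₀ * wc := mul_le_mul_of_nonneg_left hw1 hp0pos.le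
    have hη0 : 0 ≤ et := by linarith
    have h8 : 4 * et * F * 1 ≤ 4 * et * F * (2 * NX * p x₀) :=
      mul_le_mul_of_nonneg_left hp0 (by positivity)
    nlinarith
  -- the rows at the majority time
  set A : Set (ξ × η₂) := {t : ξ × η₂ | t.1 = x₀ ∧
      |bh t.2 - (bh b₁ + eh e * (xh x₀ - xh x₁))| ≤ 2 * s} with hA
  have h7 : a0 ≤ PE μ (fun ω => (X ω, B ω) ∈ A ∧ E ω = e ∧ R ω) := by
    refine PE_mono hμ fun ω h => ?_
    obtain ⟨hXω, hE, hC, hLω⟩ := h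
    have h8 := abs_le.mp (D.box.rel ω hLω (by rw [hE]; exact he))
    rw [hE, hC, hXω] at h8
    refine ⟨⟨hXω, ?_⟩, hE, D.box.LR ω hLω (by rw [hE]; exact he) ?_⟩
    · show |bh (B ω) - (bh b₁ + eh e * (xh x₀ - xh x₁))| ≤ 2 * s
      rw [D.hB ω hLω (by rw [hXω]; exact hx0L), hd', abs_le]
      constructor <;> linarith [h8.1, h8.2, hc'.1, hc'.2]
    · exact ⟨by linarith [hb1.1, hc'.2, hd.1, h8.1], by linarith [hb1.2, hc'.1, hd.2, h8.2]⟩
  have h8 := D.mass_ge he A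
  have h9 : a0 / F ≤ 2 * PE ν (fun τ => (X' τ, B' τ) ∈ A) + 2 * ι :=
    (div_le_div_of_nonneg_right h7 hF.le).trans (h8.trans (by linarith))
  rw [div_le_iff₀ hF] at h9
  have h10 : (7 / 4 * et) * F ≤ (2 * PE ν (fun τ => (X' τ, B' τ) ∈ A) + 2 * ι) * F := by
    have h11 : ι * F ≤ et / 4 * F := mul_le_mul_of_nonneg_right (by linarith) hF.le
    linarith
  have h11 := le_of_mul_le_mul_right h10 hF
  have h12 : et / 2 ≤ PE ν (fun τ => (X' τ, B' τ) ∈ A) := by linarith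
  exact h12

/-- **one slope**: the mass of the rows at a majority time which lie on the line of slope `e`
through the exit atom -/
theorem TBox.slope (D : TBox μ X E C B₀ B xh eh ch bh L R J0 J1 s e₁ e₂ p ν X' B' XS V Lg NC u w)
    {e : ε} (he : e = e₁ ∨ e = e₂) {K0 K1 ι lam q om et : ℝ} {N NX : ℕ}
    (hK0 : J0 + w + 3 * s ≤ K0) (hK1 : K1 ≤ J1 - w - 3 * s)
    (hQ : DQ ν X' B' μ X E B R e ≤ ι) (hL : DL μ X E C xh eh ch L R J0 J1 p e ≤ ι)
    (hlam : u e * DL μ X E C xh eh ch L R J0 J1 p e ≤ lam)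
    (hom : om = PE ν (fun τ => X' τ ∉ Lg ∧ bh (B' τ) ∈ Set.Icc K0 K1)) (hompos : 0 < om)
    (hq : 0 < q) (hN : 0 < N) (hNX : 0 < NX) (hNC : 0 < NC)
    (hι0 : 0 ≤ ι) (hι : 4 * ι ≤ om)
    (hη : et ≤ om * (exp (-1 - N * ι / q) * exp (-1 - N * NC * lam / q)) /
      (8 * NX * (N * NC * (64 + 24 * ι / q)))) (hη4 : 4 * ι ≤ et)
    {x₁ x₀ : ξ} {b₁ : η₂} (hx1 : x₁ ∈ XS) (hx0 : x₀ ∈ XS) (hx1L : x₁ ∉ Lg) (hx0L : x₀ ∉ Lg)
    (hb1 : bh b₁ ∈ Set.Icc K0 K1) (hq1 : q ≤ N * PE ν (fun τ => X' τ = x₁ ∧ B' τ = b₁))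
    (hqx : PE ν (fun τ => X' τ = x₁) ≤ 4 * q)
    (hp0 : 1 ≤ 2 * NX * p x₀) :
    et / 2 ≤ PE ν (fun τ => X' τ = x₀ ∧
      |bh (B' τ) - (bh b₁ + eh e * (xh x₀ - xh x₁))| ≤ 2 * s) := by
  obtain ⟨c, hc, hw1, hwpos⟩ := D.slope_mass he hK0 hK1 hQ hL hlam hom hompos hq hN hNX hNC
    hι0 hι hη hx1 hx1L hb1 hq1 hqx
  exact D.slope_rows he hK0 hK1 hQ hL hNX hι0 hη4 hx1 hx0 hx0L hb1 hp0 hc hw1 hwpos

open Classical in
/-- **the core of the one-box inequality** -/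
theorem TBox.core (D : TBox μ X E C B₀ B xh eh ch bh L R J0 J1 s e₁ e₂ p ν X' B' XS V Lg NC u w)
    (Hv S : Set ξ) (hSH : ∀ x ∈ S, x ∉ Hv ∧ x ∉ Lg)
    (hsep : ∀ x ∈ S, ∀ x' ∈ XS, x' ∈ Hv → 4 * s < |(eh e₁ - eh e₂) * (xh x' - xh x)|)
    (Mi : T → Prop) {K0 K1 ι lam q om et : ℝ} {N NX : ℕ}
    (hMi : ∀ τ, Mi τ → X' τ ∉ Lg → bh (B' τ) ∈ Set.Icc K0 K1)
    (hK0 : J0 + w + 3 * s ≤ K0) (hK1 : K1 ≤ J1 - w - 3 * s)
    (hQ : ∀ e, (e = e₁ ∨ e = e₂) → DQ ν X' B' μ X E B R e ≤ ι)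
    (hL : ∀ e, (e = e₁ ∨ e = e₂) → DL μ X E C xh eh ch L R J0 J1 p e ≤ ι)
    (hlam : ∀ e, (e = e₁ ∨ e = e₂) → u e * DL μ X E C xh eh ch L R J0 J1 p e ≤ lam)
    (hom : om = PE ν (fun τ => X' τ ∉ Lg ∧ bh (B' τ) ∈ Set.Icc K0 K1)) (hompos : 0 < om)
    (hqe : q = PE ν (fun τ => X' τ ∈ S ∧ Mi τ))
    (hq : 0 < q) (hqm : PE ν (fun τ => X' τ ∉ Hv ∧ X' τ ∉ Lg) ≤ 4 * q)
    (hlg : ∑ x ∈ XS with x ∈ Lg, p x ≤ 1 / 4)
    (hV : V.card ≤ N) (hNX : XS.card ≤ NX)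
    (hι0 : 0 ≤ ι) (hι : 4 * ι ≤ om)
    (hsm : 16 * PE ν (fun τ => X' τ ∉ Hv ∧ X' τ ∉ Lg) + 24 * NX * ι ≤ om / 4)
    (hη : et ≤ om * (exp (-1 - N * ι / q) * exp (-1 - N * NC * lam / q)) /
      (8 * NX * (N * NC * (64 + 24 * ι / q)))) (hη4 : 4 * ι ≤ et) :
    log 2 * et ≤ Hc ν B' X' := by
  have hs := D.box.s0
  have hν := D.probν
  -- the exit atom
  obtain ⟨⟨x₁, b₁⟩, ⟨τ₁, ⟨hx1S, hτM⟩, hτx, hτb⟩, hq1⟩ := exists_atom hν X' B' V D.supp
    (fun τ => X' τ ∈ S ∧ Mi τ) hV hq hqe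
  simp only at hq1 hτx hτb
  rw [hτx] at hx1S
  have hx1L : x₁ ∉ Lg := (hSH x₁ hx1S).2
  have hb1 : bh b₁ ∈ Set.Icc K0 K1 := by
    rw [← hτb]; exact hMi τ₁ hτM (by rw [hτx]; exact hx1L)
  have hν1 : 0 < PE ν (fun τ => X' τ = x₁ ∧ B' τ = b₁) := by
    by_contra hcon
    have : (N : ℝ) * PE ν (fun τ => X' τ = x₁ ∧ B' τ = b₁) ≤ 0 :=
      mul_nonpos_of_nonneg_of_nonpos (Nat.cast_nonneg _) (not_lt.mp hcon)
    linarith
  have hx1 : x₁ ∈ XS := by
    obtain ⟨ω, -, h1, -, -, h2⟩ := exists_of_PE_pos D.box.prob (D.ac (Or.inl rfl) x₁ b₁ hν1)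
    rw [← h1]; exact D.hX ω (D.box.RL ω h2)
  have hNpos : 0 < N := by
    rcases Nat.eq_zero_or_pos N with h | h
    · rw [h] at hq1; simp at hq1; linarith
    · exact h
  have hNXpos : 0 < NX := (card_pos.mpr ⟨x₁, hx1⟩).trans_le hNX
  have hNCpos : 0 < NC := by
    obtain ⟨ω, hω, h1, h3, h4, h2⟩ := exists_of_PE_pos D.box.prob (D.ac (Or.inl rfl) x₁ b₁ hν1)
    have h5 := D.cardC x₁ b₁ e₁ (Or.inl rfl) {C ω} fun c hc => by
      rw [mem_singleton.mp hc]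
      refine ⟨⟨ω, rfl⟩, ?_⟩
      have h6 := D.box.rel ω (D.box.RL ω h2) (Or.inl h4)
      rw [← D.hB ω (D.box.RL ω h2) (by rw [h1]; exact hx1L), h1, h3, h4] at h6
      exact h6
    rw [card_singleton] at h5
    omega
  have hqx : PE ν (fun τ => X' τ = x₁) ≤ 4 * q := by
    refine le_trans (PE_mono hν fun τ h => ?_) hqm
    rw [h]; exact hSH x₁ hx1S
  -- the majority time
  obtain ⟨x₀, hx0, hx0H, hx0L, hp0⟩ :
      ∃ x₀ ∈ XS, x₀ ∈ Hv ∧ x₀ ∉ Lg ∧ 1 ≤ 2 * (NX : ℝ) * p x₀ := by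
    by_contra hcon
    push Not at hcon
    have h1 : ∑ x ∈ XS.filter (fun x => x ∉ Hv ∧ x ∉ Lg), p x * om ≤
        16 * PE ν (fun τ => X' τ ∉ Hv ∧ X' τ ∉ Lg) + 24 * NX * ι := by
      have h2 : ∀ x ∈ XS.filter (fun x => x ∉ Hv ∧ x ∉ Lg), p x * om ≤
          16 * PE ν (fun τ => X' τ = x) + 24 * ι := by
        intro x hx
        have h3 := D.p_le (Or.inl rfl) (K0 := K0) (K1 := K1) (ι := ι) (by linarith) (by linarith)
          (hQ _ (Or.inl rfl)) (hL _ (Or.inl rfl)) (by rw [← hom]; exact hι) (mem_filter.mp hx).1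
        rw [← hom] at h3
        exact h3
      refine (sum_le_sum h2).trans ?_
      rw [sum_add_distrib, ← mul_sum, sum_const, nsmul_eq_mul]
      have h3 : ∑ x ∈ XS.filter (fun x => x ∉ Hv ∧ x ∉ Lg), PE ν (fun τ => X' τ = x) ≤
          PE ν (fun τ => X' τ ∉ Hv ∧ X' τ ∉ Lg) := by
        refine sum_PE_le hν _ (fun x τ => X' τ = x) _ ?_ ?_
        · intro x hx τ h
          rw [h]; exact (mem_filter.mp hx).2
        · intro x _ y _ hne τ h h'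
          exact hne (h.symm.trans h')
      have h4 : ((XS.filter (fun x => x ∉ Hv ∧ x ∉ Lg)).card : ℝ) ≤ NX := by
        exact_mod_cast (card_le_card (filter_subset _ _)).trans hNX
      have h5 : ((XS.filter (fun x => x ∉ Hv ∧ x ∉ Lg)).card : ℝ) * (24 * ι) ≤ NX * (24 * ι) :=
        mul_le_mul_of_nonneg_right h4 (by positivity)
      linarith
    have h6 : ∑ x ∈ XS.filter (fun x => x ∉ Hv ∧ x ∉ Lg), p x ≤ 1 / 4 := by
      have h7 := h1.trans hsm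
      rw [← sum_mul] at h7
      have h8 : (∑ x ∈ XS.filter (fun x => x ∉ Hv ∧ x ∉ Lg), p x) * om ≤ 1 / 4 * om := by linarith
      exact le_of_mul_le_mul_right h8 hompos
    have h7 : 1 / 2 ≤ ∑ x ∈ XS.filter (fun x => x ∈ Hv ∧ x ∉ Lg), p x := by
      have h8 := D.psum
      have h9 : ∑ x ∈ XS, p x ≤ ∑ x ∈ XS.filter (fun x => x ∈ Lg), p x +
          (∑ x ∈ XS.filter (fun x => x ∉ Hv ∧ x ∉ Lg), p x +
          ∑ x ∈ XS.filter (fun x => x ∈ Hv ∧ x ∉ Lg), p x) := by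
        rw [sum_filter, sum_filter, sum_filter, ← sum_add_distrib, ← sum_add_distrib]
        refine sum_le_sum fun x _ => ?_
        have := D.p0 x
        by_cases hh1 : x ∈ Lg <;> by_cases hh2 : x ∈ Hv <;> simp [hh1, hh2]
      linarith
    have hne : (XS.filter (fun x => x ∈ Hv ∧ x ∉ Lg)).Nonempty := by
      by_contra hne
      rw [not_nonempty_iff_eq_empty] at hne
      rw [hne, sum_empty] at h7
      linarith
    have hNXr : (0 : ℝ) < NX := by exact_mod_cast hNXpos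
    have h8 : ∑ x ∈ XS.filter (fun x => x ∈ Hv ∧ x ∉ Lg), p x <
        ∑ x ∈ XS.filter (fun x => x ∈ Hv ∧ x ∉ Lg), 1 / (2 * (NX : ℝ)) := by
      refine sum_lt_sum_of_nonempty hne fun x hx => ?_
      obtain ⟨h9, h10, h11⟩ := mem_filter.mp hx
      rw [lt_div_iff₀ (by positivity), mul_comm]
      exact hcon x h9 h10 h11
    rw [sum_const, nsmul_eq_mul] at h8
    have h9 : ((XS.filter (fun x => x ∈ Hv ∧ x ∉ Lg)).card : ℝ) ≤ NX := by
      exact_mod_cast (card_le_card (filter_subset _ _)).trans hNX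
    have h10 : ((XS.filter (fun x => x ∈ Hv ∧ x ∉ Lg)).card : ℝ) * (1 / (2 * (NX : ℝ))) ≤
        1 / 2 := by
      rw [mul_one_div, div_le_iff₀ (by positivity)]
      linarith
    linarith
  have g1 := D.slope (Or.inl rfl) hK0 hK1 (hQ _ (Or.inl rfl)) (hL _ (Or.inl rfl))
    (hlam _ (Or.inl rfl)) hom hompos hq hNpos hNXpos hNCpos hι0 hι
    hη hη4 hx1 hx0 hx1L hx0L hb1 hq1 hqx hp0
  have g2 := D.slope (Or.inr rfl) hK0 hK1 (hQ _ (Or.inr rfl)) (hL _ (Or.inr rfl))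
    (hlam _ (Or.inr rfl)) hom hompos hq hNpos hNXpos hNCpos hι0 hι
    hη hη4 hx1 hx0 hx1L hx0L hb1 hq1 hqx hp0
  -- the two sets of rows are disjoint
  set Dg : T → Prop := fun τ => |bh (B' τ) - (bh b₁ + eh e₁ * (xh x₀ - xh x₁))| ≤ 2 * s with hDg
  have hdis : ∀ τ, |bh (B' τ) - (bh b₁ + eh e₂ * (xh x₀ - xh x₁))| ≤ 2 * s → ¬ Dg τ := by
    intro τ h2 h1
    have h3 := hsep x₁ hx1S x₀ hx0 hx0H
    have h4 := abs_le.mp h1
    have h5 := abs_le.mp h2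
    have h6 : (eh e₁ - eh e₂) * (xh x₀ - xh x₁) =
        eh e₁ * (xh x₀ - xh x₁) - eh e₂ * (xh x₀ - xh x₁) := by ring
    rw [h6] at h3
    have h7 : |eh e₁ * (xh x₀ - xh x₁) - eh e₂ * (xh x₀ - xh x₁)| ≤ 4 * s := by
      rw [abs_le]; constructor <;> linarith [h4.1, h4.2, h5.1, h5.2]
    linarith
  have k1 : et / 2 ≤ PE ν (fun τ => X' τ = x₀ ∧ Dg τ) := g1
  have k2 : et / 2 ≤ PE ν (fun τ => X' τ = x₀ ∧ ¬ Dg τ) :=
    g2.trans (PE_mono hν fun τ h => ⟨h.1, hdis τ h.2⟩)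
  have k3 : PE ν (fun τ => X' τ = x₀) =
      PE ν (fun τ => X' τ = x₀ ∧ Dg τ) + PE ν (fun τ => X' τ = x₀ ∧ ¬ Dg τ) := by
    rw [PE_add _ _ fun τ h h' => h'.2 h.2]
    exact PE_congr fun τ => by tauto
  have k4 := Hc_digit_ge hν Dg X' {x₀}
  rw [sum_singleton] at k4
  have k5 : et ≤ PE ν (fun τ => X' τ = x₀) -
      |PE ν (fun τ => X' τ = x₀ ∧ Dg τ) - PE ν (fun τ => X' τ = x₀ ∧ ¬ Dg τ)| := by
    rw [k3]
    rcases abs_cases (PE ν (fun τ => X' τ = x₀ ∧ Dg τ) - PE ν (fun τ => X' τ = x₀ ∧ ¬ Dg τ)) with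
      h | h <;> linarith
  have hlog2 : 0 ≤ log 2 := log_nonneg (by norm_num)
  have k6 : Hc ν Dg X' ≤ Hc ν B' X' := by
    refine Hc_mono_left hν ?_
    intro τ τ' h
    simp only [hDg, h]
  exact (mul_le_mul_of_nonneg_left k5 hlog2).trans (k4.trans k6)

end

end Vale.Agent.P065.H562
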