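import Vale.Agent.P065.H562.ThinLev
import Vale.Agent.P065.H154.InfoBud2
import Vale.Agent.P065.H344.ShortQ

/-!
# P065, package TTHIN (helper562), part 10: the one-box inequality on FRAME and its sum
-/

set_option autoImplicit false
set_option linter.unusedSectionVars false

open Finset Real

noncomputable section

namespace Vale.Agent.P065.H562

open Vale.Agent.P065.UB Vale.Agent.P065.Ent Vale.Agent.P065.H268 Vale.Agent.P065.H725
  Vale.Agent.P065.H819 Vale.Agent.P065.H154 Vale.Agent.P065.H700 Vale.Agent.P065.H344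

variable {Ω : Type*} [Fintype Ω] {F : Fr Ω} {ln : Ω → Pt} {p : Prm}

lemma ite_inst {P : Prop} {h1 : Decidable P} {h2 : Decidable P} (x y : ℝ) :
    @ite ℝ P h1 x y = @ite ℝ P h2 x y := by
  by_cases h : P
  · rw [if_pos h, if_pos h]
  · rw [if_neg h, if_neg h]

section half

variable {Q : p.Col × Ω → ℝ}

/-- the heavy half of a box -/
lemma exists_dh (u : ℝ) (s₀ a v : ℕ) (t₀ : p.Col × Ω) :
    ∃ dh : ℤ, ∀ t, Rt F ln p u a v t = Rt F ln p u a v t₀ →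
      (Hh (Pf F p u s₀) Q (Rt F ln p u a) v t ↔ F.D u (v + 1) t.2 = dh) := by
  classical
  have hRD : ∀ t, Det (Rt F ln p u a t) ((Pf F p u s₀).D t) := fun t => Rt_D u a t
  exact ⟨_, fun t ht => Hh_iff hRD ht⟩

/-- two halves -/
lemma not_dh (u : ℝ) (s₀ a v : ℕ) {t t' : p.Col × Ω}
    (h : Rt F ln p u a v t' = Rt F ln p u a v t)
    (h1 : ¬ Hh (Pf F p u s₀) Q (Rt F ln p u a) v t)
    (h2 : ¬ Hh (Pf F p u s₀) Q (Rt F ln p u a) v t') :
    F.D u (v + 1) t'.2 = F.D u (v + 1) t.2 := by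
  have hRD : ∀ t, Det (Rt F ln p u a t) ((Pf F p u s₀).D t) := fun t => Rt_D u a t
  exact Hh_two hRD v t' t h (iff_of_false h2 h1)

lemma kaT_eq (u : ℝ) (s₀ a v : ℕ) {t : p.Col × Ω} {r : p.Col × ℤ × ℤ × ℤ}
    (h : Rt F ln p u a v t = r) (h1 : ¬ Hh (Pf F p u s₀) Q (Rt F ln p u a) v t) :
    kaT F ln p Q u a v t = MB Q (Rt F ln p u a v) r
      (fun t => ¬ Hh (Pf F p u s₀) Q (Rt F ln p u a) v t) / Pr Q (Rt F ln p u a v) r := by
  classical
  have hRD : ∀ t, Det (Rt F ln p u a t) ((Pf F p u s₀).D t) := fun t => Rt_D u a t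
  unfold kaT
  rw [h]
  congr 1
  unfold MB
  rw [PE_def]
  unfold Pr
  refine sum_congr rfl fun t' _ => ?_
  by_cases h2 : Rt F ln p u a v t' = r ∧ ¬ Hh (Pf F p u s₀) Q (Rt F ln p u a) v t'
  · rw [if_pos h2, if_pos]
    exact Prod.ext (not_dh u s₀ a v (h2.1.trans h.symm) h1 h2.2) h2.1
  · rw [if_neg h2, if_neg]
    intro h3
    simp only [Prod.mk.injEq] at h3
    refine h2 ⟨h3.2, fun h4 => h1 ?_⟩
    have e1 := (Hh_iff (q := Q) hRD (h3.2.trans h.symm)).mp h4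
    refine (Hh_iff (q := Q) hRD (rfl : Rt F ln p u a v t = Rt F ln p u a v t)).mpr ?_
    rw [← e1]
    exact h3.1.symm

end half

section box

variable {Lab : Type*} {lam : Ω → Lab} {f : p.Col → (ℕ × Lab) × ℤ × ℤ → ℝ}
  {f0 : ∀ k r, 0 ≤ f k r} {f1 : ∀ k r, f k r ≤ 1} {μ : Ω → ℝ}

/-- the separation of the constants -/
lemma sT_sep {dX PB PC g : ℕ} (h0 : g + 14 ≤ PC) (h1 : PC ≤ PB) (h2 : PC ≤ p.PP) (h3 : PC ≤ dX) :
    4 * sT p dX PB PC < 1 / 2 ^ 9 / 2 ^ g := by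
  have key : ∀ n : ℕ, PC ≤ n → (1 : ℝ) / 2 ^ n ≤ 1 / (2 ^ 14 * 2 ^ g) := by
    intro n hn
    refine one_div_le_one_div_of_le (by positivity) ?_
    rw [← pow_add]
    exact pow_le_pow_right₀ (by norm_num) (by omega)
  have h4 : (1 : ℝ) / 2 ^ 9 / 2 ^ g = 32 * (1 / (2 ^ 14 * 2 ^ g)) := by
    field_simp
    norm_num
  have h5 : (0 : ℝ) < 1 / (2 ^ 14 * 2 ^ g) := by positivity
  unfold sT
  rw [h4]
  linarith [key PB h1, key p.PP h2, key dX h3, key PC le_rfl]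

open Classical in
/-- **the one-box inequality on the frame** -/
theorem thin_box (hμ : IsProb μ) (hJ : 0 < (cols F ln p lam f f0 f1).J μ)
    (hsep : ∀ c x, 0 < (cols F ln p lam f f0 f1).wt μ c x →
      1 / 2 ^ 9 ≤ |(Prm.b0 c.1 : ℝ) - (Prm.b1 c.1 : ℝ)| / 2 ^ p.PP)
    (u θ : ℝ) {s₀ a g dX PB PR PC a2 v : ℕ} {M0 : ℝ} (ha : 1 < a) (hdX : dX = PB + a)
    (hg1 : 1 ≤ g) (hgX : g ≤ dX) (hPC : g + 14 ≤ PC) (hPB : PC ≤ PB) (hPP : PC ≤ p.PP)
    (hPR : PB ≤ PR) (hM0 : 1 ≤ M0) {r : p.Col × ℤ × ℤ × ℤ} {jl : ℤ}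
    (hr : 0 < Pr ((cols F ln p lam f f0 f1).Q μ) (Rt F ln p u a v) r)
    (hTwo : Two F u v r.2.2.1)
    (hj0 : (jl : ℝ) * 2 ^ a2 + 1 ≤ r.2.2.2 * 2 ^ a + H60.dlt r.1 u θ v r.2.1 r.2.2.1)
    (hj1 : ((r.2.2.2 : ℝ) + 1) * 2 ^ a + H60.dlt r.1 u θ v r.2.1 r.2.2.1 ≤ (jl + 1) * 2 ^ a2)
    (hM : 0 < MB ((cols F ln p lam f f0 f1).Q μ) (Rt F ln p u a v) r
      (fun t => ¬ Hh (Pf F p u s₀) ((cols F ln p lam f f0 f1).Q μ) (Rt F ln p u a) v t ∧
        ¬ late F p PR v t))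
    (hsmall : MB ((cols F ln p lam f f0 f1).Q μ) (Rt F ln p u a v) r
      (fun t => ¬ Hh (Pf F p u s₀) ((cols F ln p lam f f0 f1).Q μ) (Rt F ln p u a) v t ∧
        ¬ late F p PR v t) ≤
      Pr ((cols F ln p lam f f0 f1).Q μ) (Rt F ln p u a v) r *
        exp (-(2000 * M0 * ((2 * 2 ^ dX : ℕ) : ℝ) * ((2 * 2 ^ dX * 2 ^ (PB + a) : ℕ) : ℝ) *
          ((9 : ℕ) : ℝ)))) :
    Pr ((cols F ln p lam f f0 f1).Q μ) (Rt F ln p u a v) r *
      negMulLog (MB ((cols F ln p lam f f0 f1).Q μ) (Rt F ln p u a v) r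
      (fun t => ¬ Hh (Pf F p u s₀) ((cols F ln p lam f f0 f1).Q μ) (Rt F ln p u a) v t ∧
        ¬ late F p PR v t) / Pr ((cols F ln p lam f f0 f1).Q μ) (Rt F ln p u a v) r) ≤
      2 * (∑ t, if Rt F ln p u a v t = r ∧
        ¬ Hh (Pf F p u s₀) ((cols F ln p lam f f0 f1).Q μ) (Rt F ln p u a) v t ∧
        ¬ late F p PR v t ∧ nrT F ln p u g a v t then
        (cols F ln p lam f f0 f1).Q μ t *
          -log (kaT F ln p ((cols F ln p lam f f0 f1).Q μ) u a v t) else 0) +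
      20 * (∑ t, if Rt F ln p u a v t = r ∧ DeepT F ln a v t then
        (cols F ln p lam f f0 f1).Q μ t *
          log (Pr ((cols F ln p lam f f0 f1).Q μ) (Rt F ln p u a v) r /
            MB ((cols F ln p lam f f0 f1).Q μ) (Rt F ln p u a v) r (MidT F ln a v)) else 0) +
      32 * ((2 * 2 ^ dX * 2 ^ (PB + a) : ℕ) : ℝ) * ((9 : ℕ) : ℝ) *
        (Pr ((cols F ln p lam f f0 f1).Q μ) (Rt F ln p u a v) r *
          TIT F ln p μ ((cols F ln p lam f f0 f1).J μ) ((cols F ln p lam f f0 f1).Q μ)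
            u a dX PB PR PC a2 v θ jl r false +
         Pr ((cols F ln p lam f f0 f1).Q μ) (Rt F ln p u a v) r *
          TIT F ln p μ ((cols F ln p lam f f0 f1).J μ) ((cols F ln p lam f f0 f1).Q μ)
            u a dX PB PR PC a2 v θ jl r true) +
      4 / M0 * (Pr ((cols F ln p lam f f0 f1).Q μ) (Rt F ln p u a v) r *
        Hc (nuT ((cols F ln p lam f f0 f1).Q μ) (Rt F ln p u a v) r)
          (fun τ => BT F ln PB v τ.1 τ.2) (fun τ => XT F u dX PR v τ.2)) +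
      3 * MB ((cols F ln p lam f f0 f1).Q μ) (Rt F ln p u a v) r (late F p PR v) := by
  obtain ⟨c, S, d, j⟩ := r
  set C := cols F ln p lam f f0 f1 with hC
  set Q := C.Q μ with hQd
  have hQ : IsProb Q := Cols.isProb_Q hμ hJ
  -- a flag of the box
  obtain ⟨t₀, ht0, ht1⟩ : ∃ t₀, 0 < Q t₀ ∧ Rt F ln p u a v t₀ = (c, S, d, j) := by
    by_contra hcon
    push Not at hcon
    have : Pr Q (Rt F ln p u a v) (c, S, d, j) = 0 := by
      unfold Pr
      refine sum_eq_zero fun t _ => ?_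
      split_ifs with h
      · rcases (hQ.nonneg t).eq_or_lt with h0 | h0
        · exact h0.symm
        · exact absurd h (hcon t h0)
      · rfl
    linarith
  obtain ⟨dh, hdh⟩ := exists_dh (F := F) (ln := ln) (Q := Q) u s₀ a v t₀
  rw [ht1] at hdh
  have hT : ∀ ω, F.D u v ω = d → v < F.T' ω := fun ω h => hTwo.lt h
  have hsb : 1 / 2 ^ 9 ≤ |(Prm.b0 c.1 : ℝ) - (Prm.b1 c.1 : ℝ)| / 2 ^ p.PP := by
    obtain ⟨c', ω⟩ := t₀
    have hc : c' = c := (Prod.mk.inj ht1).1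
    subst hc
    exact hsep c' _ (Cols.wt_pos_of_Q_pos hμ ht0)
  have D := tboxT (F := F) (ln := ln) (p := p) (lam := lam) (f := f) (f0 := f0) (f1 := f1)
    (μ := μ) hμ hJ u θ (a := a) (dX := dX) (PB := PB) (PR := PR) (PC := PC) (a2 := a2) (v := v)
    hPB hPP hdX hPR (c := c) (S := S) (d := d) (j := j) (jl := jl) hr hT hj0 hj1
  have hs := sT_small (p := p) (dX := dX) (PB := PB) (PC := PC) (by omega) hPB hPP (by omega)
  have hs3 : (0 : ℝ) < 1 / 2 ^ PB := by positivity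
  have hs2 := sT_sep (p := p) (dX := dX) (PB := PB) (PC := PC) hPC hPB hPP (by omega)
  have hXTl : ∀ t : p.Col × Ω, late F p PR v t ↔ XT F u dX PR v t.2 ∈ LgS := fun t => Iff.rfl
  have key := D.thin_un hQ hr (HvT dX dh) (SvT dX g d dh) SvT_not
    (sepT (by omega) hsb hs2)
    (MidT F ln a v) (DeepT F ln a v) (K0 := (j : ℝ) * 2 ^ a + 2) (K1 := (j + 1) * 2 ^ a - 2)
    (fun t h1 h2 h3 => midT (by omega) hPR hT t h1 h2 h3) (fun t h => h.mid)
    (by linarith) (by linarith) (card_VT_le u a dX PB PR v d j) (card_XS_le u dX PR v d)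
    (by positivity) (by positivity) (by norm_num) hM0
    (fun t => Hh (Pf F p u s₀) Q (Rt F ln p u a) v t) (late F p PR v) (nrT F ln p u g a v)
    (fun t h => (hdh t h).trans (XT_mem_HvT (by omega)).symm) (fun t _ => hXTl t)
    (fun t _ h1 h2 h3 h4 => by
      unfold nrT at h4
      push Not at h4
      refine ⟨XT_mem_SvT hg1 hgX ?_ ?_ ?_ h4.1, h4.2⟩
      · exact D_of_Rt h1
      · exact fun h5 => h2 ((hdh t h1).mpr h5)
      · exact not_lt.mp h3)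
    (kaT F ln p Q u a v) (fun t h1 h2 => kaT_eq u s₀ a v h1 h2) hM hsmall
  refine key.trans (add_le_add (add_le_add (add_le_add (add_le_add ?_ ?_) le_rfl) le_rfl) le_rfl)
  · exact le_of_eq (congrArg (fun x : ℝ => 2 * x) (sum_congr rfl fun t _ => ite_inst _ _))
  · exact le_of_eq (congrArg (fun x : ℝ => 20 * x) (sum_congr rfl fun t _ => ite_inst _ _))

open Classical in
/-- **the sum of the one-box inequalities** -/
theorem thin_sum (hμ : IsProb μ) (hJ : 0 < (cols F ln p lam f f0 f1).J μ) {E : ℝ} (hE : 0 ≤ E)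
    (hsup : ∀ c ω, 0 < (cols F ln p lam f f0 f1).wt μ c (rho F ln p lam c ω) → ∀ b : Bool,
      exp (-E) ≤ Pr μ (fun ω => (lb ln p c ω, Prm.S c.1 (ln ω))) (some b, Prm.S c.1 (ln ω)))
    (hsep : ∀ c x, 0 < (cols F ln p lam f f0 f1).wt μ c x →
      1 / 2 ^ 9 ≤ |(Prm.b0 c.1 : ℝ) - (Prm.b1 c.1 : ℝ)| / 2 ^ p.PP)
    (hper : LPer F p ((cols F ln p lam f f0 f1).Q μ)) (hTm : F.Tm ≤ p.M)
    (u : ℝ) {s₀ a g dX PB PR PC a2 m m' : ℕ} {M0 ps : ℝ} (ha : 1 < a) (haG : a ≤ p.Γ)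
    (hdX : dX = PB + a) (hg1 : 1 ≤ g) (hgX : g ≤ dX) (hPC : g + 14 ≤ PC) (hPB : PC ≤ PB)
    (hPP : PC ≤ p.PP) (hPR : PB ≤ PR) (ha2 : 3 * (2 ^ a + 1) ≤ 2 ^ a2) (h1 : dX ≤ m)
    (h2 : PR ≤ m) (h4 : p.PP ≤ m') (h5 : PC + a2 ≤ m') (hM0 : 1 ≤ M0) (hps4 : ps ≤ 1 / 4)
    (hps : ps ≤ exp (-(2000 * M0 * ((2 * 2 ^ dX : ℕ) : ℝ) *
      ((2 * 2 ^ dX * 2 ^ (PB + a) : ℕ) : ℝ) * ((9 : ℕ) : ℝ)))) (n : ℕ) :
    ∑ v ∈ range n, ∑ t, (if ¬ H819.Th F ln p u a PR ((cols F ln p lam f f0 f1).Q μ) ps v t ∧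
      ¬ Bg ((cols F ln p lam f f0 f1).Q μ) (Rt F ln p u a v)
        (Hh (Pf F p u s₀) ((cols F ln p lam f f0 f1).Q μ) (Rt F ln p u a) v)
        (late F p PR v) t then
      (cols F ln p lam f f0 f1).Q μ t *
        negMulLog (sl ((cols F ln p lam f f0 f1).Q μ) (Rt F ln p u a v)
        (Hh (Pf F p u s₀) ((cols F ln p lam f f0 f1).Q μ) (Rt F ln p u a) v)
        (late F p PR v) t) else 0) ≤
      2 * (ncut F ln p ((cols F ln p lam f f0 f1).Q μ) a g n s₀ u + 4 * (2 ^ (a - 1) : ℝ)⁻¹ *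
        Hc ((cols F ln p lam f f0 f1).Q μ) (rb F ln p lam) (fun z => z.1)) +
      20 * (2 * ((a - 1 : ℕ) : ℝ) * (2 ^ (a - 1) : ℝ)⁻¹ *
        Hc ((cols F ln p lam f f0 f1).Q μ) (rb F ln p lam) (fun z => z.1)) +
      32 * ((2 * 2 ^ dX * 2 ^ (PB + a) : ℕ) : ℝ) * ((9 : ℕ) : ℝ) *
        ((12 * m * H987.XA p E + 4 * (2 * 4 ^ p.PP * p.nT * m' * (m * H μ F.P.x))) /
          (cols F ln p lam f f0 f1).J μ) +
      4 / M0 * (dX * ∑ t ∈ range (n + dX), Hc ((cols F ln p lam f f0 f1).Q μ)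
        (Rt F ln p u a (t + 1)) (fun z => (F.D u (t + 1) z.2, Rt F ln p u a t z))) +
      3 * PR := by
  set C := cols F ln p lam f f0 f1 with hC
  set Q := C.Q μ with hQd
  have hQ : IsProb Q := Cols.isProb_Q hμ hJ
  set hv : ℕ → p.Col × Ω → Prop := fun v => Hh (Pf F p u s₀) Q (Rt F ln p u a) v with hhv
  set lg : ℕ → p.Col × Ω → Prop := fun v => late F p PR v with hlg
  set Ms : ℕ → p.Col × ℤ × ℤ × ℤ → ℝ := fun v r => MB Q (Rt F ln p u a v) r
    (fun t => ¬ hv v t ∧ ¬ lg v t) with hMs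
  obtain ⟨θ, jl, hG⟩ := exists_Gr p u ha2
  -- the boxes
  set G : ℕ → Finset (p.Col × ℤ × ℤ × ℤ) := fun v => (univ.image (Rt F ln p u a v)).filter
    (fun r => Two F u v r.2.2.1 ∧ 0 < Pr Q (Rt F ln p u a v) r ∧ 0 < Ms v r ∧
      Ms v r ≤ Pr Q (Rt F ln p u a v) r * ps) with hGd
  have hGm : ∀ v r, r ∈ G v → Two F u v r.2.2.1 ∧ 0 < Pr Q (Rt F ln p u a v) r ∧ 0 < Ms v r ∧
      Ms v r ≤ Pr Q (Rt F ln p u a v) r * ps := fun v r h => (mem_filter.mp h).2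
  have hTwo : ∀ v, ∀ r ∈ G v, Two F u v r.2.2.1 := fun v r h => (hGm v r h).1
  -- the left side
  have l1 : ∀ v ∈ range n, ∑ t, (if ¬ H819.Th F ln p u a PR Q ps v t ∧
      ¬ Bg Q (Rt F ln p u a v) (hv v) (lg v) t then
      Q t * negMulLog (sl Q (Rt F ln p u a v) (hv v) (lg v) t) else 0) ≤
      ∑ r ∈ G v, Pr Q (Rt F ln p u a v) r *
        negMulLog (Ms v r / Pr Q (Rt F ln p u a v) r) := by
    intro v _
    rw [sum_Pr_mul (Rt F ln p u a v) (G v)
      (fun r => negMulLog (Ms v r / Pr Q (Rt F ln p u a v) r))]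
    refine sum_le_sum fun t _ => ?_
    have e1 : sl Q (Rt F ln p u a v) (hv v) (lg v) t =
        Ms v (Rt F ln p u a v t) / Pr Q (Rt F ln p u a v) (Rt F ln p u a v t) := rfl
    have hn : 0 ≤ negMulLog (Ms v (Rt F ln p u a v t) /
        Pr Q (Rt F ln p u a v) (Rt F ln p u a v t)) :=
      negMulLog_nonneg (div_nonneg (MB_nonneg hQ _) (Pr_nonneg hQ _ _))
        (div_le_one_of_le₀ (MB_le_Pr hQ _) (Pr_nonneg hQ _ _))
    have hR : 0 ≤ (if Rt F ln p u a v t ∈ G v then Q t * negMulLog (Ms v (Rt F ln p u a v t) /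
        Pr Q (Rt F ln p u a v) (Rt F ln p u a v t)) else 0) := by
      split_ifs
      · exact mul_nonneg (hQ.nonneg t) hn
      · exact le_rfl
    split_ifs with h h'
    · rw [e1]
    · -- not in the set
      rcases (hQ.nonneg t).eq_or_lt with h0 | h0
      · rw [← h0, zero_mul]
      · rcases (MB_nonneg (R := Rt F ln p u a v) (r := Rt F ln p u a v t) hQ
          (fun t => ¬ hv v t ∧ ¬ lg v t)).eq_or_lt with h3 | h3
        · have h4 : Ms v (Rt F ln p u a v t) = 0 := h3.symm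
          rw [e1, h4, zero_div, negMulLog_zero, mul_zero]
        · exfalso
          apply h'
          have hp := Pr_pos hQ (Rt F ln p u a v) h0
          refine mem_filter.mpr ⟨mem_image_of_mem _ (mem_univ t), ?_, hp, h3, ?_⟩
          · rcases two_or (F := F) (ln := ln) hQ u s₀ a v h0 with ⟨a₀, a₁, h5, h6, hne⟩ | h5
            · exact ⟨a₀.2, a₁.2, Rt_D u a v a₀ t h5, Rt_D u a v a₁ t h6, hne⟩
            · exfalso
              have h6 : MB Q (Rt F ln p u a v) (Rt F ln p u a v t)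
                  (fun t => ¬ hv v t ∧ ¬ lg v t) = 0 := by
                unfold MB
                rw [PE_def]
                exact sum_eq_zero fun t' _ => if_neg fun h7 => h7.2.1 (h5 t' h7.1)
              linarith
          · have h5 := sl_lt_late hQ s₀ hps4 h0 h.1 h.2
            have h6 : Ms v (Rt F ln p u a v t) / Pr Q (Rt F ln p u a v) (Rt F ln p u a v t) < ps :=
              h5
            rw [div_lt_iff₀ hp] at h6
            linarith
    · exact mul_nonneg (hQ.nonneg t) hn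
    · exact le_rfl
  refine (sum_le_sum l1).trans ?_
  -- the boxes one by one
  have l2 : ∀ v ∈ range n, ∀ r ∈ G v, _ := fun v _ r hr =>
    thin_box (F := F) (ln := ln) (p := p) (lam := lam) (f := f) (f0 := f0) (f1 := f1) (μ := μ)
      hμ hJ hsep u (θ v r) (s₀ := s₀) (a := a) (g := g) (dX := dX) (PB := PB) (PR := PR)
      (PC := PC) (a2 := a2) (v := v) (M0 := M0) ha hdX hg1 hgX hPC hPB hPP hPR hM0 (r := r)
      (jl := jl v r) (hGm v r hr).2.1 (hGm v r hr).1 (hG.lo v r) (hG.hi v r) (hGm v r hr).2.2.1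
      ((hGm v r hr).2.2.2.trans (mul_le_mul_of_nonneg_left hps (hGm v r hr).2.1.le))
  refine (sum_le_sum fun v hv => sum_le_sum fun r hr => l2 v hv r hr).trans ?_
  simp only [sum_add_distrib, ← mul_sum]
  have n1 := near_sum (F := F) (ln := ln) hQ hper hTm u (a := a) (by omega) haG g n s₀ lam G hTwo
    hv lg
  have n2 := mid_sum (F := F) (ln := ln) hQ hper hTm u (a := a) ha haG n lam G hTwo
  have n3 := sum_TIT_le (F := F) (ln := ln) (p := p) (lam := lam) (f := f) (f0 := f0) (f1 := f1)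
    hμ hJ hE hsup u (a := a) (PB := PB) (PC := PC) h1 h2 (by omega) h4 h5 hG n G
    (fun v _ r hr => (hGm v r hr).2.1)
  have n4 := row_sum (F := F) (ln := ln) hQ u a n dX G
    (fun v τ => BT F ln PB v τ.1 τ.2) (fun v τ => XT F u dX PR v τ.2) ?_ ?_
  have n5 := long_sum (F := F) (ln := ln) hQ u a PR n G hTwo
  simp only [sum_add_distrib] at n3
  have hM0' : 0 ≤ 4 / M0 := by positivity
  have hN : (0 : ℝ) ≤ 32 * ((2 * 2 ^ dX * 2 ^ (PB + a) : ℕ) : ℝ) * ((9 : ℕ) : ℝ) := by positivity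
  have n3' := mul_le_mul_of_nonneg_left n3 hN
  have n4' := mul_le_mul_of_nonneg_left n4 hM0'
  · refine add_le_add (add_le_add (add_le_add (add_le_add ?_ ?_) ?_) ?_) ?_
    · exact mul_le_mul_of_nonneg_left n1 (by norm_num)
    · exact mul_le_mul_of_nonneg_left n2 (by norm_num)
    · exact n3'
    · exact n4'
    · exact mul_le_mul_of_nonneg_left n5 (by norm_num)
  · intro v t t' h
    have hc : t.1 = t'.1 := Rt_col u a _ _ _ h
    obtain ⟨c, ω⟩ := t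
    obtain ⟨c', ω'⟩ := t'
    simp only at hc
    subst hc
    exact BT_congr (F := F) (ln := ln) (PB := PB) (a := a) (by omega) h
  · intro v t t' h
    exact congrArg Prod.fst h

end box

end Vale.Agent.P065.H562
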