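import Vale.Agent.P065.H562.ThinSum
import Vale.Agent.P065.H649.NearRow
import Vale.Agent.P065.H344.ThinFr
import Vale.Agent.P065.H268.TimeFrame
import Vale.Agent.P065.H60.LineBud

/-!
# P065, package TTHIN (helper562), part 9: near parts, middle parts, rows and long flags on FRAME
-/

set_option autoImplicit false
set_option linter.unusedSectionVars false

open Finset Real

noncomputable section

namespace Vale.Agent.P065.H562

open Vale.Agent.P065.UB Vale.Agent.P065.Ent Vale.Agent.P065.H819 Vale.Agent.P065.H154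
  Vale.Agent.P065.H268 Vale.Agent.P065.H344

variable {Ω : Type*} [Fintype Ω] {F : Fr Ω} {ln : Ω → Pt} {p : Prm}

/-- a box with two centres in its time cell -/
def Two (F : Fr Ω) (u : ℝ) (v : ℕ) (d : ℤ) : Prop :=
  ∃ ω ω', F.D u v ω = d ∧ F.D u v ω' = d ∧ F.P.x ω ≠ F.P.x ω'

omit [Fintype Ω] in
lemma Two.lt {u : ℝ} {v : ℕ} {d : ℤ} (h : Two F u v d) {ω : Ω} (hω : F.D u v ω = d) :
    v < F.T' ω := by
  obtain ⟨ω₁, ω₂, h1, h2, hne⟩ := h
  by_cases h4 : F.P.x ω = F.P.x ω₁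
  · exact F.lt_of_ne (hω.trans h2.symm) fun h5 => hne (h4.symm.trans h5)
  · exact F.lt_of_ne (hω.trans h1.symm) h4

omit [Fintype Ω] in
lemma Two.ne {u : ℝ} {v : ℕ} {d : ℤ} (h : Two F u v d) {ω : Ω} (hω : F.D u v ω = d) :
    ∃ ω', F.D u v ω' = F.D u v ω ∧ F.P.x ω' ≠ F.P.x ω := by
  obtain ⟨ω₁, ω₂, h1, h2, hne⟩ := h
  by_cases h4 : F.P.x ω₁ = F.P.x ω
  · exact ⟨ω₂, h2.trans hω.symm, fun h5 => hne (h4.trans h5.symm)⟩
  · exact ⟨ω₁, h1.trans hω.symm, h4⟩

omit [Fintype Ω] in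
lemma D_of_Rt {u : ℝ} {a v : ℕ} {t : p.Col × Ω} {r : p.Col × ℤ × ℤ × ℤ}
    (h : Rt F ln p u a v t = r) : F.D u v t.2 = r.2.2.1 := by
  rw [← h]; rfl

omit [Fintype Ω] in
lemma posT_eq (a v : ℕ) (t : p.Col × Ω) :
    posT F ln a v t.1 t.2 = H649.posn F ln p 1 (a - 1) v t := rfl

omit [Fintype Ω] in
lemma DeepT_iff (a v : ℕ) (t : p.Col × Ω) :
    DeepT F ln a v t ↔ H649.Deepn F ln p 1 (a - 1) v t := Iff.rfl

omit [Fintype Ω] in
lemma MidT_iff (a v : ℕ) (t : p.Col × Ω) :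
    MidT F ln a v t ↔ H649.Midn F ln p 1 (a - 1) v t := Iff.rfl

/-- the surprise of the own half -/
def kaT (F : Fr Ω) (ln : Ω → Pt) (p : Prm) (Q : p.Col × Ω → ℝ) (u : ℝ) (a v : ℕ)
    (t : p.Col × Ω) : ℝ :=
  Pr Q (fun t => (F.D u (v + 1) t.2, Rt F ln p u a v t)) (F.D u (v + 1) t.2, Rt F ln p u a v t) /
    Pr Q (Rt F ln p u a v) (Rt F ln p u a v t)

/-- near the middle of the time cell or near the ends of the row -/
def nrT (F : Fr Ω) (ln : Ω → Pt) (p : Prm) (u : ℝ) (g a v : ℕ) (t : p.Col × Ω) : Prop :=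
  nearU u g v (F.P.x t.2) ∨ ¬ DeepT F ln a v t

variable {Q : p.Col × Ω → ℝ}

lemma kaT_pos (hQ : IsProb Q) (u : ℝ) (a v : ℕ) {t : p.Col × Ω} (ht : 0 < Q t) :
    0 < kaT F ln p Q u a v t :=
  div_pos (Pr_pos hQ (fun t : p.Col × Ω => (F.D u (v + 1) t.2, Rt F ln p u a v t)) ht)
    (Pr_pos hQ _ ht)

lemma kaT_le_one (hQ : IsProb Q) (u : ℝ) (a v : ℕ) (t : p.Col × Ω) :
    kaT F ln p Q u a v t ≤ 1 :=
  div_le_one_of_le₀ (Pr_mono hQ (X := fun t : p.Col × Ω => (F.D u (v + 1) t.2, Rt F ln p u a v t))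
    (Y := Rt F ln p u a v) (det_snd _ _) t) (Pr_nonneg hQ _ _)

lemma neg_log_kaT_nonneg (hQ : IsProb Q) (u : ℝ) (a v : ℕ) (t : p.Col × Ω) :
    0 ≤ -log (kaT F ln p Q u a v t) := by
  have h1 := kaT_le_one (F := F) (ln := ln) hQ u a v t
  have h0 : 0 ≤ kaT F ln p Q u a v t := div_nonneg (Pr_nonneg hQ _ _) (Pr_nonneg hQ _ _)
  have := log_nonpos h0 h1
  linarith

open Classical in
/-- **the near part** -/
theorem near_sum (hQ : IsProb Q) (hper : LPer F p Q) (hM : F.Tm ≤ p.M) (u : ℝ) {a : ℕ}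
    (ha1 : 1 ≤ a) (ha : a ≤ p.Γ) (g n s₀ : ℕ) {Lab : Type*} (lam : Ω → Lab)
    (G : ℕ → Finset (p.Col × ℤ × ℤ × ℤ)) (hG : ∀ v, ∀ r ∈ G v, Two F u v r.2.2.1)
    (hv lg : ℕ → p.Col × Ω → Prop) :
    ∑ v ∈ range n, ∑ r ∈ G v, ∑ t, (if Rt F ln p u a v t = r ∧ ¬ hv v t ∧ ¬ lg v t ∧
      nrT F ln p u g a v t then Q t * -log (kaT F ln p Q u a v t) else 0) ≤
    ncut F ln p Q a g n s₀ u + 4 * (2 ^ (a - 1) : ℝ)⁻¹ * Hc Q (rb F ln p lam) (fun z => z.1) := by
  have h1 := H649.near_deep (ln := ln) hQ hper hM u ha1 ha n lam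
  have e1 : ∀ v ∈ range n, ∑ r ∈ G v, ∑ t, (if Rt F ln p u a v t = r ∧ ¬ hv v t ∧ ¬ lg v t ∧
      nrT F ln p u g a v t then Q t * -log (kaT F ln p Q u a v t) else 0) ≤
      ∑ t, Q t * ((if nearU u g v (F.P.x t.2) then -log (kaT F ln p Q u a v t) else 0) +
        (if v < F.T' t.2 ∧ ¬ H649.Deepn F ln p 1 (a - 1) v t then
          -log (kaT F ln p Q u a v t) else 0)) := by
    intro v _
    refine (le_of_eq ((sum_congr rfl fun r _ => sum_congr rfl fun t _ => ?_).trans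
      (sum_boxes (Rt F ln p u a v) (G v) (fun t => ¬ hv v t ∧ ¬ lg v t ∧ nrT F ln p u g a v t)
      (fun t => Q t * -log (kaT F ln p Q u a v t))))).trans ?_
    · by_cases h : Rt F ln p u a v t = r ∧ ¬ hv v t ∧ ¬ lg v t ∧ nrT F ln p u g a v t
      · rw [if_pos h, if_pos h]
      · rw [if_neg h, if_neg h]
    refine sum_le_sum fun t _ => ?_
    have h0 := neg_log_kaT_nonneg (F := F) (ln := ln) hQ u a v t
    have hq := hQ.nonneg t
    by_cases h : Rt F ln p u a v t ∈ G v ∧ ¬ hv v t ∧ ¬ lg v t ∧ nrT F ln p u g a v t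
    · rw [if_pos h]
      refine mul_le_mul_of_nonneg_left ?_ hq
      rcases h.2.2.2 with h2 | h2
      · rw [if_pos h2]
        split_ifs <;> linarith
      · have h3 : v < F.T' t.2 := (hG v _ h.1).lt rfl
        rw [if_pos (show v < F.T' t.2 ∧ ¬ H649.Deepn F ln p 1 (a - 1) v t from
          ⟨h3, fun h4 => h2 ((DeepT_iff a v t).mpr h4)⟩)]
        split_ifs <;> linarith
    · rw [if_neg h]
      refine mul_nonneg hq (add_nonneg ?_ ?_)
      · split_ifs
        · exact h0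
        · exact le_rfl
      · split_ifs
        · exact h0
        · exact le_rfl
  refine (sum_le_sum e1).trans ?_
  have e2 : ∑ v ∈ range n, ∑ t, Q t * ((if nearU u g v (F.P.x t.2) then
        -log (kaT F ln p Q u a v t) else 0) +
        (if v < F.T' t.2 ∧ ¬ H649.Deepn F ln p 1 (a - 1) v t then
          -log (kaT F ln p Q u a v t) else 0)) =
      ncut F ln p Q a g n s₀ u + ∑ z, Q z * ∑ t ∈ range n,
      (if t < F.T' z.2 ∧ ¬ H649.Deepn F ln p 1 (a - 1) t z then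
        log (Pr Q (Rt F ln p u a t) (Rt F ln p u a t z) /
          Pr Q (fun z => (F.D u (t + 1) z.2, Rt F ln p u a t z))
            (F.D u (t + 1) z.2, Rt F ln p u a t z)) else 0) := by
    unfold ncut
    rw [sum_comm, ← sum_add_distrib]
    refine sum_congr rfl fun z _ => ?_
    rw [← mul_sum, sum_add_distrib, mul_add]
    congr 1
    congr 1
    refine sum_congr rfl fun t _ => ?_
    split_ifs
    · unfold kaT
      rw [← log_inv, inv_div]
    · rfl
  rw [e2]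
  linarith

open Classical in
/-- **the middle part** -/
theorem mid_sum (hQ : IsProb Q) (hper : LPer F p Q) (hM : F.Tm ≤ p.M) (u : ℝ) {a : ℕ}
    (ha1 : 1 < a) (ha : a ≤ p.Γ) (n : ℕ) {Lab : Type*} (lam : Ω → Lab)
    (G : ℕ → Finset (p.Col × ℤ × ℤ × ℤ)) (hG : ∀ v, ∀ r ∈ G v, Two F u v r.2.2.1) :
    ∑ v ∈ range n, ∑ r ∈ G v, ∑ t, (if Rt F ln p u a v t = r ∧ DeepT F ln a v t then
      Q t * log (Pr Q (Rt F ln p u a v) r / MB Q (Rt F ln p u a v) r (MidT F ln a v)) else 0) ≤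
    2 * ((a - 1 : ℕ) : ℝ) * (2 ^ (a - 1) : ℝ)⁻¹ * Hc Q (rb F ln p lam) (fun z => z.1) := by
  have h1 := H649.mid_row (ln := ln) hQ hper hM u (γ := 1) ha1 ha n lam
    (fun t y => ∃ ω, F.D u t ω = F.D u t y ∧ F.P.x ω ≠ F.P.x y) (fun t y h => h)
  refine le_trans ?_ h1
  rw [sum_congr rfl fun z _ => mul_sum (range n) _ (Q z), sum_comm]
  refine sum_le_sum fun v _ => ?_
  rw [sum_comm]
  refine sum_le_sum fun t _ => ?_
  have hq := hQ.nonneg t
  -- the mass of the middle part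
  have e1 : MB Q (Rt F ln p u a v) (Rt F ln p u a v t) (MidT F ln a v) =
      H649.midM F ln p Q u a 1 v t := by
    unfold MB H649.midM H279.ms
    rw [PE_def]
    refine sum_congr rfl fun t' _ => ?_
    have : (Rt F ln p u a v t' = Rt F ln p u a v t ∧ MidT F ln a v t') ↔
        (Rt F ln p u a v t' = Rt F ln p u a v t ∧ H649.Midn F ln p 1 (a - 1) v t') :=
      and_congr_right fun _ => MidT_iff a v t'
    by_cases h : Rt F ln p u a v t' = Rt F ln p u a v t ∧ MidT F ln a v t'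
    · rw [if_pos h, if_pos (this.mp h)]
    · rw [if_neg h, if_neg fun h' => h (this.mpr h')]
  have h2 : (∑ r ∈ G v, if Rt F ln p u a v t = r ∧ DeepT F ln a v t then
      Q t * log (Pr Q (Rt F ln p u a v) r / MB Q (Rt F ln p u a v) r (MidT F ln a v)) else 0) =
      if Rt F ln p u a v t ∈ G v ∧ DeepT F ln a v t then
      Q t * log (Pr Q (Rt F ln p u a v) (Rt F ln p u a v t) /
        MB Q (Rt F ln p u a v) (Rt F ln p u a v t) (MidT F ln a v)) else 0 := by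
    by_cases hD : DeepT F ln a v t
    · simp only [hD, and_true]
      rw [sum_ite_eq]
    · simp [hD]
  rw [h2, e1]
  by_cases h : Rt F ln p u a v t ∈ G v ∧ DeepT F ln a v t
  · rw [if_pos h, if_pos ⟨(hG v _ h.1).ne rfl, (DeepT_iff a v t).mp h.2⟩]
  · rw [if_neg h]
    refine mul_nonneg hq ?_
    split_ifs with h3
    · have h4 : 0 < Q t ∨ Q t = 0 := by
        rcases hq.eq_or_lt with h5 | h5
        · exact Or.inr h5.symm
        · exact Or.inl h5
      have h6 : H649.midM F ln p Q u a 1 v t ≤ Pr Q (Rt F ln p u a v) (Rt F ln p u a v t) := by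
        rw [← e1]
        exact MB_le_Pr hQ _
      have h7 : 0 ≤ H649.midM F ln p Q u a 1 v t := by
        rw [← e1]
        exact MB_nonneg hQ _
      rcases h7.eq_or_lt with h8 | h8
      · rw [← h8, div_zero, log_zero]
      · exact log_nonneg ((one_le_div h8).mpr h6)
    · exact le_rfl

open Classical in
/-- **the long flags** -/
theorem long_sum (hQ : IsProb Q) (u : ℝ) (a PR n : ℕ)
    (G : ℕ → Finset (p.Col × ℤ × ℤ × ℤ)) (hG : ∀ v, ∀ r ∈ G v, Two F u v r.2.2.1) :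
    ∑ v ∈ range n, ∑ r ∈ G v, MB Q (Rt F ln p u a v) r (late F p PR v) ≤ PR := by
  have h1 : ∀ v ∈ range n, ∑ r ∈ G v, MB Q (Rt F ln p u a v) r (late F p PR v) ≤
      ∑ t, Q t * (if lgF F p PR v t then 1 else 0) := by
    intro v _
    rw [sum_MB]
    refine sum_le_sum fun t _ => ?_
    have hq := hQ.nonneg t
    by_cases h : Rt F ln p u a v t ∈ G v ∧ late F p PR v t
    · rw [if_pos h, if_pos (show lgF F p PR v t from ⟨h.2, (hG v _ h.1).lt rfl⟩), mul_one]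
    · rw [if_neg h]
      split_ifs
      · linarith
      · linarith
  refine (sum_le_sum h1).trans ?_
  rw [sum_comm]
  have h2 : ∀ t, ∑ v ∈ range n, Q t * (if lgF F p PR v t then (1 : ℝ) else 0) ≤ Q t * PR := by
    intro t
    rw [← mul_sum]
    refine mul_le_mul_of_nonneg_left ?_ (hQ.nonneg t)
    rw [← Finset.sum_filter, sum_const, nsmul_eq_mul, mul_one]
    exact_mod_cast card_lgF (F := F) (p := p) PR n t
  refine (sum_le_sum fun t _ => h2 t).trans ?_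
  rw [← sum_mul, hQ.sum, one_mul]

open Classical in
/-- **the rows** -/
theorem row_sum (hQ : IsProb Q) (u : ℝ) (a n m : ℕ) {γ δ : Type*}
    (G : ℕ → Finset (p.Col × ℤ × ℤ × ℤ)) (B : ℕ → p.Col × Ω → γ) (X : ℕ → p.Col × Ω → δ)
    (hB : ∀ v, Det (Rt F ln p u a (v + m)) (B v))
    (hX : ∀ v, Det (X v) (fun t => F.D u (v + m) t.2)) :
    ∑ v ∈ range n, ∑ r ∈ G v, Pr Q (Rt F ln p u a v) r *
      Hc (nuT Q (Rt F ln p u a v) r) (B v) (X v) ≤
    m * ∑ t ∈ range (n + m), Hc Q (Rt F ln p u a (t + 1))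
      (fun z => (F.D u (t + 1) z.2, Rt F ln p u a t z)) := by
  refine le_trans (sum_le_sum fun v _ => ?_) (H60.sum_rows_window hQ (Rt F ln p u a)
    (fun t z => F.D u t z.2) (fun t => Rt_det u a t) (fun t z z' h => F.D_det u t _ _ h) m n)
  refine (sum_Hc_boxes hQ (Rt F ln p u a v) (G v) (B v) (X v)).trans ?_
  refine (Hc_mono_left hQ (hB v)).trans ?_
  exact Hc_anti hQ _ (((det_fst _ _).trans (hX v)).pair (det_snd _ _))

end Vale.Agent.P065.H562
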