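import Vale.Agent.P065.H562.ThinDef

/-!
# P065, package TTHIN (helper562), part 7: the one-box inequality for the masses of the law `Q`

The inequality `TBox.thin` for the law `Q` conditioned on the box, multiplied by the mass of the
box; the near part and the middle part are written as sums over the flags.
-/

set_option autoImplicit false

open Finset Real

noncomputable section

namespace Vale.Agent.P065.H562

open Vale.Agent.P065.Ent Vale.Agent.P065.H819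

variable {Θ β : Type*} [Fintype Θ] {Q : Θ → ℝ} {Rv : Θ → β} {r : β}

lemma MB_le_Pr (hQ : IsProb Q) (A : Θ → Prop) : MB Q Rv r A ≤ Pr Q Rv r := by
  classical
  unfold MB
  rw [PE_def]
  unfold Pr
  refine sum_le_sum fun t _ => ?_
  by_cases h : Rv t = r
  · rw [if_pos h]
    split_ifs
    · exact le_rfl
    · exact hQ.nonneg t
  · rw [if_neg h, if_neg fun h' => h h'.1]

open Classical in
lemma MB_mul (A : Θ → Prop) (c : ℝ) :
    MB Q Rv r A * c = ∑ t, if Rv t = r ∧ A t then Q t * c else 0 := by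
  unfold MB
  rw [PE_def, sum_mul]
  refine sum_congr rfl fun t _ => ?_
  by_cases h : Rv t = r ∧ A t
  · simp [h]
  · simp [h]

lemma MB_split (A B : Θ → Prop) :
    MB Q Rv r A = MB Q Rv r (fun t => A t ∧ B t) + MB Q Rv r (fun t => A t ∧ ¬ B t) := by
  unfold MB
  rw [PE_add]
  · refine PE_congr fun t => ?_
    constructor
    · intro h
      by_cases hB : B t
      · exact Or.inl ⟨h.1, h.2, hB⟩
      · exact Or.inr ⟨h.1, h.2, hB⟩
    · rintro (h | h)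
      · exact ⟨h.1, h.2.1⟩
      · exact ⟨h.1, h.2.1⟩
  · rintro t ⟨-, -, h⟩ ⟨-, -, h'⟩
    exact h' h

/-- `x log (y / x) ≤ y - x` -/
lemma mul_log_div_le {x y : ℝ} (hx : 0 < x) (hy : 0 < y) : x * log (y / x) ≤ y - x := by
  have h := log_le_sub_one_of_pos (div_pos hy hx)
  have h2 := mul_le_mul_of_nonneg_left h hx.le
  have h3 : x * (y / x - 1) = y - x := by field_simp
  linarith

section
variable {Ω : Type*} [Fintype Ω] {ξ ε η₁ η₂ : Type*}
variable {μ : Ω → ℝ} {X : Ω → ξ} {E : Ω → ε} {C : Ω → η₁} {B₀ B : Ω → η₂} {xh : ξ → ℝ}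
    {eh : ε → ℝ} {ch : η₁ → ℝ} {bh : η₂ → ℝ} {L R : Ω → Prop} {J0 J1 s : ℝ} {e₁ e₂ : ε}
    {p : ξ → ℝ} {X' : Θ → ξ} {B' : Θ → η₂} {XS : Finset ξ} {V : Finset (ξ × η₂)}
    {Lg : Set ξ} {NC : ℕ} {u : ε → ℝ} {w : ℝ}

open Classical in
/-- **the one-box inequality for the masses of `Q`** -/
theorem TBox.thin_un (hQ : IsProb Q) (hr : 0 < Pr Q Rv r)
    (D : TBox μ X E C B₀ B xh eh ch bh L R J0 J1 s e₁ e₂ p (nuT Q Rv r) X' B' XS V Lg NC u w)
    (Hv S : Set ξ) (hSH : ∀ x ∈ S, x ∉ Hv ∧ x ∉ Lg)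
    (hsep : ∀ x ∈ S, ∀ x' ∈ XS, x' ∈ Hv → 4 * s < |(eh e₁ - eh e₂) * (xh x' - xh x)|)
    (Mid Deep : Θ → Prop) {K0 K1 M0 : ℝ} {N NX : ℕ}
    (hMid : ∀ t, Rv t = r → Mid t → X' t ∉ Lg → bh (B' t) ∈ Set.Icc K0 K1)
    (hDM : ∀ t, Deep t → Mid t)
    (hK0 : J0 + w + 3 * s ≤ K0) (hK1 : K1 ≤ J1 - w - 3 * s)
    (hV : V.card ≤ N) (hNX : XS.card ≤ NX) (hN0 : 0 < N) (hNX0 : 0 < NX) (hNC0 : 0 < NC)
    (hM0 : 1 ≤ M0) (hv lg nr : Θ → Prop)
    (hhv : ∀ t, Rv t = r → (hv t ↔ X' t ∈ Hv)) (hlg : ∀ t, Rv t = r → (lg t ↔ X' t ∈ Lg))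
    (hnr : ∀ t, 0 < Q t → Rv t = r → ¬ hv t → ¬ lg t → ¬ nr t → X' t ∈ S ∧ Deep t)
    (ka : Θ → ℝ) (hka : ∀ t, Rv t = r → ¬ hv t → ka t = MB Q Rv r (fun t => ¬ hv t) / Pr Q Rv r)
    (hM : 0 < MB Q Rv r (fun t => ¬ hv t ∧ ¬ lg t))
    (hsmall : MB Q Rv r (fun t => ¬ hv t ∧ ¬ lg t) ≤
      Pr Q Rv r * exp (-(2000 * M0 * NX * N * NC))) :
    Pr Q Rv r * negMulLog (MB Q Rv r (fun t => ¬ hv t ∧ ¬ lg t) / Pr Q Rv r) ≤
      2 * (∑ t, if Rv t = r ∧ ¬ hv t ∧ ¬ lg t ∧ nr t then Q t * -log (ka t) else 0) +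
      20 * (∑ t, if Rv t = r ∧ Deep t then Q t * log (Pr Q Rv r / MB Q Rv r Mid) else 0) +
      32 * N * NC * (Pr Q Rv r * TInfo μ X E C B xh eh ch L R J0 J1 p (nuT Q Rv r) X' B' u e₁ +
        Pr Q Rv r * TInfo μ X E C B xh eh ch L R J0 J1 p (nuT Q Rv r) X' B' u e₂) +
      4 / M0 * (Pr Q Rv r * Hc (nuT Q Rv r) B' X') + 3 * MB Q Rv r lg := by
  set m := Pr Q Rv r with hm
  set Ms := MB Q Rv r (fun t => ¬ hv t ∧ ¬ lg t) with hMs
  set Ml := MB Q Rv r (fun t => ¬ hv t) with hMl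
  set K : ℝ := 2000 * M0 * NX * N * NC with hK
  have hν : IsProb (nuT Q Rv r) := nuT_prob hQ hr
  -- restrict the events to the box
  have e1 : PE (nuT Q Rv r) (fun t => X' t ∉ Hv ∧ X' t ∉ Lg) = Ms / m := by
    rw [PE_nuT, hMs]
    unfold MB
    rw [PE_congr fun t => ?_]
    constructor
    · rintro ⟨h1, h2, h3⟩
      exact ⟨h1, fun h => h2 ((hhv t h1).mp h), fun h => h3 ((hlg t h1).mp h)⟩
    · rintro ⟨h1, h2, h3⟩
      exact ⟨h1, fun h => h2 ((hhv t h1).mpr h), fun h => h3 ((hlg t h1).mpr h)⟩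
  set q : ℝ := PE (nuT Q Rv r) (fun t => X' t ∈ S ∧ (Rv t = r ∧ Deep t)) with hq
  have e2 : q = MB Q Rv r (fun t => X' t ∈ S ∧ Deep t) / m := by
    rw [hq, PE_nuT]
    unfold MB
    rw [PE_congr fun t => ?_]
    constructor
    · rintro ⟨h1, h2, h3⟩
      exact ⟨h1, h2, h3.2⟩
    · rintro ⟨h1, h2, h3⟩
      exact ⟨h1, h2, h1, h3⟩
  have e3 : PE (nuT Q Rv r) (fun t => Rv t = r ∧ Mid t) = MB Q Rv r Mid / m := by
    rw [PE_nuT]
    unfold MB
    rw [PE_congr fun t => ?_]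
    constructor
    · rintro ⟨h1, h2, h3⟩
      exact ⟨h1, h3⟩
    · rintro ⟨h1, h2⟩
      exact ⟨h1, h1, h2⟩
  have e4 : PE (nuT Q Rv r) (fun t => Rv t = r ∧ Deep t) = MB Q Rv r Deep / m := by
    rw [PE_nuT]
    unfold MB
    rw [PE_congr fun t => ?_]
    constructor
    · rintro ⟨h1, h2, h3⟩
      exact ⟨h1, h3⟩
    · rintro ⟨h1, h2⟩
      exact ⟨h1, h1, h2⟩
  have e5 : PE (nuT Q Rv r) (fun t => X' t ∈ Lg) = MB Q Rv r lg / m := by
    rw [PE_nuT]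
    unfold MB
    rw [PE_congr fun t => ?_]
    constructor
    · rintro ⟨h1, h2⟩
      exact ⟨h1, (hlg t h1).mpr h2⟩
    · rintro ⟨h1, h2⟩
      exact ⟨h1, (hlg t h1).mp h2⟩
  have hqm0 : 0 < Ms / m := div_pos hM hr
  have hsg : K ≤ -log (Ms / m) := by
    have h1 : Ms / m ≤ exp (-K) := by
      rw [div_le_iff₀ hr]
      linarith
    have h2 := log_le_log hqm0 h1
    rw [log_exp] at h2
    linarith
  have key := D.thin Hv S hSH hsep (fun t => Rv t = r ∧ Mid t) (fun t => Rv t = r ∧ Deep t)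
    (K0 := K0) (K1 := K1) (M0 := M0) (qm := Ms / m) (sg := -log (Ms / m)) (q := q)
    (omA := MB Q Rv r Mid / m) (om' := MB Q Rv r Deep / m) (N := N) (NX := NX)
    (fun t h1 h2 => hMid t h1.1 h1.2 h2) (fun t h => ⟨h.1, hDM t h.2⟩) hK0 hK1 hV hNX hN0 hNX0
    hNC0 hM0 e1.symm hqm0 rfl e3.symm e4.symm hq hsg
  rw [e5] at key
  -- multiply by the mass of the box
  have key2 := mul_le_mul_of_nonneg_left key hr.le
  -- the left side
  have l1 : m * negMulLog (Ms / m) = m * (Ms / m * -log (Ms / m)) := by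
    unfold negMulLog; ring
  rw [l1]
  refine key2.trans ?_
  -- the near part
  set Mn := MB Q Rv r (fun t => ¬ hv t ∧ ¬ lg t ∧ nr t) with hMn
  have n1 : Ms ≤ MB Q Rv r (fun t => X' t ∈ S ∧ Deep t) + Mn := by
    have h1 := MB_split (Q := Q) (Rv := Rv) (r := r) (fun t => ¬ hv t ∧ ¬ lg t) nr
    have h2 : MB Q Rv r (fun t => (¬ hv t ∧ ¬ lg t) ∧ nr t) = Mn := by
      rw [hMn]
      unfold MB
      exact PE_congr fun t => by tauto
    have h3 : MB Q Rv r (fun t => (¬ hv t ∧ ¬ lg t) ∧ ¬ nr t) ≤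
        MB Q Rv r (fun t => X' t ∈ S ∧ Deep t) := by
      unfold MB
      rw [PE_def, PE_def]
      refine sum_le_sum fun t _ => ?_
      rcases (hQ.nonneg t).eq_or_lt with h0 | h0
      · rw [← h0]; simp
      · by_cases h : Rv t = r ∧ (¬ hv t ∧ ¬ lg t) ∧ ¬ nr t
        · rw [if_pos h, if_pos ⟨h.1, hnr t h0 h.1 h.2.1.1 h.2.1.2 h.2.2⟩]
        · rw [if_neg h]
          split_ifs
          · exact h0.le
          · exact le_rfl
    rw [← hMs] at h1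
    linarith
  have hMn0 : 0 ≤ Mn := MB_nonneg hQ _
  have hMnMs : Mn ≤ Ms := MB_mono hQ fun t _ h => ⟨h.1, h.2.1⟩
  have hMsMl : Ms ≤ Ml := MB_mono hQ fun t _ h => h.1
  have hMl0 : 0 < Ml := hM.trans_le hMsMl
  have hsg0 : 0 ≤ -log (Ms / m) := by
    have : Ms / m ≤ 1 := (div_le_one hr).mpr (MB_le_Pr hQ _)
    have := log_nonpos hqm0.le this
    linarith
  have n2 : m * (2 * (Ms / m - q) * -log (Ms / m)) ≤ 2 * (Mn * -log (Ms / m)) := by
    have h1 : m * (2 * (Ms / m - q) * -log (Ms / m)) =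
        2 * ((Ms - MB Q Rv r (fun t => X' t ∈ S ∧ Deep t)) * -log (Ms / m)) := by
      rw [e2]
      have : m ≠ 0 := hr.ne'
      field_simp
    rw [h1]
    have h2 : (Ms - MB Q Rv r (fun t => X' t ∈ S ∧ Deep t)) * -log (Ms / m) ≤
        Mn * -log (Ms / m) := mul_le_mul_of_nonneg_right (by linarith) hsg0
    linarith
  have n3 : Mn * -log (Ms / m) ≤ Mn * -log (Ml / m) + MB Q Rv r lg := by
    have h1 : -log (Ms / m) = -log (Ml / m) + log (Ml / Ms) := by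
      rw [log_div hM.ne' hr.ne', log_div hMl0.ne' hr.ne', log_div hMl0.ne' hM.ne']
      ring
    have h2 : 0 ≤ log (Ml / Ms) := log_nonneg ((one_le_div hM).mpr hMsMl)
    have h3 : Mn * log (Ml / Ms) ≤ Ms * log (Ml / Ms) := mul_le_mul_of_nonneg_right hMnMs h2
    have h4 := mul_log_div_le hM hMl0
    have h5 : Ml - Ms ≤ MB Q Rv r lg := by
      have h6 := MB_split (Q := Q) (Rv := Rv) (r := r) (fun t => ¬ hv t) lg
      have h7 : MB Q Rv r (fun t => ¬ hv t ∧ lg t) ≤ MB Q Rv r lg :=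
        MB_mono hQ fun t _ h => h.2
      rw [← hMl, ← hMs] at h6
      linarith
    rw [h1, mul_add]
    linarith
  have n4 : Mn * -log (Ml / m) =
      ∑ t, if Rv t = r ∧ ¬ hv t ∧ ¬ lg t ∧ nr t then Q t * -log (ka t) else 0 := by
    rw [hMn, MB_mul]
    refine sum_congr rfl fun t _ => ?_
    split_ifs with h
    · rw [hka t h.1 h.2.1]
    · rfl
  -- the middle part
  have m1 : m * (20 * (MB Q Rv r Deep / m * -log (MB Q Rv r Mid / m))) =
      20 * (∑ t, if Rv t = r ∧ Deep t then Q t * log (Pr Q Rv r / MB Q Rv r Mid) else 0) := by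
    rw [← MB_mul]
    have h1 : -log (MB Q Rv r Mid / m) = log (m / MB Q Rv r Mid) := by
      rw [← log_inv, inv_div]
    rw [h1, ← hm]
    have : m ≠ 0 := hr.ne'
    field_simp
  have t1 : m * (MB Q Rv r lg / m) = MB Q Rv r lg := by
    have : m ≠ 0 := hr.ne'
    field_simp
  have hfin : m * (2 * (Ms / m - q) * -log (Ms / m) +
      20 * (MB Q Rv r Deep / m * -log (MB Q Rv r Mid / m)) +
      32 * N * NC * (TInfo μ X E C B xh eh ch L R J0 J1 p (nuT Q Rv r) X' B' u e₁ +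
        TInfo μ X E C B xh eh ch L R J0 J1 p (nuT Q Rv r) X' B' u e₂) +
      4 / M0 * Hc (nuT Q Rv r) B' X' + MB Q Rv r lg / m) =
      m * (2 * (Ms / m - q) * -log (Ms / m)) +
      m * (20 * (MB Q Rv r Deep / m * -log (MB Q Rv r Mid / m))) +
      32 * N * NC * (m * TInfo μ X E C B xh eh ch L R J0 J1 p (nuT Q Rv r) X' B' u e₁ +
        m * TInfo μ X E C B xh eh ch L R J0 J1 p (nuT Q Rv r) X' B' u e₂) +
      4 / M0 * (m * Hc (nuT Q Rv r) B' X') + m * (MB Q Rv r lg / m) := by ring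
  rw [hfin, m1, t1, ← n4]
  linarith

end

end Vale.Agent.P065.H562
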