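import Vale.Agent.P065.H562.ThinOne

/-!
# P065, package TTHIN (helper562), part 8: sums over the boxes of one level and over the levels
-/

set_option autoImplicit false
set_option linter.unusedSectionVars false

open Finset Real

noncomputable section

namespace Vale.Agent.P065.H562

open Vale.Agent.P065.Ent Vale.Agent.P065.H819 Vale.Agent.P065.H700

section general

variable {Θ β γ δ : Type*} [Fintype Θ] {Q : Θ → ℝ}

lemma nuT_eq (R : Θ → β) (r : β) : nuT Q R r = cnd Q R r := rfl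

/-- sums over the flags of the boxes -/
lemma sum_boxes (R : Θ → β) (G : Finset β) (P : Θ → Prop) (g : Θ → ℝ)
    [∀ r t, Decidable (R t = r ∧ P t)] [∀ t, Decidable (R t ∈ G ∧ P t)] :
    ∑ r ∈ G, ∑ t, (if R t = r ∧ P t then g t else 0) =
      ∑ t, if R t ∈ G ∧ P t then g t else 0 := by
  rw [sum_comm]
  refine sum_congr rfl fun t _ => ?_
  by_cases hP : R t ∈ G ∧ P t
  · rw [if_pos hP, sum_eq_single (R t)]
    · rw [if_pos ⟨rfl, hP.2⟩]
    · intro r _ hr
      rw [if_neg fun h => hr h.1.symm]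
    · intro h
      exact absurd hP.1 h
  · rw [if_neg hP]
    refine sum_eq_zero fun r hr => if_neg fun h => hP ⟨?_, h.2⟩
    rw [h.1]; exact hr

lemma sum_MB (R : Θ → β) (G : Finset β) (P : Θ → Prop) [∀ t, Decidable (R t ∈ G ∧ P t)] :
    ∑ r ∈ G, MB Q R r P = ∑ t, if R t ∈ G ∧ P t then Q t else 0 := by
  classical
  rw [← sum_boxes]
  refine sum_congr rfl fun r _ => ?_
  unfold MB
  rw [PE_def]
  exact sum_congr rfl fun t _ => by split_ifs <;> rfl

open Classical in
/-- functions of the box -/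
lemma sum_Pr_mul (R : Θ → β) (G : Finset β) (g : β → ℝ) :
    ∑ r ∈ G, Pr Q R r * g r = ∑ t, if R t ∈ G then Q t * g (R t) else 0 := by
  have h : ∀ r, Pr Q R r * g r = ∑ t, if R t = r then Q t * g (R t) else 0 := by
    intro r
    unfold Pr
    rw [sum_mul]
    refine sum_congr rfl fun t _ => ?_
    by_cases h : R t = r
    · simp [h]
    · simp [h]
  rw [sum_congr rfl fun r _ => h r, sum_comm]
  exact sum_congr rfl fun t _ => by rw [sum_ite_eq]

open Classical in
/-- the entropies of the boxes -/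
lemma sum_Hc_boxes (hQ : IsProb Q) (R : Θ → β) (G : Finset β) (B : Θ → γ) (X : Θ → δ) :
    ∑ r ∈ G, Pr Q R r * Hc (nuT Q R r) B X ≤ Hc Q B (fun t => (X t, R t)) := by
  rw [Hc_fiber' hQ B X R]
  have h0 : ∀ r, 0 ≤ Pr Q R r * Hc (cnd Q R r) B X := by
    intro r
    rcases (Pr_nonneg hQ R r).eq_or_lt with h | h
    · rw [← h, zero_mul]
    · exact mul_nonneg h.le (Hc_nonneg (cnd_isProb hQ h) B X)
  have h1 : ∑ r ∈ G, Pr Q R r * Hc (nuT Q R r) B X ≤
      ∑ r ∈ G ∪ univ.image R, Pr Q R r * Hc (cnd Q R r) B X :=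
    sum_le_sum_of_subset_of_nonneg subset_union_left fun r _ _ => h0 r
  refine h1.trans (le_of_eq ?_)
  symm
  refine sum_subset subset_union_right fun r _ hr => ?_
  have : Pr Q R r = 0 := Pr_eq_zero R fun t h => hr (h ▸ mem_image_of_mem R (mem_univ t))
  rw [this, zero_mul]

end general

/-! ## The budget of the divergences, boxes over a filtration -/

section budget

variable {Ω : Type*} [Fintype Ω] {κ : Type*} [Fintype κ] {α β : Type*}
variable {C : Cols Ω κ α} {μ : Ω → ℝ}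

open Classical in
/-- **(D2)** for nested boxes over the coarse box of a filtration -/
theorem budget_T2 (hμ : IsProb μ) (hJ : 0 < C.J μ) (F : C.Filt) (hF : F.Good μ) (b : Bool)
    (n m : ℕ) {τ υ : Type*} (R : ℕ → κ × Ω → τ) (hR : ∀ v, Det (R (v + 1)) (R v))
    (hρ : ∀ v, Det (fun t : κ × Ω => (t.1, C.ρ t.1 t.2)) (R v))
    (h0 : Det (R 0) (fun t : κ × Ω => (t.1, F.R 0 t.1 t.2)))
    (Y : ℕ → κ × Ω → υ) (hY : ∀ v, Det (R (v + m)) (fun t => (Y v t, R v t)))
    (G : ℕ → Finset τ) (s : ℕ → τ → Finset υ) (hs : ∀ v r, ∀ t : κ × Ω, R v t = r → Y v t ∈ s v r) :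
    ∑ v ∈ range n, ∑ r ∈ G v, Pr (C.Q μ) (R v) r *
      ∑ y ∈ s v r, gk
        (Pr (C.Q μ) (fun t => (Y v t, R v t)) (y, r) / Pr (C.Q μ) (R v) r)
        (Pr (zl C μ b) (fun t => (Y v t, R v t)) (y, r) / Pr (zl C μ b) (R v) r) ≤
      m * (3 * (F.A μ false + F.A μ true) / C.J μ) := by
  have hw : ∀ t, 0 ≤ C.Q μ t := fun t => Cols.Q_nonneg hμ t
  have hz : ∀ t, 0 ≤ zl C μ b t := fun t => zl_nonneg hμ b t
  set K : ℕ → ℝ := fun j => KL (C.Q μ) (zl C μ b) (R j) with hK
  have ac : ∀ j, ∀ t, 0 < C.Q μ t → 0 < Pr (zl C μ b) (R j) (R j t) :=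
    fun j t ht => zl_ac hμ hJ b (hρ j) ht
  have h1 : ∀ v ∈ range n, ∑ r ∈ G v, Pr (C.Q μ) (R v) r *
      ∑ y ∈ s v r, gk
        (Pr (C.Q μ) (fun t => (Y v t, R v t)) (y, r) / Pr (C.Q μ) (R v) r)
        (Pr (zl C μ b) (fun t => (Y v t, R v t)) (y, r) / Pr (zl C μ b) (R v) r) ≤
      K (v + m) - K v :=
    fun v _ => sum_gk_le' hw hz (Y v) (R v) (hY v) (ac (v + m)) (G v) (s v) (hs v)
  refine (sum_le_sum h1).trans ?_
  have h2 : ∀ j, K j ≤ K (j + 1) := fun j => KL_mono_nn hw hz (hR j) (ac (j + 1))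
  refine (window_sum K h2 n m).trans ?_
  refine mul_le_mul_of_nonneg_left ?_ (Nat.cast_nonneg m)
  have h3 : K (n + m) ≤ - log (C.J μ) := KL_fine_le hμ hJ b (hρ (n + m))
  have h4 := KL_zero_ge hμ hJ F hF b
  have h5 : KL (C.Q μ) (zl C μ b) (fun t : κ × Ω => (t.1, F.R 0 t.1 t.2)) ≤ K 0 :=
    KL_mono_nn hw hz h0 (ac 0)
  linarith

/-- probabilities of the flags with one label, boxes which determine the column -/
lemma Pr_zl_box (b : Bool) (X : κ × Ω → β) (k : κ) (x : β) (hX : ∀ k' ω, X (k', ω) = x → k' = k) :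
    Pr (zl C μ b) X x = PE μ (fun ω => C.E k ω = some b ∧ X (k, ω) = x) := by
  classical
  unfold Pr
  rw [Fintype.sum_prod_type, sum_eq_single k]
  · rw [PE_def]
    refine sum_congr rfl fun ω _ => ?_
    unfold zl
    by_cases h1 : X (k, ω) = x
    · by_cases h2 : C.E k ω = some b
      · simp [h1, h2]
      · simp [h1, h2]
    · simp [h1]
  · intro k' _ hk
    refine sum_eq_zero fun ω _ => ?_
    rw [if_neg fun h => hk (hX k' ω h)]
  · intro h
    exact absurd (mem_univ k) h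

end budget

end Vale.Agent.P065.H562
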